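import Mathlib
import Crest.Prelude.Def_AsymptoticConvexity

/-!
Shared library for S0166--S0169 (asymptotic uniform convexity).
Typeclass versions of the predicates of `Def_AsymptoticConvexity`, and general lemmas.
-/

set_option autoImplicit false

namespace Crest.Agent.AUC

open Crest.AnalysisR Filter Topology

section Defs

variable {X : Type*} [NormedAddCommGroup X] [NormedSpace ℝ X]

/-- typeclass version of `RealBanach.IsCof`. -/
def IsCofSet (F : Set X) : Prop :=
  ∃ S : Submodule ℝ X, (S : Set X) = F ∧ IsClosed F ∧ FiniteDimensional ℝ (X ⧸ S)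

/-- typeclass version of `RealBanach.IsEquivNorm`. -/
def IsEquivNormOn (N : X → ℝ) : Prop :=
  (∀ x y : X, N (x + y) ≤ N x + N y) ∧ (∀ (a : ℝ) (x : X), N (a • x) = abs a * N x) ∧
    ∃ a b : ℝ, 0 < a ∧ ∀ x : X, a * ‖x‖ ≤ N x ∧ N x ≤ b * ‖x‖

/-- typeclass version of `RealBanach.IsAUC`. -/
def IsAUCOn (N : X → ℝ) : Prop :=
  ∀ t : ℝ, 0 < t → ∃ c : ℝ, 0 < c ∧ ∀ x : X, N x = 1 → ∃ F : Set X, IsCofSet F ∧
    ∀ y ∈ F, N y = 1 → c ≤ N (x + t • y) - 1

/-- typeclass version of `RealBanach.MidpointModulusGE` for the given norm. -/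
def MidGE (X : Type*) [NormedAddCommGroup X] [NormedSpace ℝ X] (t c : ℝ) : Prop :=
  ∀ x : X, ‖x‖ = 1 → ∀ η : ℝ, 0 < η → ∃ F : Set X, IsCofSet F ∧
    ∀ y ∈ F, ‖y‖ = 1 → c - η ≤ (‖x + t • y‖ + ‖x - t • y‖) / 2 - 1

/-- typeclass version of `RealBanach.MidpointModulusLE` for the given norm. -/
def MidLE (X : Type*) [NormedAddCommGroup X] [NormedSpace ℝ X] (t c : ℝ) : Prop :=
  ∀ x : X, ‖x‖ = 1 → ∀ F : Set X, IsCofSet F → ∀ η : ℝ, 0 < η →
    ∃ y ∈ F, ‖y‖ = 1 ∧ (‖x + t • y‖ + ‖x - t • y‖) / 2 - 1 ≤ c + η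

/-- typeclass version of `RealBanach.OneSidedModulusGE` for the given norm. -/
def OneGE (X : Type*) [NormedAddCommGroup X] [NormedSpace ℝ X] (t c : ℝ) : Prop :=
  ∀ x : X, ‖x‖ = 1 → ∀ η : ℝ, 0 < η → ∃ F : Set X, IsCofSet F ∧
    ∀ y ∈ F, ‖y‖ = 1 → c - η ≤ ‖x + t • y‖ - 1

/-- typeclass version of `RealBanach.OneSidedModulusLE` for the given norm. -/
def OneLE (X : Type*) [NormedAddCommGroup X] [NormedSpace ℝ X] (t c : ℝ) : Prop :=
  ∀ x : X, ‖x‖ = 1 → ∀ F : Set X, IsCofSet F → ∀ η : ℝ, 0 < η →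
    ∃ y ∈ F, ‖y‖ = 1 ∧ ‖x + t • y‖ - 1 ≤ c + η

/-- typeclass version of `RealBanach.MaxMidpointModulusGE` for the given norm. -/
def MaxGE (X : Type*) [NormedAddCommGroup X] [NormedSpace ℝ X] (t c : ℝ) : Prop :=
  ∀ x : X, ‖x‖ = 1 → ∀ η : ℝ, 0 < η → ∃ F : Set X, IsCofSet F ∧
    ∀ y ∈ F, ‖y‖ = 1 → c - η ≤ max ‖x + t • y‖ ‖x - t • y‖ - 1

end Defs

section Bridge

/-! Bridges to the bundled predicates: all are definitional unfoldings. -/

variable (E : RealBanach)

theorem isCof_iff (F : Set E.X) :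
    E.IsCof F ↔ @IsCofSet E.X E.normed E.space F := Iff.rfl

theorem isEquivNorm_iff (N : E.X → ℝ) :
    E.IsEquivNorm N ↔ @IsEquivNormOn E.X E.normed E.space N := Iff.rfl

theorem isAUC_iff (N : E.X → ℝ) :
    E.IsAUC N ↔ @IsAUCOn E.X E.normed E.space N := Iff.rfl

theorem midGE_iff (t c : ℝ) :
    E.MidpointModulusGE E.norm t c ↔ @MidGE E.X E.normed E.space t c := Iff.rfl

theorem midLE_iff (t c : ℝ) :
    E.MidpointModulusLE E.norm t c ↔ @MidLE E.X E.normed E.space t c := Iff.rfl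

theorem oneGE_iff (t c : ℝ) :
    E.OneSidedModulusGE E.norm t c ↔ @OneGE E.X E.normed E.space t c := Iff.rfl

theorem oneLE_iff (t c : ℝ) :
    E.OneSidedModulusLE E.norm t c ↔ @OneLE E.X E.normed E.space t c := Iff.rfl

theorem maxGE_iff (t c : ℝ) :
    E.MaxMidpointModulusGE E.norm t c ↔ @MaxGE E.X E.normed E.space t c := Iff.rfl

end Bridge

section General

variable {X : Type*} [NormedAddCommGroup X] [NormedSpace ℝ X]


theorem isCofSet_ker {V : Type*} [NormedAddCommGroup V] [NormedSpace ℝ V] [FiniteDimensional ℝ V]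
    (L : X →L[ℝ] V) : IsCofSet {x : X | L x = 0} := by
  refine ⟨LinearMap.ker (L : X →ₗ[ℝ] V), ?_, ?_, ?_⟩
  · ext x; simp
  · exact isClosed_eq L.continuous continuous_const
  · exact (LinearMap.quotKerEquivRange (L : X →ₗ[ℝ] V)).symm.finiteDimensional

theorem isCofSet_forall_eq_zero {ι : Type*} [Finite ι] (φ : ι → X →L[ℝ] ℝ) :
    IsCofSet {x : X | ∀ i, φ i x = 0} := by
  have := Fintype.ofFinite ι
  have h := isCofSet_ker (ContinuousLinearMap.pi φ)
  convert h using 2
  ext x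
  simp [funext_iff]

theorem isCofSet_univ : IsCofSet (Set.univ : Set X) := by
  have h := isCofSet_ker (0 : X →L[ℝ] ℝ)
  simpa using h

theorem IsCofSet.inter {F G : Set X} (hF : IsCofSet F) (hG : IsCofSet G) : IsCofSet (F ∩ G) := by
  obtain ⟨S, rfl, hSc, hSf⟩ := hF
  obtain ⟨T, rfl, hTc, hTf⟩ := hG
  refine ⟨S ⊓ T, by simp, hSc.inter hTc, ?_⟩
  -- X ⧸ (S ⊓ T) injects into (X ⧸ S) × (X ⧸ T)
  let f : X →ₗ[ℝ] (X ⧸ S) × (X ⧸ T) := S.mkQ.prod T.mkQ
  have hker : LinearMap.ker f = S ⊓ T := by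
    ext x; simp [f, LinearMap.ker_prod]
  have : FiniteDimensional ℝ (X ⧸ LinearMap.ker f) :=
    (LinearMap.quotKerEquivRange f).symm.finiteDimensional
  rw [hker] at this
  exact this

/-- A weakly null sequence is eventually `ε`-near every closed finite-codimensional subspace. -/
theorem eventually_near_of_weaklyNull {y : ℕ → X}
    (hy : ∀ φ : X →L[ℝ] ℝ, Tendsto (fun i => φ (y i)) atTop (𝓝 0))
    {F : Set X} (hF : IsCofSet F) {ε : ℝ} (hε : 0 < ε) :
    ∀ᶠ i in atTop, ∃ z ∈ F, ‖y i - z‖ < ε := by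
  obtain ⟨S, rfl, hSc, hSf⟩ := hF
  have : IsClosed (S : Set X) := hSc
  let b := Module.finBasis ℝ (X ⧸ S)
  have hq : Tendsto (fun i => S.mkQL (y i)) atTop (𝓝 0) := by
    have h1 : ∀ i, S.mkQL (y i) = ∑ j, (b.coord j (S.mkQL (y i))) • b j := by
      intro i
      exact (b.sum_repr _).symm
    have h2 : Tendsto (fun i => ∑ j, (b.coord j (S.mkQL (y i))) • b j) atTop
        (𝓝 (∑ j, (0 : ℝ) • b j)) := by
      refine tendsto_finsetSum _ fun j _ => ?_
      refine Tendsto.smul_const ?_ _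
      exact hy ((LinearMap.toContinuousLinearMap (b.coord j)).comp S.mkQL)
    simp only [zero_smul, Finset.sum_const_zero] at h2
    exact h2.congr fun i => (h1 i).symm
  have hq' : ∀ᶠ i in atTop, ‖S.mkQL (y i)‖ < ε / 2 := by
    have := (tendsto_zero_iff_norm_tendsto_zero.mp hq)
    exact this.eventually (gt_mem_nhds (by positivity))
  filter_upwards [hq'] with i hi
  obtain ⟨m, hm, hm'⟩ := Submodule.Quotient.norm_mk_lt (S.mkQL (y i)) (half_pos hε)
  refine ⟨y i - m, ?_, ?_⟩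
  · have : S.mkQ (y i - m) = 0 := by
      rw [map_sub]
      have h3 : S.mkQ m = S.mkQL (y i) := hm
      rw [h3]; simp
    exact (Submodule.Quotient.mk_eq_zero S).mp this
  · have : y i - (y i - m) = m := by abel
    rw [this]; linarith



/-- `Good δ k x`: `x` is the root of a bounded, `δ`-separated "asymptotic tree" of height `k`. -/
def Good (δ : ℝ) : ℕ → X → Prop
  | 0, x => ‖x‖ ≤ 1
  | k + 1, x => ‖x‖ ≤ 1 ∧ ∀ F : Set X, IsCofSet F → ∀ ε : ℝ, 0 < ε →
      ∃ x' z : X, Good δ k x' ∧ z ∈ F ∧ ‖x' - x - z‖ < ε ∧ δ ≤ ‖x' - x‖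

theorem Good.norm_le {δ : ℝ} {k : ℕ} {x : X} (h : Good δ k x) : ‖x‖ ≤ 1 := by
  cases k with
  | zero => exact h
  | succ k => exact h.1

/-- convexity: if `N (x + t y) ≥ 1 + c` with `N x = 1` then the same holds for larger multiples. -/
theorem IsEquivNormOn.mono_ray {N : X → ℝ} (hN : IsEquivNormOn N) {x y : X} {t τ c : ℝ}
    (ht : 0 < t) (hτ : t ≤ τ) (hc : 0 ≤ c) (hx : N x = 1) (h : 1 + c ≤ N (x + t • y)) :
    1 + c ≤ N (x + τ • y) := by
  obtain ⟨hadd, hsmul, -⟩ := hN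
  have hτ0 : 0 < τ := lt_of_lt_of_le ht hτ
  set s := t / τ with hs
  have hs0 : 0 < s := div_pos ht hτ0
  have hs1 : s ≤ 1 := (div_le_one hτ0).mpr hτ
  have hdecomp : x + t • y = (1 - s) • x + s • (x + τ • y) := by
    have : s * τ = t := by rw [hs]; field_simp
    rw [smul_add, smul_smul, this, sub_smul, one_smul]; abel
  have h1 : N (x + t • y) ≤ (1 - s) * 1 + s * N (x + τ • y) := by
    rw [hdecomp]
    refine (hadd _ _).trans ?_
    rw [hsmul, hsmul, hx, abs_of_nonneg (by linarith), abs_of_pos hs0]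
  have h2 : 1 + c ≤ (1 - s) + s * N (x + τ • y) := by linarith
  have h3 : s * (1 + c) ≤ s * N (x + τ • y) := by nlinarith
  exact le_of_mul_le_mul_left h3 hs0

theorem not_isAUCOn_of_good {δ : ℝ} (hδ : 0 < δ)
    (h : ∀ k : ℕ, ∃ x : X, δ ≤ ‖x‖ ∧ Good δ k x) (N : X → ℝ) (hN : IsEquivNormOn N) :
    ¬ IsAUCOn N := by
  intro hauc
  obtain ⟨hadd, hsmul, a, b, ha, hab⟩ := id hN
  have hb : 0 < b := by
    obtain ⟨x, hx, -⟩ := h 0
    have h1 := hab x
    have hx0 : 0 < ‖x‖ := by linarith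
    have : 0 < a * ‖x‖ := by positivity
    have h2 : 0 < b * ‖x‖ := by linarith [h1.1, h1.2]
    by_contra hb
    push Not at hb
    nlinarith
  have hNneg : ∀ x, N (-x) = N x := by
    intro x
    have := hsmul (-1) x
    simpa using this
  have hsub : ∀ x y, N x - N y ≤ N (x - y) := by
    intro x y
    have := hadd (x - y) y
    simp only [sub_add_cancel] at this
    linarith
  set t₀ := a * δ / (2 * b) with ht₀
  have ht₀pos : 0 < t₀ := by positivity
  obtain ⟨c, hc, hF⟩ := hauc t₀ ht₀pos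
  have key : ∀ k : ℕ, ∀ x : X, Good δ k x → N x * (1 + c / 2) ^ k ≤ b := by
    intro k
    induction k with
    | zero =>
      intro x hx
      have : ‖x‖ ≤ 1 := hx
      have h1 := (hab x).2
      simp only [pow_zero, mul_one]
      nlinarith
    | succ k ih =>
      intro x hx
      obtain ⟨hx1, hx2⟩ := hx
      have hNx0 : 0 ≤ N x := by
        have := (hab x).1
        have h0 : 0 ≤ a * ‖x‖ := by positivity
        linarith
      rcases hNx0.eq_or_lt with h0 | hr
      · rw [← h0]; simp [hb.le]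
      set r := N x with hr_def
      have hrb : r ≤ b := by
        have := (hab x).2
        nlinarith
      have hxhat : N (r⁻¹ • x) = 1 := by
        rw [hsmul, abs_of_pos (inv_pos.mpr hr)]
        exact inv_mul_cancel₀ hr.ne'
      obtain ⟨F, hFcof, hFy⟩ := hF _ hxhat
      set ε := min (a * δ / (2 * b)) (c * r / (2 * b)) with hε
      have hεpos : 0 < ε := by
        apply lt_min <;> positivity
      obtain ⟨x', z, hgood, hzF, hnear, hsep⟩ := hx2 F hFcof ε hεpos
      have hbε1 : b * ε ≤ a * δ / 2 := by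
        have : ε ≤ a * δ / (2 * b) := min_le_left _ _
        calc b * ε ≤ b * (a * δ / (2 * b)) := by gcongr
          _ = a * δ / 2 := by field_simp
      have hbε2 : b * ε ≤ c * r / 2 := by
        have : ε ≤ c * r / (2 * b) := min_le_right _ _
        calc b * ε ≤ b * (c * r / (2 * b)) := by gcongr
          _ = c * r / 2 := by field_simp
      have herr : N (x' - x - z) ≤ b * ε := by
        have := (hab (x' - x - z)).2
        nlinarith
      have hNz : a * δ / 2 ≤ N z := by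
        have h1 : a * δ ≤ N (x' - x) := by
          have := (hab (x' - x)).1
          nlinarith
        have h2 := hsub (x' - x) z
        linarith
      have hNzpos : 0 < N z := by
        have : 0 < a * δ / 2 := by positivity
        linarith
      obtain ⟨S, hS, -, -⟩ := hFcof
      have hzhat : (N z)⁻¹ • z ∈ F := by
        rw [← hS] at hzF ⊢
        exact S.smul_mem _ hzF
      have hNzhat : N ((N z)⁻¹ • z) = 1 := by
        rw [hsmul, abs_of_pos (inv_pos.mpr hNzpos)]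
        exact inv_mul_cancel₀ hNzpos.ne'
      have h1 := hFy _ hzhat hNzhat
      have hτ : t₀ ≤ N z / r := by
        rw [ht₀, div_le_div_iff₀ (by positivity) hr]
        nlinarith
      have h2 := hN.mono_ray ht₀pos hτ hc.le hxhat (by linarith)
      have h3 : r⁻¹ • x + (N z / r) • (N z)⁻¹ • z = r⁻¹ • (x + z) := by
        rw [smul_smul, smul_add]
        congr 2
        field_simp
      rw [h3, hsmul, abs_of_pos (inv_pos.mpr hr)] at h2
      have h4 : r * (1 + c) ≤ N (x + z) := by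
        have := mul_le_mul_of_nonneg_left h2 hr.le
        rwa [← mul_assoc, mul_inv_cancel₀ hr.ne', one_mul] at this
      have h5 : N (x + z) - N (x' - x - z) ≤ N x' := by
        have := hsub (x + z) (-(x' - x - z))
        rw [hNneg] at this
        have e : x + z - -(x' - x - z) = x' := by abel
        rwa [e] at this
      have h6 : r * (1 + c / 2) ≤ N x' := by nlinarith
      have h7 := ih x' hgood
      have hpow : 0 ≤ (1 + c / 2) ^ k := by positivity
      calc r * (1 + c / 2) ^ (k + 1) = (r * (1 + c / 2)) * (1 + c / 2) ^ k := by ring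
        _ ≤ N x' * (1 + c / 2) ^ k := by gcongr
        _ ≤ b := h7
  have hgrow : Tendsto (fun k : ℕ => (1 + c / 2) ^ k) atTop atTop :=
    tendsto_pow_atTop_atTop_of_one_lt (by linarith)
  obtain ⟨k, hk⟩ := (hgrow.eventually (eventually_gt_atTop (b / (a * δ)))).exists
  obtain ⟨x, hx, hgood⟩ := h k
  have h1 := key k x hgood
  have h2 : a * δ ≤ N x := by
    have := (hab x).1
    nlinarith
  have h3 : b < a * δ * (1 + c / 2) ^ k := by
    rw [div_lt_iff₀ (by positivity)] at hk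
    linarith
  have hpow : 0 ≤ (1 + c / 2) ^ k := by positivity
  nlinarith

/-- infinite-height version: a set of vectors closed under taking "asymptotic successors". -/
theorem good_of_selfSimilar {δ : ℝ} (S : Set X)
    (hS : ∀ x ∈ S, ‖x‖ ≤ 1 ∧ ∀ F : Set X, IsCofSet F → ∀ ε : ℝ, 0 < ε →
      ∃ x' ∈ S, ∃ z ∈ F, ‖x' - x - z‖ < ε ∧ δ ≤ ‖x' - x‖) :
    ∀ k : ℕ, ∀ x ∈ S, Good δ k x := by
  intro k
  induction k with
  | zero => intro x hx; exact (hS x hx).1
  | succ k ih =>
    intro x hx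
    refine ⟨(hS x hx).1, fun F hF ε hε => ?_⟩
    obtain ⟨x', hx', z, hz, h1, h2⟩ := (hS x hx).2 F hF ε hε
    exact ⟨x', z, ih x' hx', hz, h1, h2⟩


/-- successor step of `Good` from a weakly null sequence of increments. -/
theorem good_succ_of_weaklyNull {δ : ℝ} {k : ℕ} {x : X} (hx : ‖x‖ ≤ 1) (x' : ℕ → X)
    (hgood : ∀ i, Good δ k (x' i)) (hsep : ∀ i, δ ≤ ‖x' i - x‖)
    (hw : ∀ φ : X →L[ℝ] ℝ, Tendsto (fun i => φ (x' i - x)) atTop (𝓝 0)) :
    Good δ (k + 1) x := by
  refine ⟨hx, fun F hF ε hε => ?_⟩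
  obtain ⟨i, z, hz, hi⟩ := (eventually_near_of_weaklyNull hw hF hε).exists
  exact ⟨x' i, z, hgood i, hz, hi, hsep i⟩

/-- A weakly null sequence bounded away from zero in norm forces infinite dimension. -/
theorem not_finiteDimensional_of_weaklyNull {δ : ℝ} (hδ : 0 < δ) {y : ℕ → X}
    (hy : ∀ φ : X →L[ℝ] ℝ, Tendsto (fun i => φ (y i)) atTop (𝓝 0)) (hsep : ∀ i, δ ≤ ‖y i‖) :
    ¬ FiniteDimensional ℝ X := by
  intro hfd
  have hcof : IsCofSet ({0} : Set X) := by
    have h := isCofSet_ker (ContinuousLinearMap.id ℝ X)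
    convert h using 1
    ext x; simp
  obtain ⟨i, z, hz, hi⟩ := (eventually_near_of_weaklyNull hy hcof hδ).exists
  rw [Set.mem_singleton_iff] at hz
  rw [hz, sub_zero] at hi
  exact absurd (hsep i) (not_le.mpr hi)

theorem MidGE.mono {t c c' : ℝ} (h : MidGE X t c) (hc : c' ≤ c) : MidGE X t c' := by
  intro x hx η hη
  obtain ⟨F, hF, hy⟩ := h x hx η hη
  exact ⟨F, hF, fun y hyF hy1 => by linarith [hy y hyF hy1]⟩

theorem MidGE.maxGE {t c : ℝ} (h : MidGE X t c) : MaxGE X t c := by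
  intro x hx η hη
  obtain ⟨F, hF, hy⟩ := h x hx η hη
  refine ⟨F, hF, fun y hyF hy1 => ?_⟩
  have h1 := hy y hyF hy1
  have h2 := le_max_left ‖x + t • y‖ ‖x - t • y‖
  have h3 := le_max_right ‖x + t • y‖ ‖x - t • y‖
  linarith

end General

end Crest.Agent.AUC
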