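import Crest.Agent.AUC.Basic
import Crest.Prelude.Def_DaugavetL1

/-! Task T2a (owner: helper4).  Consequences of the (rank-one) Daugavet property in an abstract
real normed space. -/

set_option autoImplicit false

namespace Crest.Agent.AUC

open Crest.AnalysisR.L1Subspace

variable {V : Type*} [NormedAddCommGroup V] [NormedSpace ℝ V]

/-- Slice lemma: every non-empty slice of the unit ball contains a point almost at distance two
from `-x₀`. -/
theorem daugavet_slice (hD : HasDaugavetProperty V) (x₀ : V) (hx₀ : ‖x₀‖ = 1) (φ : V →L[ℝ] ℝ)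
    (α : ℝ) (y₀ : V) (hy₀ : ‖y₀‖ ≤ 1) (hα : α < φ y₀) (ε : ℝ) (hε : 0 < ε) :
    ∃ y : V, ‖y‖ ≤ 1 ∧ α < φ y ∧ 2 - ε < ‖x₀ + y‖ := by
  by_cases hφ : φ = 0
  · refine ⟨x₀, hx₀.le, ?_, ?_⟩
    · rw [hφ] at hα ⊢; simpa using hα
    · have : x₀ + x₀ = (2 : ℝ) • x₀ := (two_smul ℝ x₀).symm
      rw [this, norm_smul, hx₀]; norm_num; exact hε
  set n := ‖φ‖ with hn
  have hn0 : 0 < n := norm_pos_iff.mpr hφ
  have hαn : α < n := by
    have h1 : φ y₀ ≤ ‖φ‖ * ‖y₀‖ := (le_abs_self _).trans (φ.le_opNorm y₀)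
    have h2 : ‖φ‖ * ‖y₀‖ ≤ n * 1 := by gcongr
    linarith
  set η := min (ε / 2) ((n - α) / n) with hη
  have hη0 : 0 < η := lt_min (by positivity) (div_pos (by linarith) hn0)
  have hη1 : η ≤ ε / 2 := min_le_left _ _
  have hη2 : η * n ≤ n - α := by
    have : η ≤ (n - α) / n := min_le_right _ _
    rwa [le_div_iff₀ hn0] at this
  have hT : ‖φ.smulRight (n⁻¹ • x₀)‖ = 1 := by
    rw [ContinuousLinearMap.norm_smulRight_apply, norm_smul, hx₀, norm_inv, Real.norm_eq_abs,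
      abs_of_pos hn0, mul_one]
    exact mul_inv_cancel₀ hn0.ne'
  have hD' := hD φ (n⁻¹ • x₀)
  rw [hT] at hD'
  have hlt : 2 - η < ‖ContinuousLinearMap.id ℝ V + φ.smulRight (n⁻¹ • x₀)‖ := by
    rw [hD']; linarith
  obtain ⟨y, hy1, hy2⟩ := ContinuousLinearMap.exists_lt_apply_of_lt_opNorm _ hlt
  have key : ∀ y : V, ‖y‖ < 1 → 0 ≤ φ y → 2 - η < ‖y + (φ y / n) • x₀‖ →
      ∃ y : V, ‖y‖ ≤ 1 ∧ α < φ y ∧ 2 - ε < ‖x₀ + y‖ := by
    intro y hy1 hy0 hy2
    set c := φ y / n with hc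
    have hc0 : 0 ≤ c := div_nonneg hy0 hn0.le
    have hcn : φ y = c * n := by rw [hc]; field_simp
    have hc1 : c ≤ 1 := by
      rw [hc, div_le_one hn0]
      have h1 : φ y ≤ ‖φ‖ * ‖y‖ := (le_abs_self _).trans (φ.le_opNorm y)
      have h2 : ‖φ‖ * ‖y‖ ≤ n * 1 := by gcongr
      linarith
    have h3 : ‖y + c • x₀‖ ≤ ‖y‖ + c := by
      refine (norm_add_le _ _).trans ?_
      rw [norm_smul, hx₀, Real.norm_eq_abs, abs_of_nonneg hc0, mul_one]
    have hc2 : 1 - η < c := by linarith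
    refine ⟨y, hy1.le, ?_, ?_⟩
    · rw [hcn]; nlinarith
    · have h4 : y + c • x₀ = (x₀ + y) - (1 - c) • x₀ := by
        rw [sub_smul, one_smul]; abel
      have h5 : ‖y + c • x₀‖ ≤ ‖x₀ + y‖ + (1 - c) := by
        rw [h4]
        refine (norm_sub_le _ _).trans ?_
        rw [norm_smul, hx₀, Real.norm_eq_abs, abs_of_nonneg (by linarith), mul_one]
      linarith
  have happ : ∀ y : V, (ContinuousLinearMap.id ℝ V + φ.smulRight (n⁻¹ • x₀)) y
      = y + (φ y / n) • x₀ := by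
    intro y
    simp [smul_smul, div_eq_mul_inv]
  rw [happ] at hy2
  rcases le_total 0 (φ y) with h0 | h0
  · exact key y hy1 h0 hy2
  · refine key (-y) (by rwa [norm_neg]) (by rw [map_neg]; linarith) ?_
    have : -y + (φ (-y) / n) • x₀ = -(y + (φ y / n) • x₀) := by
      rw [map_neg, neg_div, neg_smul]; abel
    rw [this, norm_neg]; exact hy2

section Reach

variable {E : Type*} [NormedAddCommGroup E] [InnerProductSpace ℝ E]

/-- Points of the target that are approximately reached by points of the unit ball that are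
almost at distance two from any prescribed direction. -/
def Reach (L : V →L[ℝ] E) : Set E :=
  {k | ∀ x' : V, ‖x'‖ = 1 → ∀ ε : ℝ, 0 < ε → ∃ u : V, ‖u‖ ≤ 1 ∧ ‖L u - k‖ < ε ∧ 2 - ε < ‖x' + u‖}

theorem reach_isClosed (L : V →L[ℝ] E) : IsClosed (Reach L) := by
  rw [← closure_subset_iff_isClosed]
  intro k hk x' hx' ε hε
  obtain ⟨k', hk', hd⟩ := Metric.mem_closure_iff.mp hk (ε / 2) (by positivity)
  obtain ⟨u, hu1, hu2, hu3⟩ := hk' x' hx' (ε / 2) (by positivity)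
  refine ⟨u, hu1, ?_, by linarith⟩
  have : L u - k = (L u - k') - (k - k') := by abel
  rw [this]
  refine (norm_sub_le _ _).trans_lt ?_
  rw [dist_eq_norm] at hd
  linarith

theorem reach_convex (L : V →L[ℝ] E) : Convex ℝ (Reach L) := by
  intro k₁ h₁ k₂ h₂ a b ha hb hab x' hx' ε₀ hε₀
  set ε := min ε₀ 1 with hεdef
  have hε : 0 < ε := lt_min hε₀ one_pos
  have hε1 : ε ≤ 1 := min_le_right _ _
  have hεε : ε ≤ ε₀ := min_le_left _ _
  obtain ⟨u₁, hu1, hu2, hu3⟩ := h₁ x' hx' (ε / 4) (by positivity)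
  set z := x' + a • u₁ with hz
  have hau : ‖a • u₁‖ ≤ a := by
    rw [norm_smul, Real.norm_eq_abs, abs_of_nonneg ha]; nlinarith
  have hbu : ‖b • u₁‖ ≤ b := by
    rw [norm_smul, Real.norm_eq_abs, abs_of_nonneg hb]; nlinarith
  have hz1 : 2 - ε / 4 - b < ‖z‖ := by
    have : x' + u₁ = z + b • u₁ := by
      have hb' : b = 1 - a := by linarith
      rw [hz, hb', sub_smul, one_smul]; abel
    have h := norm_add_le z (b • u₁)
    rw [← this] at h
    linarith
  have hz2 : b ≤ ‖z‖ := by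
    have h : ‖x'‖ ≤ ‖z‖ + ‖a • u₁‖ := by
      have : x' = z - a • u₁ := by rw [hz]; abel
      calc ‖x'‖ = ‖z - a • u₁‖ := by rw [← this]
        _ ≤ _ := norm_sub_le _ _
    linarith
  have hz3 : ‖z‖ ≤ 2 := by
    have h := norm_add_le x' (a • u₁)
    linarith
  have hz0 : 0 < ‖z‖ := by linarith
  have hx'' : ‖‖z‖⁻¹ • z‖ = 1 := by
    rw [norm_smul, norm_inv, norm_norm]; exact inv_mul_cancel₀ hz0.ne'
  obtain ⟨u₂, hv1, hv2, hv3⟩ := h₂ _ hx'' (ε / 4) (by positivity)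
  refine ⟨a • u₁ + b • u₂, ?_, ?_, ?_⟩
  · refine (norm_add_le _ _).trans ?_
    have : ‖b • u₂‖ ≤ b := by
      rw [norm_smul, Real.norm_eq_abs, abs_of_nonneg hb]; nlinarith
    linarith
  · have : L (a • u₁ + b • u₂) - (a • k₁ + b • k₂) = a • (L u₁ - k₁) + b • (L u₂ - k₂) := by
      rw [map_add, map_smul, map_smul, smul_sub, smul_sub]; abel
    rw [this]
    refine (norm_add_le _ _).trans_lt ?_
    rw [norm_smul, norm_smul, Real.norm_eq_abs, Real.norm_eq_abs, abs_of_nonneg ha,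
      abs_of_nonneg hb]
    have h1 : a * ‖L u₁ - k₁‖ ≤ a * (ε / 4) := by gcongr
    have h2 : b * ‖L u₂ - k₂‖ ≤ b * (ε / 4) := by gcongr
    have h3 : a * (ε / 4) + b * (ε / 4) = ε / 4 := by rw [← add_mul, hab, one_mul]
    linarith
  · have e1 : ‖z‖ • (‖z‖⁻¹ • z + u₂) = (x' + (a • u₁ + b • u₂)) + (‖z‖ - b) • u₂ := by
      rw [smul_add, smul_smul, mul_inv_cancel₀ hz0.ne', one_smul, sub_smul, hz]; abel
    have h1 : ‖z‖ * ‖‖z‖⁻¹ • z + u₂‖ ≤ ‖x' + (a • u₁ + b • u₂)‖ + (‖z‖ - b) := by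
      have h := norm_add_le (x' + (a • u₁ + b • u₂)) ((‖z‖ - b) • u₂)
      rw [← e1, norm_smul, norm_norm] at h
      have h' : ‖(‖z‖ - b) • u₂‖ ≤ ‖z‖ - b := by
        rw [norm_smul, Real.norm_eq_abs, abs_of_nonneg (by linarith)]
        nlinarith
      linarith
    have h2 : ‖z‖ * (2 - ε / 4) ≤ ‖z‖ * ‖‖z‖⁻¹ • z + u₂‖ := by gcongr
    nlinarith

/-- A point of `K = closure (L '' ball)` that is farthest from some centre lies in `Reach L`. -/
theorem far_mem_reach (hD : HasDaugavetProperty V) (L : V →L[ℝ] E) (e c : E)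
    (he : e ∈ closure (L '' Metric.closedBall (0 : V) 1))
    (hfar : ∀ k ∈ closure (L '' Metric.closedBall (0 : V) 1), ‖k - c‖ ≤ ‖e - c‖) :
    e ∈ Reach L := by
  intro x' hx' ε hε
  set g : E →L[ℝ] ℝ := innerSL ℝ (e - c) with hg
  have hgapp : ∀ v, g v = inner ℝ (e - c) v := fun v => rfl
  set η := ε ^ 2 / 2 with hη
  have hη0 : 0 < η := by positivity
  -- the slice is non-empty
  have hopen : IsOpen {v : E | g e - η < g v} := isOpen_lt continuous_const g.continuous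
  have hmem : e ∈ {v : E | g e - η < g v} := by
    show g e - η < g e
    linarith
  obtain ⟨v, hv1, hv2⟩ := mem_closure_iff.mp he _ hopen hmem
  obtain ⟨y₀, hy₀, rfl⟩ := hv2
  have hy₀' : ‖y₀‖ ≤ 1 := by simpa using hy₀
  obtain ⟨u, hu1, hu2, hu3⟩ := daugavet_slice hD x' hx' (g.comp L) (g e - η) y₀ hy₀' hv1 ε hε
  refine ⟨u, hu1, ?_, hu3⟩
  have hLu : L u ∈ closure (L '' Metric.closedBall (0 : V) 1) :=
    subset_closure ⟨u, by simpa using hu1, rfl⟩
  have h1 := hfar _ hLu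
  have hu2' : g e - η < g (L u) := hu2
  have h2 : ‖L u - e‖ ^ 2 = ‖L u - c‖ ^ 2 - 2 * inner ℝ (L u - c) (e - c) + ‖e - c‖ ^ 2 := by
    have : L u - e = (L u - c) - (e - c) := by abel
    rw [this, norm_sub_sq_real]
  have h3 : inner ℝ (L u - c) (e - c) = g (L u) - g c := by
    rw [hgapp, hgapp, real_inner_comm, inner_sub_right]
  have h4 : ‖e - c‖ ^ 2 = g e - g c := by
    rw [hgapp, hgapp, ← inner_sub_right, real_inner_self_eq_norm_sq]
  have h5 : ‖L u - c‖ ^ 2 ≤ ‖e - c‖ ^ 2 := by gcongr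
  have h6 : ‖L u - e‖ ^ 2 < ε ^ 2 := by
    rw [h2, h3]
    have : 2 * η = ε ^ 2 := by rw [hη]; ring
    linarith
  exact lt_of_pow_lt_pow_left₀ 2 hε.le h6

theorem closure_image_subset_reach [FiniteDimensional ℝ E] (hD : HasDaugavetProperty V)
    (L : V →L[ℝ] E) : closure (L '' Metric.closedBall (0 : V) 1) ⊆ Reach L := by
  set K := closure (L '' Metric.closedBall (0 : V) 1) with hK
  intro p hp
  by_contra hpG
  obtain ⟨f, r, hfr, hrp⟩ :=
    geometric_hahn_banach_closed_point (reach_convex L) (reach_isClosed L) hpG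
  set ν : E := (InnerProductSpace.toDual ℝ E).symm f with hν
  have hfν : ∀ v, f v = inner ℝ ν v := by
    intro v
    rw [hν, InnerProductSpace.toDual_symm_apply]
  -- `K` is bounded by `M`
  set M := ‖L‖ with hM
  have hKM : ∀ k ∈ K, ‖k‖ ≤ M := by
    have hsub : K ⊆ Metric.closedBall (0 : E) M := by
      refine closure_minimal ?_ Metric.isClosed_closedBall
      rintro _ ⟨y, hy, rfl⟩
      have hy' : ‖y‖ ≤ 1 := by simpa using hy
      have h1 := L.le_opNorm y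
      have h2 : ‖L‖ * ‖y‖ ≤ ‖L‖ * 1 := by gcongr
      simp only [Metric.mem_closedBall, dist_zero_right]
      linarith
    intro k hk
    simpa using hsub hk
  have hKc : IsCompact K := by
    refine Metric.isCompact_of_isClosed_isBounded isClosed_closure ?_
    refine (Metric.isBounded_closedBall (x := (0 : E)) (r := M)).subset ?_
    intro k hk
    simpa using hKM k hk
  set γ := f p - r with hγ
  have hγ0 : 0 < γ := by linarith
  set R := (M ^ 2 + 1) / (2 * γ) with hR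
  have hR0 : 0 < R := by positivity
  obtain ⟨e, heK, hemax⟩ := hKc.exists_isMaxOn ⟨p, hp⟩
    (f := fun k => ‖k - (-(R • ν))‖) (by fun_prop)
  have hfar : ∀ k ∈ K, ‖k - (-(R • ν))‖ ≤ ‖e - (-(R • ν))‖ := fun k hk => hemax hk
  have heG : e ∈ Reach L := far_mem_reach hD L e _ heK hfar
  have h1 := hfr e heG
  have h2 := hfar p hp
  have h3 : ‖p - (-(R • ν))‖ ^ 2 ≤ ‖e - (-(R • ν))‖ ^ 2 := by gcongr
  have hexp : ∀ k : E, ‖k - (-(R • ν))‖ ^ 2 = ‖k‖ ^ 2 + 2 * R * f k + ‖R • ν‖ ^ 2 := by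
    intro k
    rw [sub_neg_eq_add, norm_add_sq_real, inner_smul_right, real_inner_comm, hfν]
    ring
  rw [hexp, hexp] at h3
  have h4 : ‖e‖ ^ 2 ≤ M ^ 2 := by
    have := hKM e heK
    gcongr
  have h5 : 0 ≤ ‖p‖ ^ 2 := by positivity
  have h6 : 2 * R * γ = M ^ 2 + 1 := by
    rw [hR]; field_simp
  have h7 : 2 * R * γ < 2 * R * (f p - f e) := by
    have : γ < f p - f e := by rw [hγ]; linarith
    have h2R : 0 < 2 * R := by positivity
    exact mul_lt_mul_of_pos_left this h2R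
  nlinarith

end Reach

/-- KEY LEMMA. -/
theorem daugavet_cofinite (hD : HasDaugavetProperty V) (x : V) (hx : ‖x‖ = 1)
    (F : Set V) (hF : IsCofSet F) (ε : ℝ) (hε : 0 < ε) :
    ∃ u : V, ‖u‖ ≤ 1 + ε ∧ u - x ∈ F ∧ 2 - ε ≤ ‖u - x‖ := by
  obtain ⟨S, rfl, hSc, hSf⟩ := hF
  have : IsClosed (S : Set V) := hSc
  set τ : (V ⧸ S) ≃L[ℝ] EuclideanSpace ℝ (Fin (Module.finrank ℝ (V ⧸ S))) := toEuclidean with hτ
  set L : V →L[ℝ] EuclideanSpace ℝ (Fin (Module.finrank ℝ (V ⧸ S))) :=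
    (τ : (V ⧸ S) →L[ℝ] _).comp S.mkQL with hL
  set C := ‖(τ.symm : EuclideanSpace ℝ (Fin (Module.finrank ℝ (V ⧸ S))) →L[ℝ] (V ⧸ S))‖ with hC
  have hC0 : 0 ≤ C := ContinuousLinearMap.opNorm_nonneg _
  set δ := ε / (4 * (C + 1)) with hδ
  have hδ0 : 0 < δ := by positivity
  have hδε : δ ≤ ε / 4 := by
    rw [hδ]
    apply div_le_div_of_nonneg_left hε.le (by norm_num) (by linarith)
  have hCδ : C * δ < ε / 4 := by
    rw [hδ]
    rw [mul_div_assoc', div_lt_div_iff₀ (by positivity) (by norm_num)]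
    nlinarith
  have hxK : L x ∈ closure (L '' Metric.closedBall (0 : V) 1) :=
    subset_closure ⟨x, by simp [hx], rfl⟩
  have hreach := closure_image_subset_reach hD L hxK
  obtain ⟨u₀, hu1, hu2, hu3⟩ := hreach (-x) (by rwa [norm_neg]) δ hδ0
  have hq : ‖S.mkQL (u₀ - x)‖ < ε / 4 := by
    have h1 : S.mkQL (u₀ - x) = τ.symm (L u₀ - L x) := by
      rw [← map_sub, hL]; simp
    rw [h1]
    have h2 := (τ.symm : EuclideanSpace ℝ (Fin (Module.finrank ℝ (V ⧸ S))) →L[ℝ] (V ⧸ S)).le_opNorm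
      (L u₀ - L x)
    have h3 : C * ‖L u₀ - L x‖ ≤ C * δ := by gcongr
    have h4 : ‖τ.symm (L u₀ - L x)‖ ≤ C * ‖L u₀ - L x‖ := h2
    linarith
  obtain ⟨m, hm, hm'⟩ := Submodule.Quotient.norm_mk_lt (S.mkQL (u₀ - x)) (by positivity : 0 < ε / 4)
  have hmε : ‖m‖ < ε / 2 := by linarith
  refine ⟨u₀ - m, ?_, ?_, ?_⟩
  · have := norm_sub_le u₀ m
    linarith
  · have h0 : S.mkQ (u₀ - m - x) = 0 := by
      have e1 : u₀ - m - x = (u₀ - x) - m := by abel
      rw [e1, map_sub]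
      have h3 : S.mkQ m = S.mkQL (u₀ - x) := hm
      rw [h3]; simp
    exact (Submodule.Quotient.mk_eq_zero S).mp h0
  · have e1 : -x + u₀ = (u₀ - m - x) + m := by abel
    have h := norm_add_le (u₀ - m - x) m
    rw [← e1] at h
    linarith

/-- common core of `daugavet_oneLE` and `daugavet_midLE`. -/
theorem daugavet_dir (hD : HasDaugavetProperty V) (t : ℝ) (ht : 0 < t) (x : V) (hx : ‖x‖ = 1)
    (F : Set V) (hF : IsCofSet F) (η : ℝ) (hη : 0 < η) :
    ∃ y ∈ F, ‖y‖ = 1 ∧ ‖x + t • y‖ ≤ max 1 (t - 1) + η := by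
  set ε := min 1 (min η (η / (2 * t))) with hε
  have hε0 : 0 < ε := by
    refine lt_min one_pos (lt_min hη ?_)
    positivity
  have hε1 : ε ≤ 1 := min_le_left _ _
  have hε2 : ε ≤ η := (min_le_right _ _).trans (min_le_left _ _)
  have hε3 : 2 * t * ε ≤ η := by
    have : ε ≤ η / (2 * t) := (min_le_right _ _).trans (min_le_right _ _)
    rw [le_div_iff₀ (by positivity)] at this
    linarith
  obtain ⟨u, hu1, hu2, hu3⟩ := daugavet_cofinite hD x hx F hF ε hε0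
  set d := ‖u - x‖ with hd
  have hd1 : 1 ≤ d := by linarith
  have hd0 : 0 < d := by linarith
  obtain ⟨S, hS, -, -⟩ := hF
  refine ⟨d⁻¹ • (u - x), ?_, ?_, ?_⟩
  · rw [← hS] at hu2 ⊢
    exact S.smul_mem _ hu2
  · rw [norm_smul, norm_inv, Real.norm_eq_abs, abs_of_pos hd0, ← hd]
    exact inv_mul_cancel₀ hd0.ne'
  · set τ := t / d with hτ
    have hτ0 : 0 < τ := div_pos ht hd0
    have hτd : τ * d = t := by rw [hτ]; field_simp
    have e1 : x + t • d⁻¹ • (u - x) = (1 - τ) • x + τ • u := by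
      rw [smul_smul, ← div_eq_mul_inv, ← hτ, smul_sub, sub_smul, one_smul]; abel
    have h1 : ‖x + t • d⁻¹ • (u - x)‖ ≤ |1 - τ| + τ * (1 + ε) := by
      rw [e1]
      refine (norm_add_le _ _).trans ?_
      rw [norm_smul, norm_smul, hx, Real.norm_eq_abs, Real.norm_eq_abs, abs_of_pos hτ0, mul_one]
      gcongr
    refine h1.trans ?_
    rcases le_total τ 1 with h | h
    · rw [abs_of_nonneg (by linarith)]
      have : τ * ε ≤ 1 * η := by gcongr
      have h2 := le_max_left 1 (t - 1)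
      nlinarith
    · rw [abs_of_nonpos (by linarith)]
      have h2 := le_max_right 1 (t - 1)
      -- `τ (2 + ε) - 1 ≤ t - 1 + η`
      have h3 : τ * (2 - ε) ≤ t := by
        rw [← hτd]; gcongr
      have h4 : τ ≤ t := by
        rw [← hτd]; nlinarith
      have h5 : τ * ε ≤ t * ε := by gcongr
      nlinarith

theorem daugavet_oneLE (hD : HasDaugavetProperty V) (t : ℝ) (ht : 0 < t) :
    OneLE V t (max 0 (t - 2)) := by
  intro x hx F hF η hη
  obtain ⟨y, hyF, hy1, hy2⟩ := daugavet_dir hD t ht x hx F hF η hη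
  refine ⟨y, hyF, hy1, ?_⟩
  have : max 1 (t - 1) = max 0 (t - 2) + 1 := by
    rw [← max_add_add_right]; congr 1 <;> ring
  linarith

theorem daugavet_midLE (hD : HasDaugavetProperty V) (t : ℝ) (ht : 0 < t) :
    MidLE V t (max (t / 2) (t - 1)) := by
  intro x hx F hF η hη
  obtain ⟨y, hyF, hy1, hy2⟩ := daugavet_dir hD t ht x hx F hF η hη
  refine ⟨y, hyF, hy1, ?_⟩
  have h1 : ‖x - t • y‖ ≤ 1 + t := by
    refine (norm_sub_le _ _).trans ?_
    rw [norm_smul, hx, hy1, Real.norm_eq_abs, abs_of_pos ht, mul_one]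
  have h2 : max 1 (t - 1) ≤ 2 * max (t / 2) (t - 1) + 1 - t := by
    have a1 := le_max_left (t / 2) (t - 1)
    have a2 := le_max_right (t / 2) (t - 1)
    apply max_le <;> linarith
  linarith

/-- holds in every normed space (Hahn--Banach: `F = ker` of a norming functional of `x`). -/
theorem oneGE_general (t : ℝ) (ht : 0 < t) : OneGE V t (max 0 (t - 2)) := by
  intro x hx η hη
  have hx0 : ‖x‖ ≠ 0 := by rw [hx]; exact one_ne_zero
  obtain ⟨f, hf1, hf2⟩ := exists_dual_vector ℝ x hx0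
  refine ⟨{y | f y = 0}, isCofSet_ker f, ?_⟩
  intro y hy hy1
  have hy0 : f y = 0 := hy
  have h1 : 1 ≤ ‖x + t • y‖ := by
    have h := f.le_opNorm (x + t • y)
    rw [hf1, one_mul, map_add, map_smul, hy0, smul_zero, add_zero, hf2] at h
    simpa [hx] using h
  have h2 : t - 1 ≤ ‖x + t • y‖ := by
    have h := norm_sub_le (x + t • y) x
    rw [add_sub_cancel_left, norm_smul, hy1, hx, Real.norm_eq_abs, abs_of_pos ht, mul_one] at h
    linarith
  have h3 : max 0 (t - 2) ≤ ‖x + t • y‖ - 1 := by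
    apply max_le <;> linarith
  linarith

theorem daugavet_not_isAUCOn (hD : HasDaugavetProperty V) (hne : ∃ x : V, x ≠ 0)
    (N : V → ℝ) (hN : IsEquivNormOn N) : ¬ IsAUCOn N := by
  have hgood := good_of_selfSimilar (δ := 1) {x : V | ‖x‖ = 1} (by
    intro x hx
    have hx1 : ‖x‖ = 1 := hx
    refine ⟨hx1.le, fun F hF ε hε => ?_⟩
    set ε' := min (1 / 2) (ε / 2) with hε'
    have h0 : 0 < ε' := lt_min (by norm_num) (by positivity)
    have h1 : ε' ≤ 1 / 2 := min_le_left _ _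
    have h2 : ε' ≤ ε / 2 := min_le_right _ _
    obtain ⟨u, hu1, hu2, hu3⟩ := daugavet_cofinite hD x hx1 F hF ε' h0
    have hu4 : 1 - ε' ≤ ‖u‖ := by
      have := norm_sub_le u x
      linarith
    have hu0 : 0 < ‖u‖ := by linarith
    have herr : ‖‖u‖⁻¹ • u - u‖ ≤ ε' := by
      have e1 : ‖u‖⁻¹ • u - u = (‖u‖⁻¹ - 1) • u := by rw [sub_smul, one_smul]
      rw [e1, norm_smul, Real.norm_eq_abs]
      have e2 : |‖u‖⁻¹ - 1| * ‖u‖ = |1 - ‖u‖| := by
        rw [← abs_of_pos hu0, ← abs_mul, abs_of_pos hu0, sub_mul, inv_mul_cancel₀ hu0.ne', one_mul]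
      rw [e2, abs_le]
      constructor <;> linarith
    refine ⟨‖u‖⁻¹ • u, ?_, u - x, hu2, ?_, ?_⟩
    · show ‖‖u‖⁻¹ • u‖ = 1
      rw [norm_smul, norm_inv, norm_norm]; exact inv_mul_cancel₀ hu0.ne'
    · have e1 : ‖u‖⁻¹ • u - x - (u - x) = ‖u‖⁻¹ • u - u := by abel
      rw [e1]; linarith
    · have e1 : u - x = (‖u‖⁻¹ • u - x) - (‖u‖⁻¹ • u - u) := by abel
      have h := norm_sub_le (‖u‖⁻¹ • u - x) (‖u‖⁻¹ • u - u)
      rw [← e1] at h
      linarith)
  obtain ⟨x, hx⟩ := hne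
  have hx0 : 0 < ‖x‖ := norm_pos_iff.mpr hx
  have hx1 : ‖‖x‖⁻¹ • x‖ = 1 := by
    rw [norm_smul, norm_inv, norm_norm]; exact inv_mul_cancel₀ hx0.ne'
  exact not_isAUCOn_of_good one_pos (fun k => ⟨‖x‖⁻¹ • x, hx1.ge, hgood k _ hx1⟩) N hN

end Crest.Agent.AUC
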