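import Crest.Agent.AUC.Basic
import Crest.Prelude.Def_Diamond

/-! Task T4a (helper13).  Distortion of the countably branching diamonds in a space with
max-midpoint modulus `√(1+t²/4) - 1`. -/

set_option autoImplicit false

namespace Crest.Agent.AUC.Diamond

open Crest.AnalysisR Filter Topology

section Analytic

variable {X : Type*} [NormedAddCommGroup X] [NormedSpace ℝ X]

/-- Pigeonhole in a finite-dimensional quotient: a bounded sequence has two distinct terms whose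
difference is `ε`-close to the closed finite-codimensional subspace `S`. -/
theorem exists_pair_near (S : Submodule ℝ X) (hS : IsClosed (S : Set X))
    (hfin : FiniteDimensional ℝ (X ⧸ S)) (z : ℕ → X) (R : ℝ) (hz : ∀ i, ‖z i‖ ≤ R)
    (ε : ℝ) (hε : 0 < ε) :
    ∃ i l : ℕ, i ≠ l ∧ ∃ w ∈ S, ‖z i - z l - w‖ < ε := by
  have : IsClosed (S : Set X) := hS
  have : ProperSpace (X ⧸ S) := FiniteDimensional.proper_real (X ⧸ S)
  let q : ℕ → X ⧸ S := fun i => Submodule.Quotient.mk (z i)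
  have hq : ∀ i, q i ∈ Metric.closedBall (0 : X ⧸ S) R := by
    intro i
    simp only [Metric.mem_closedBall, dist_zero_right]
    exact (Submodule.Quotient.norm_mk_le S (z i)).trans (hz i)
  obtain ⟨a, -, φ, hφ, hlim⟩ := tendsto_subseq_of_bounded (Metric.isBounded_closedBall) hq
  have hc : CauchySeq (q ∘ φ) := hlim.cauchySeq
  rw [Metric.cauchySeq_iff] at hc
  obtain ⟨n, hn⟩ := hc ε hε
  have h1 := hn n le_rfl (n + 1) (Nat.le_succ n)
  refine ⟨φ n, φ (n + 1), (hφ (Nat.lt_succ_self n)).ne, ?_⟩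
  rw [dist_eq_norm] at h1
  have h2 : (q ∘ φ) n - (q ∘ φ) (n + 1) = Submodule.Quotient.mk (z (φ n) - z (φ (n + 1))) := by
    simp [q, Submodule.Quotient.mk_sub]
  rw [h2] at h1
  obtain ⟨m, hm, hmlt⟩ := (QuotientAddGroup.norm_lt_iff (S := S.toAddSubgroup)).1 h1
  have hm' : (Submodule.Quotient.mk m : X ⧸ S) = Submodule.Quotient.mk (z (φ n) - z (φ (n + 1))) := hm
  rw [Submodule.Quotient.eq] at hm'
  refine ⟨z (φ n) - z (φ (n + 1)) - m, ?_, ?_⟩
  · have := S.neg_mem hm'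
    simpa using this
  · simpa using hmlt

/-- The max-midpoint modulus hypothesis, in typeclass form. -/
def MaxMod (X : Type*) [NormedAddCommGroup X] [NormedSpace ℝ X] : Prop :=
  ∀ t : ℝ, 0 < t → ∀ x : X, ‖x‖ = 1 → ∀ η : ℝ, 0 < η → ∃ S : Submodule ℝ X,
    IsClosed (S : Set X) ∧ FiniteDimensional ℝ (X ⧸ S) ∧
      ∀ y ∈ S, ‖y‖ = 1 →
        Real.sqrt (1 + t ^ 2 / 4) - 1 - η ≤ max ‖x + t • y‖ ‖x - t • y‖ - 1

theorem midpoint_step_aux (hmod : MaxMod X) (x : X) (hx : x ≠ 0) (z : ℕ → X) (L s : ℝ)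
    (h1 : ∀ i, ‖x + z i‖ ≤ L) (h2 : ∀ i, ‖x - z i‖ ≤ L)
    (h3 : ∀ i l, i ≠ l → 2 * s ≤ ‖z i - z l‖) (ε η : ℝ) (hε : 0 < ε) (hεs : ε < s)
    (hη : 0 < η) :
    Real.sqrt (‖x‖ ^ 2 + (s - ε) ^ 2 / 4) - ‖x‖ * η ≤ L + ε := by
  set r := ‖x‖ with hr
  have hr0 : 0 < r := norm_pos_iff.2 hx
  set t := (s - ε) / r with ht
  have ht0 : 0 < t := div_pos (by linarith) hr0
  have hxh : ‖r⁻¹ • x‖ = 1 := by
    rw [norm_smul, Real.norm_eq_abs, abs_of_pos (inv_pos.2 hr0), ← hr]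
    exact inv_mul_cancel₀ hr0.ne'
  obtain ⟨S, hcl, hfd, hS⟩ := hmod t ht0 (r⁻¹ • x) hxh η hη
  have hzb : ∀ i, ‖z i‖ ≤ L + r := by
    intro i
    have : z i = (x + z i) - x := by abel
    calc ‖z i‖ = ‖(x + z i) - x‖ := by rw [← this]
      _ ≤ ‖x + z i‖ + ‖x‖ := norm_sub_le _ _
      _ ≤ L + r := by linarith [h1 i]
  obtain ⟨i, l, hil, w0, hw0S, hw0⟩ := exists_pair_near S hcl hfd z (L + r) hzb (2 * ε) (by linarith)
  set w' : X := (1 / 2 : ℝ) • w0 with hw'
  set w : X := (1 / 2 : ℝ) • (z i - z l) with hw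
  have hw'S : w' ∈ S := S.smul_mem _ hw0S
  have hww' : ‖w - w'‖ < ε := by
    have : w - w' = (1 / 2 : ℝ) • (z i - z l - w0) := by
      rw [hw, hw', ← smul_sub]
    rw [this, norm_smul, Real.norm_eq_abs, abs_of_pos (by norm_num : (0 : ℝ) < 1 / 2)]
    linarith
  have hwn : s ≤ ‖w‖ := by
    rw [hw, norm_smul, Real.norm_eq_abs, abs_of_pos (by norm_num : (0 : ℝ) < 1 / 2)]
    linarith [h3 i l hil]
  have hw'n : s - ε ≤ ‖w'‖ := by
    have : ‖w‖ ≤ ‖w'‖ + ‖w - w'‖ := by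
      calc ‖w‖ = ‖w' + (w - w')‖ := by congr 1; abel
        _ ≤ _ := norm_add_le _ _
    linarith
  have hw'0 : 0 < ‖w'‖ := by linarith
  have hp : ‖x + w'‖ ≤ L + ε := by
    have e : x + w' = (1 / 2 : ℝ) • (x + z i) + (1 / 2 : ℝ) • (x - z l) - (w - w') := by
      rw [hw]
      module
    rw [e]
    calc _ ≤ ‖(1 / 2 : ℝ) • (x + z i) + (1 / 2 : ℝ) • (x - z l)‖ + ‖w - w'‖ := norm_sub_le _ _
      _ ≤ ‖(1 / 2 : ℝ) • (x + z i)‖ + ‖(1 / 2 : ℝ) • (x - z l)‖ + ‖w - w'‖ := by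
          gcongr; exact norm_add_le _ _
      _ = 1 / 2 * ‖x + z i‖ + 1 / 2 * ‖x - z l‖ + ‖w - w'‖ := by
          rw [norm_smul, norm_smul, Real.norm_eq_abs, abs_of_pos (by norm_num : (0 : ℝ) < 1 / 2)]
      _ ≤ L + ε := by linarith [h1 i, h2 l]
  have hm : ‖x - w'‖ ≤ L + ε := by
    have e : x - w' = (1 / 2 : ℝ) • (x - z i) + (1 / 2 : ℝ) • (x + z l) + (w - w') := by
      rw [hw]
      module
    rw [e]
    calc _ ≤ ‖(1 / 2 : ℝ) • (x - z i) + (1 / 2 : ℝ) • (x + z l)‖ + ‖w - w'‖ := norm_add_le _ _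
      _ ≤ ‖(1 / 2 : ℝ) • (x - z i)‖ + ‖(1 / 2 : ℝ) • (x + z l)‖ + ‖w - w'‖ := by
          gcongr; exact norm_add_le _ _
      _ = 1 / 2 * ‖x - z i‖ + 1 / 2 * ‖x + z l‖ + ‖w - w'‖ := by
          rw [norm_smul, norm_smul, Real.norm_eq_abs, abs_of_pos (by norm_num : (0 : ℝ) < 1 / 2)]
      _ ≤ L + ε := by linarith [h2 i, h1 l]
  clear_value w' w
  set lam := (s - ε) / ‖w'‖ with hlam
  have hlam0 : 0 < lam := div_pos (by linarith) hw'0
  have hlam1 : lam ≤ 1 := (div_le_one hw'0).2 hw'n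
  have hconv : ∀ a b : X, ‖a‖ ≤ L + ε → ‖b‖ ≤ L + ε →
      ‖((1 + lam) / 2) • a + ((1 - lam) / 2) • b‖ ≤ L + ε := by
    intro a b ha hb
    calc _ ≤ ‖((1 + lam) / 2) • a‖ + ‖((1 - lam) / 2) • b‖ := norm_add_le _ _
      _ = (1 + lam) / 2 * ‖a‖ + (1 - lam) / 2 * ‖b‖ := by
          rw [norm_smul, norm_smul, Real.norm_eq_abs, Real.norm_eq_abs,
            abs_of_nonneg (by linarith : 0 ≤ (1 + lam) / 2),
            abs_of_nonneg (by linarith : 0 ≤ (1 - lam) / 2)]
      _ ≤ (1 + lam) / 2 * (L + ε) + (1 - lam) / 2 * (L + ε) := by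
          gcongr
      _ = L + ε := by ring
  have hpl : ‖x + lam • w'‖ ≤ L + ε := by
    have e : x + lam • w' = ((1 + lam) / 2) • (x + w') + ((1 - lam) / 2) • (x - w') := by module
    rw [e]; exact hconv _ _ hp hm
  have hml : ‖x - lam • w'‖ ≤ L + ε := by
    have e : x - lam • w' = ((1 + lam) / 2) • (x - w') + ((1 - lam) / 2) • (x + w') := by module
    rw [e]; exact hconv _ _ hm hp
  set y : X := ‖w'‖⁻¹ • w' with hy
  have hyS : y ∈ S := S.smul_mem _ hw'S
  have hyn : ‖y‖ = 1 := by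
    rw [hy, norm_smul, Real.norm_eq_abs, abs_of_pos (inv_pos.2 hw'0)]
    exact inv_mul_cancel₀ hw'0.ne'
  have key := hS y hyS hyn
  have hc : t * ‖w'‖⁻¹ = r⁻¹ * lam := by
    rw [ht, hlam]; field_simp
  have e1 : r⁻¹ • x + t • y = r⁻¹ • (x + lam • w') := by
    rw [hy, smul_add, smul_smul, smul_smul, hc]
  have e2 : r⁻¹ • x - t • y = r⁻¹ • (x - lam • w') := by
    rw [hy, smul_sub, smul_smul, smul_smul, hc]
  rw [e1, e2, norm_smul, norm_smul, Real.norm_eq_abs, abs_of_pos (inv_pos.2 hr0)] at key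
  have hmax : max (r⁻¹ * ‖x + lam • w'‖) (r⁻¹ * ‖x - lam • w'‖) ≤ r⁻¹ * (L + ε) := by
    apply max_le <;> gcongr
  have h5 : Real.sqrt (1 + t ^ 2 / 4) - η ≤ r⁻¹ * (L + ε) := by linarith
  have h6 : r * (Real.sqrt (1 + t ^ 2 / 4) - η) ≤ L + ε := by
    calc _ ≤ r * (r⁻¹ * (L + ε)) := by gcongr
      _ = L + ε := by field_simp
  have h7 : Real.sqrt (r ^ 2 + (s - ε) ^ 2 / 4) = r * Real.sqrt (1 + t ^ 2 / 4) := by
    have : r ^ 2 + (s - ε) ^ 2 / 4 = r ^ 2 * (1 + t ^ 2 / 4) := by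
      rw [ht]; field_simp
    rw [this, Real.sqrt_mul (by positivity), Real.sqrt_sq hr0.le]
  rw [h7]
  linarith

theorem midpoint_step (hmod : MaxMod X) (x : X) (z : ℕ → X) (L s : ℝ) (hs : 0 < s)
    (h1 : ∀ i, ‖x + z i‖ ≤ L) (h2 : ∀ i, ‖x - z i‖ ≤ L)
    (h3 : ∀ i l, i ≠ l → 2 * s ≤ ‖z i - z l‖) :
    ‖x‖ ^ 2 + s ^ 2 / 4 ≤ L ^ 2 := by
  by_cases hx : x = 0
  · subst hx
    have ha := h3 0 1 (by norm_num)
    have hb : ‖z 0 - z 1‖ ≤ L + L := by
      calc ‖z 0 - z 1‖ = ‖(0 + z 0) + (0 - z 1)‖ := by congr 1; abel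
        _ ≤ ‖0 + z 0‖ + ‖0 - z 1‖ := norm_add_le _ _
        _ ≤ L + L := add_le_add (h1 0) (h2 1)
    have hsL : s ≤ L := by linarith
    simp only [norm_zero]
    nlinarith
  · have hlim : Tendsto (fun ε : ℝ => Real.sqrt (‖x‖ ^ 2 + (s - ε) ^ 2 / 4) - ‖x‖ * ε - ε)
        (𝓝[>] 0) (𝓝 (Real.sqrt (‖x‖ ^ 2 + (s - 0) ^ 2 / 4) - ‖x‖ * 0 - 0)) := by
      apply Tendsto.mono_left _ nhdsWithin_le_nhds
      apply Continuous.tendsto
      fun_prop
    have hev : ∀ᶠ ε in 𝓝[>] (0 : ℝ),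
        Real.sqrt (‖x‖ ^ 2 + (s - ε) ^ 2 / 4) - ‖x‖ * ε - ε ≤ L := by
      filter_upwards [Ioo_mem_nhdsGT hs] with ε hε
      have := midpoint_step_aux hmod x hx z L s h1 h2 h3 ε ε hε.1 hε.2 hε.1
      linarith
    have := le_of_tendsto hlim hev
    simp only [sub_zero, mul_zero] at this
    exact (Real.sqrt_le_iff.1 this).2

end Analytic

section Graph

theorem adj_iff (k : ℕ) (u v : DiamondVertex k) :
    (diamondGraph k).Adj u v ↔ u ≠ v ∧
      ((∃ e : DiamondEdge k, diamondSrc k e = u ∧ diamondTgt k e = v) ∨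
        (∃ e : DiamondEdge k, diamondSrc k e = v ∧ diamondTgt k e = u)) :=
  SimpleGraph.fromRel_adj _ _ _

theorem src_ne_tgt : ∀ (k : ℕ) (e : DiamondEdge k), diamondSrc k e ≠ diamondTgt k e
  | 0, _ => Bool.false_ne_true
  | k + 1, (e, i, b) => by
      cases b
      · intro h
        simp only [diamondSrc, diamondTgt] at h
        exact Sum.inl_ne_inr h
      · intro h
        simp only [diamondSrc, diamondTgt] at h
        exact Sum.inr_ne_inl h

theorem adj_src_tgt (k : ℕ) (e : DiamondEdge k) :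
    (diamondGraph k).Adj (diamondSrc k e) (diamondTgt k e) :=
  (adj_iff k _ _).2 ⟨src_ne_tgt k e, Or.inl ⟨e, rfl, rfl⟩⟩

theorem adj_src_mid (k : ℕ) (e : DiamondEdge k) (i : ℕ) :
    (diamondGraph (k + 1)).Adj (Sum.inl (diamondSrc k e)) (Sum.inr (e, i)) :=
  adj_src_tgt (k + 1) (e, i, false)

theorem adj_mid_tgt (k : ℕ) (e : DiamondEdge k) (i : ℕ) :
    (diamondGraph (k + 1)).Adj (Sum.inr (e, i)) (Sum.inl (diamondTgt k e)) :=
  adj_src_tgt (k + 1) (e, i, true)

/-- Every edge of `D (k+1)` joins an old vertex `inl u` to a new vertex `inr (e, i)` with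
`u` an endpoint of `e`. -/
theorem edge_cases (k : ℕ) (e' : DiamondEdge (k + 1)) :
    ∃ (e : DiamondEdge k) (i : ℕ),
      (diamondSrc (k + 1) e' = Sum.inl (diamondSrc k e) ∧ diamondTgt (k + 1) e' = Sum.inr (e, i)) ∨
      (diamondSrc (k + 1) e' = Sum.inr (e, i) ∧ diamondTgt (k + 1) e' = Sum.inl (diamondTgt k e)) := by
  obtain ⟨e, i, b⟩ := e'
  refine ⟨e, i, ?_⟩
  cases b
  · exact Or.inl ⟨rfl, rfl⟩
  · exact Or.inr ⟨rfl, rfl⟩

theorem not_adj_inl_inl (k : ℕ) (u v : DiamondVertex k) :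
    ¬ (diamondGraph (k + 1)).Adj (Sum.inl u) (Sum.inl v) := by
  intro h
  obtain ⟨-, ⟨e', h1, h2⟩ | ⟨e', h1, h2⟩⟩ := (adj_iff _ _ _).1 h <;>
  obtain ⟨e, i, ⟨h3, h4⟩ | ⟨h3, h4⟩⟩ := edge_cases k e'
  · rw [h4] at h2; exact Sum.inr_ne_inl h2
  · rw [h3] at h1; exact Sum.inr_ne_inl h1
  · rw [h4] at h2; exact Sum.inr_ne_inl h2
  · rw [h3] at h1; exact Sum.inr_ne_inl h1

theorem not_adj_inr_inr (k : ℕ) (p q : DiamondEdge k × ℕ) :
    ¬ (diamondGraph (k + 1)).Adj (Sum.inr p) (Sum.inr q) := by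
  intro h
  obtain ⟨-, ⟨e', h1, h2⟩ | ⟨e', h1, h2⟩⟩ := (adj_iff _ _ _).1 h <;>
  obtain ⟨e, i, ⟨h3, h4⟩ | ⟨h3, h4⟩⟩ := edge_cases k e'
  · rw [h3] at h1; exact Sum.inl_ne_inr h1
  · rw [h4] at h2; exact Sum.inl_ne_inr h2
  · rw [h3] at h1; exact Sum.inl_ne_inr h1
  · rw [h4] at h2; exact Sum.inl_ne_inr h2

theorem adj_inl_inr (k : ℕ) (u : DiamondVertex k) (e : DiamondEdge k) (i : ℕ)
    (h : (diamondGraph (k + 1)).Adj (Sum.inl u) (Sum.inr (e, i))) :
    u = diamondSrc k e ∨ u = diamondTgt k e := by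
  obtain ⟨-, ⟨e', h1, h2⟩ | ⟨e', h1, h2⟩⟩ := (adj_iff _ _ _).1 h <;>
  obtain ⟨e0, i0, ⟨h3, h4⟩ | ⟨h3, h4⟩⟩ := edge_cases k e'
  · rw [h3] at h1; rw [h4] at h2
    have a := Sum.inl_injective h1
    have b := Sum.inr_injective h2
    simp only [Prod.mk.injEq] at b
    left; rw [← a, b.1]
  · rw [h3] at h1; exact absurd h1 Sum.inr_ne_inl
  · rw [h3] at h1; exact absurd h1 Sum.inl_ne_inr
  · rw [h3] at h1; rw [h4] at h2
    have a := Sum.inl_injective h2
    have b := Sum.inr_injective h1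
    simp only [Prod.mk.injEq] at b
    right; rw [← a, b.1]

instance nonemptyVertex : ∀ k : ℕ, Nonempty (DiamondVertex k)
  | 0 => ⟨false⟩
  | k + 1 => ⟨Sum.inl (nonemptyVertex k).some⟩

instance nonemptyEdge : ∀ k : ℕ, Nonempty (DiamondEdge k)
  | 0 => ⟨()⟩
  | k + 1 => ⟨((nonemptyEdge k).some, 0, false)⟩

theorem reachable_inl (k : ℕ) {u v : DiamondVertex k} (h : (diamondGraph k).Reachable u v) :
    (diamondGraph (k + 1)).Reachable (Sum.inl u) (Sum.inl v) := by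
  obtain ⟨p⟩ := h
  induction p with
  | nil => exact SimpleGraph.Reachable.refl _
  | cons hadj _ ih =>
    refine SimpleGraph.Reachable.trans ?_ ih
    obtain ⟨-, ⟨e, h1, h2⟩ | ⟨e, h1, h2⟩⟩ := (adj_iff _ _ _).1 hadj
    · rw [← h1, ← h2]
      exact (adj_src_mid k e 0).reachable.trans (adj_mid_tgt k e 0).reachable
    · rw [← h1, ← h2]
      exact ((adj_src_mid k e 0).reachable.trans (adj_mid_tgt k e 0).reachable).symm

theorem connected : ∀ k : ℕ, (diamondGraph k).Connected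
  | 0 => by
      have h : (diamondGraph 0).Adj (false : Bool) (true : Bool) := adj_src_tgt 0 ()
      refine ⟨fun u v => ?_⟩
      have hu : ∀ u : DiamondVertex 0, (diamondGraph 0).Reachable (false : Bool) u := by
        intro u
        cases u
        · exact SimpleGraph.Reachable.refl _
        · exact h.reachable
      exact (hu u).symm.trans (hu v)
  | k + 1 => by
      have ih := connected k
      have hu : ∀ a : DiamondVertex (k + 1), ∃ u : DiamondVertex k,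
          (diamondGraph (k + 1)).Reachable (Sum.inl u) a := by
        intro a
        rcases a with u | ⟨e, i⟩
        · exact ⟨u, SimpleGraph.Reachable.refl _⟩
        · exact ⟨_, (adj_src_mid k e i).reachable⟩
      refine ⟨fun a b => ?_⟩
      obtain ⟨u, hu1⟩ := hu a
      obtain ⟨v, hv1⟩ := hu b
      exact hu1.symm.trans ((reachable_inl k (ih.preconnected u v)).trans hv1)

theorem dist_src_tgt (k : ℕ) (e : DiamondEdge k) :
    diamondDist k (diamondSrc k e) (diamondTgt k e) = 1 :=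
  SimpleGraph.dist_eq_one_iff_adj.2 (adj_src_tgt k e)

/-- Auxiliary bound used in the walk induction. -/
def WalkBound (k : ℕ) (v : DiamondVertex k) : DiamondVertex (k + 1) → ℕ → Prop
  | Sum.inl u, n => 2 * diamondDist k u v ≤ n
  | Sum.inr (e, _), n =>
      2 * diamondDist k (diamondSrc k e) v ≤ n + 1 ∧ 2 * diamondDist k (diamondTgt k e) v ≤ n + 1

theorem walkBound (k : ℕ) (v : DiamondVertex k) {a b : DiamondVertex (k + 1)}
    (p : (diamondGraph (k + 1)).Walk a b) (hb : b = Sum.inl v) : WalkBound k v a p.length := by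
  induction p with
  | nil =>
    subst hb
    simp [WalkBound, diamondDist]
  | @cons a c b hadj p' ih =>
    have ih := ih hb
    rw [SimpleGraph.Walk.length_cons]
    rcases a with u | ⟨e, i⟩
    · rcases c with u' | ⟨e, i⟩
      · exact absurd hadj (not_adj_inl_inl k u u')
      · obtain ⟨h1, h2⟩ := ih
        rcases adj_inl_inr k u e i hadj with rfl | rfl
        · exact h1
        · exact h2
    · rcases c with u' | q
      · have ih : 2 * diamondDist k u' v ≤ p'.length := ih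
        have hst := dist_src_tgt k e
        have hts : diamondDist k (diamondTgt k e) (diamondSrc k e) = 1 := by
          rw [diamondDist, SimpleGraph.dist_comm]; exact hst
        have tri1 : diamondDist k (diamondSrc k e) v ≤
            diamondDist k (diamondSrc k e) (diamondTgt k e) + diamondDist k (diamondTgt k e) v :=
          (connected k).dist_triangle
        have tri2 : diamondDist k (diamondTgt k e) v ≤
            diamondDist k (diamondTgt k e) (diamondSrc k e) + diamondDist k (diamondSrc k e) v :=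
          (connected k).dist_triangle
        rcases adj_inl_inr k u' e i hadj.symm with rfl | rfl
        · exact ⟨by omega, by omega⟩
        · exact ⟨by omega, by omega⟩
      · exact absurd hadj (not_adj_inr_inr k _ _)

theorem two_mul_dist_le (k : ℕ) (u v : DiamondVertex k) :
    2 * diamondDist k u v ≤ diamondDist (k + 1) (Sum.inl u) (Sum.inl v) := by
  obtain ⟨p, hp⟩ := (connected (k + 1)).exists_walk_length_eq_dist (Sum.inl u) (Sum.inl v)
  have := walkBound k v p rfl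
  rw [hp] at this
  exact this

theorem two_le_dist_mid (k : ℕ) (e : DiamondEdge k) {i l : ℕ} (hil : i ≠ l) :
    2 ≤ diamondDist (k + 1) (Sum.inr (e, i)) (Sum.inr (e, l)) := by
  apply (connected (k + 1)).one_lt_dist_of_ne_of_not_adj
  · intro h
    have := Sum.inr_injective h
    simp only [Prod.mk.injEq, true_and] at this
    exact hil this
  · exact not_adj_inr_inr k _ _

end Graph

section Main

variable {X : Type*} [NormedAddCommGroup X] [NormedSpace ℝ X]

theorem main (hmod : MaxMod X) : ∀ (k : ℕ) (f : DiamondVertex k → X) (s M : ℝ), 0 < s →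
    (∀ u v, s * (diamondDist k u v : ℝ) ≤ ‖f u - f v‖) →
    (∀ e, ‖f (diamondSrc k e) - f (diamondTgt k e)‖ ^ 2 ≤ M) →
    s ^ 2 * (1 + (k : ℝ) / 4) ≤ M
  | 0, f, s, M, hs, hlow, hup => by
      obtain ⟨e0⟩ := nonemptyEdge 0
      have h1 := hlow (diamondSrc 0 e0) (diamondTgt 0 e0)
      rw [dist_src_tgt] at h1
      have h2 := hup e0
      simp only [Nat.cast_one, mul_one] at h1
      simp only [Nat.cast_zero, zero_div, add_zero, mul_one]
      calc s ^ 2 ≤ ‖f (diamondSrc 0 e0) - f (diamondTgt 0 e0)‖ ^ 2 := by gcongr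
        _ ≤ M := h2
  | k + 1, f, s, M, hs, hlow, hup => by
      have hM : 0 ≤ M := le_trans (sq_nonneg _) (hup (nonemptyEdge (k + 1)).some)
      have ih := main hmod k (fun u => f (Sum.inl u)) (2 * s) (4 * M - s ^ 2) (by linarith) ?_ ?_
      · push_cast
        nlinarith
      · intro u v
        have h1 := hlow (Sum.inl u) (Sum.inl v)
        have h2 : (2 : ℝ) * (diamondDist k u v : ℝ) ≤
            (diamondDist (k + 1) (Sum.inl u) (Sum.inl v) : ℝ) := by
          exact_mod_cast two_mul_dist_le k u v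
        calc 2 * s * (diamondDist k u v : ℝ) = s * (2 * (diamondDist k u v : ℝ)) := by ring
          _ ≤ s * (diamondDist (k + 1) (Sum.inl u) (Sum.inl v) : ℝ) := by gcongr
          _ ≤ _ := h1
      · intro e
        set A := f (Sum.inl (diamondSrc k e)) with hA
        set B := f (Sum.inl (diamondTgt k e)) with hB
        have key := midpoint_step hmod ((1 / 2 : ℝ) • (A - B))
          (fun i => f (Sum.inr (e, i)) - (1 / 2 : ℝ) • (A + B)) (Real.sqrt M) s hs ?_ ?_ ?_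
        · rw [Real.sq_sqrt hM, norm_smul, Real.norm_eq_abs,
            abs_of_pos (by norm_num : (0 : ℝ) < 1 / 2)] at key
          show ‖A - B‖ ^ 2 ≤ 4 * M - s ^ 2
          nlinarith
        · intro i
          have e1 : (1 / 2 : ℝ) • (A - B) + (f (Sum.inr (e, i)) - (1 / 2 : ℝ) • (A + B)) =
              f (Sum.inr (e, i)) - B := by module
          rw [e1]
          exact Real.le_sqrt_of_sq_le (hup (e, i, true))
        · intro i
          have e1 : (1 / 2 : ℝ) • (A - B) - (f (Sum.inr (e, i)) - (1 / 2 : ℝ) • (A + B)) =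
              A - f (Sum.inr (e, i)) := by module
          rw [e1]
          exact Real.le_sqrt_of_sq_le (hup (e, i, false))
        · intro i l hil
          have e1 : (f (Sum.inr (e, i)) - (1 / 2 : ℝ) • (A + B)) -
              (f (Sum.inr (e, l)) - (1 / 2 : ℝ) • (A + B)) =
              f (Sum.inr (e, i)) - f (Sum.inr (e, l)) := by abel
          change 2 * s ≤ ‖(f (Sum.inr (e, i)) - (1 / 2 : ℝ) • (A + B)) -
              (f (Sum.inr (e, l)) - (1 / 2 : ℝ) • (A + B))‖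
          rw [e1]
          have h1 := hlow (Sum.inr (e, i)) (Sum.inr (e, l))
          have h2 : (2 : ℝ) ≤ (diamondDist (k + 1) (Sum.inr (e, i)) (Sum.inr (e, l)) : ℝ) := by
            exact_mod_cast two_le_dist_mid k e hil
          calc 2 * s = s * 2 := by ring
            _ ≤ s * (diamondDist (k + 1) (Sum.inr (e, i)) (Sum.inr (e, l)) : ℝ) := by gcongr
            _ ≤ _ := h1

end Main

end Crest.Agent.AUC.Diamond

namespace Crest.Agent.AUC

open Crest.AnalysisR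

theorem diamond_distortion {X : Type*} [NormedAddCommGroup X] [NormedSpace ℝ X]
    (hmax : ∀ t : ℝ, 0 < t → MaxGE X t (Real.sqrt (1 + t ^ 2 / 4) - 1))
    (k : ℕ) (f : DiamondVertex k → X) (D : ℝ)
    (h : ∃ s : ℝ, 0 < s ∧ ∀ u v : DiamondVertex k,
      s * (diamondDist k u v : ℝ) ≤ ‖f u - f v‖ ∧
        ‖f u - f v‖ ≤ D * s * (diamondDist k u v : ℝ)) :
    1 + (k : ℝ) / 4 ≤ D ^ 2 := by
  have hmod : Diamond.MaxMod X := by
    intro t ht x hx η hη
    obtain ⟨F, ⟨S, hSF, hcl, hfd⟩, hF⟩ := hmax t ht x hx η hη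
    refine ⟨S, hSF ▸ hcl, hfd, ?_⟩
    intro y hy hy1
    exact hF y (hSF ▸ hy) hy1
  obtain ⟨s, hs, hsD⟩ := h
  have := Diamond.main hmod k f s ((D * s) ^ 2) hs (fun u v => (hsD u v).1) ?_
  · have hs2 : 0 < s ^ 2 := by positivity
    have h3 : s ^ 2 * (1 + (k : ℝ) / 4) ≤ s ^ 2 * D ^ 2 := by nlinarith
    exact le_of_mul_le_mul_left h3 hs2
  · intro e
    have h1 := (hsD (diamondSrc k e) (diamondTgt k e)).2
    rw [Diamond.dist_src_tgt] at h1
    simp only [Nat.cast_one, mul_one] at h1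
    gcongr

end Crest.Agent.AUC
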