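import Crest.Agent.AUC.TreeSpace

/-! Task T4d (owner: helper11).  The space `ES = (⊕ TS n)_{ℓ²}` of S0166: midpoint modulus and trees. -/

set_option autoImplicit false

namespace Crest.Agent.AUC

open Crest.AnalysisR.TreePotential Filter Topology
open scoped RealInnerProductSpace

section General

variable {G : ℕ → Type*} [∀ n, NormedAddCommGroup (G n)] [∀ n, NormedSpace ℝ (G n)]

theorem hasSum_sq_lp (f : lp G 2) : HasSum (fun n => ‖f n‖ ^ 2) (‖f‖ ^ 2) := by
  have h := lp.hasSum_norm (p := 2) (by norm_num) f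
  simpa using h

/-- coordinatewise midpoint inequalities add up in an `ℓ²`-sum. -/
theorem lp2_mid (x y : lp G 2)
    (h : ∀ n, Real.sqrt (‖x n‖ ^ 2 + ‖y n‖ ^ 2 / 4) ≤ (‖x n + y n‖ + ‖x n - y n‖) / 2) :
    Real.sqrt (‖x‖ ^ 2 + ‖y‖ ^ 2 / 4) ≤ (‖x + y‖ + ‖x - y‖) / 2 := by
  set a := lp.toNorm (x + y) with ha
  set b := lp.toNorm (x - y) with hb
  have hna : ‖a‖ = ‖x + y‖ := lp.norm_toNorm
  have hnb : ‖b‖ = ‖x - y‖ := lp.norm_toNorm
  have htri : ‖a + b‖ ≤ ‖x + y‖ + ‖x - y‖ := by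
    rw [← hna, ← hnb]; exact norm_add_le _ _
  have h1 : HasSum (fun n => ‖(a + b) n‖ ^ 2) (‖a + b‖ ^ 2) := hasSum_sq_lp (a + b)
  have h2 : HasSum (fun n => 4 * (‖x n‖ ^ 2 + ‖y n‖ ^ 2 / 4)) (4 * (‖x‖ ^ 2 + ‖y‖ ^ 2 / 4)) :=
    ((hasSum_sq_lp x).add ((hasSum_sq_lp y).div_const 4)).mul_left 4
  have h3 : 4 * (‖x‖ ^ 2 + ‖y‖ ^ 2 / 4) ≤ ‖a + b‖ ^ 2 := by
    refine hasSum_le (fun n => ?_) h2 h1
    have e : (a + b) n = ‖x n + y n‖ + ‖x n - y n‖ := rfl
    rw [e, Real.norm_of_nonneg (by positivity)]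
    have h4 := h n
    have h5 : (Real.sqrt (‖x n‖ ^ 2 + ‖y n‖ ^ 2 / 4)) ^ 2 = ‖x n‖ ^ 2 + ‖y n‖ ^ 2 / 4 :=
      Real.sq_sqrt (by positivity)
    have h6 : 0 ≤ Real.sqrt (‖x n‖ ^ 2 + ‖y n‖ ^ 2 / 4) := Real.sqrt_nonneg _
    nlinarith
  have h7 : ‖a + b‖ ^ 2 ≤ (‖x + y‖ + ‖x - y‖) ^ 2 := pow_le_pow_left₀ (norm_nonneg _) htri 2
  rw [Real.sqrt_le_left (by positivity)]
  nlinarith

end General

theorem sqrt_sq_add_le (a b c : ℝ) (hc : 0 ≤ c) :
    Real.sqrt (a ^ 2 + c) ≤ Real.sqrt (b ^ 2 + c) + |a - b| := by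
  rw [Real.sqrt_le_left (by positivity)]
  have h1 : (Real.sqrt (b ^ 2 + c)) ^ 2 = b ^ 2 + c := Real.sq_sqrt (by positivity)
  have h2 : |b| ≤ Real.sqrt (b ^ 2 + c) := by
    rw [← Real.sqrt_sq_eq_abs]; exact Real.sqrt_le_sqrt (by linarith)
  have h3 : 0 ≤ |a - b| := abs_nonneg _
  have h4 : |a - b| ^ 2 = (a - b) ^ 2 := sq_abs _
  have h5 : b * (a - b) ≤ |b| * |a - b| := by
    rw [← abs_mul]; exact le_abs_self _
  nlinarith

/-- the example space of S0166. -/
abbrev ES : Type := lp (fun n : ℕ => TS n) 2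

/-- basic vectors of `ES`. -/
noncomputable def bES (n : ℕ) (s : List ℕ) : ES := lp.single 2 n (eT n (lp.single 2 s (1 : ℝ)))

/-- "finitely supported" vectors of `ES`. -/
def FinSupp (x : ES) : Prop :=
  ∃ (A : Set (List ℕ)) (N : ℕ), A.Finite ∧ IsDownSet A ∧ (∀ n, N ≤ n → x n = 0) ∧
    ∀ n s, s ∉ A → ((eT n).symm (x n) : HT) s = 0

theorem IsDownSet.union {A B : Set (List ℕ)} (hA : IsDownSet A) (hB : IsDownSet B) :
    IsDownSet (A ∪ B) :=
  ⟨Or.inl hA.nil_mem, fun a v h => h.elim (fun h => Or.inl (hA.tail_mem a v h))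
    (fun h => Or.inr (hB.tail_mem a v h))⟩

theorem isDownSet_suffixes (s : List ℕ) : IsDownSet {u | u <:+ s} :=
  ⟨List.nil_suffix, fun a v h => (List.suffix_cons a v).trans h⟩

theorem finite_suffixes (s : List ℕ) : {u : List ℕ | u <:+ s}.Finite := by
  have : {u : List ℕ | u <:+ s} = {u | u ∈ s.tails} := by
    ext u; simp
  rw [this]
  exact List.finite_toSet _

theorem finSupp_bES (n : ℕ) (s : List ℕ) : FinSupp (bES n s) := by
  refine ⟨{u | u <:+ s}, n + 1, finite_suffixes s, isDownSet_suffixes s, ?_, ?_⟩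
  · intro m hm
    exact lp.single_apply_ne 2 n _ (by omega)
  · intro m u hu
    by_cases hmn : m = n
    · subst hmn
      have e : bES m s m = eT m (lp.single 2 s (1 : ℝ)) := lp.single_apply_self 2 m _
      rw [e, ContinuousLinearEquiv.symm_apply_apply]
      apply lp.single_apply_ne
      rintro rfl
      exact hu (List.suffix_refl _)
    · have e : bES n s m = 0 := lp.single_apply_ne 2 n _ hmn
      rw [e, map_zero]; rfl

theorem finSupp_span (x : ES) (hx : x ∈ Submodule.span ℝ (Set.range fun p : ℕ × List ℕ => bES p.1 p.2)) :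
    FinSupp x := by
  induction hx using Submodule.span_induction with
  | mem x hx =>
    obtain ⟨p, rfl⟩ := hx
    exact finSupp_bES p.1 p.2
  | zero =>
    refine ⟨{u | u <:+ []}, 0, finite_suffixes _, isDownSet_suffixes _, fun n _ => rfl, fun n s _ => ?_⟩
    have e : (0 : ES) n = 0 := rfl
    rw [e, map_zero]; rfl
  | add x y _ _ hx hy =>
    obtain ⟨A, N, hAf, hAd, h1, h2⟩ := hx
    obtain ⟨B, M, hBf, hBd, h3, h4⟩ := hy
    refine ⟨A ∪ B, max N M, hAf.union hBf, hAd.union hBd, fun n hn => ?_, fun n s hs => ?_⟩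
    · have e : (x + y) n = x n + y n := rfl
      rw [e, h1 n (le_trans (le_max_left _ _) hn), h3 n (le_trans (le_max_right _ _) hn), add_zero]
    · have e : (x + y) n = x n + y n := rfl
      rw [e, map_add]
      have e2 : ((eT n).symm (x n) + (eT n).symm (y n) : HT) s
          = ((eT n).symm (x n) : HT) s + ((eT n).symm (y n) : HT) s := rfl
      rw [e2, h2 n s (fun h => hs (Or.inl h)), h4 n s (fun h => hs (Or.inr h)), add_zero]
  | smul c x _ hx =>
    obtain ⟨A, N, hAf, hAd, h1, h2⟩ := hx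
    refine ⟨A, N, hAf, hAd, fun n hn => ?_, fun n s hs => ?_⟩
    · have e : (c • x) n = c • x n := rfl
      rw [e, h1 n hn, smul_zero]
    · have e : (c • x) n = c • x n := rfl
      rw [e, map_smul]
      have e2 : (c • (eT n).symm (x n) : HT) s = c • ((eT n).symm (x n) : HT) s := rfl
      rw [e2, h2 n s hs, smul_zero]

theorem dense_span_bES :
    (Submodule.span ℝ (Set.range fun p : ℕ × List ℕ => bES p.1 p.2)).topologicalClosure = ⊤ := by
  set D := (Submodule.span ℝ (Set.range fun p : ℕ × List ℕ => bES p.1 p.2)).topologicalClosure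
    with hD
  have hclosed : IsClosed (D : Set ES) := Submodule.isClosed_topologicalClosure _
  have hb : ∀ n s, bES n s ∈ D := fun n s =>
    Submodule.le_topologicalClosure _ (Submodule.subset_span ⟨(n, s), rfl⟩)
  -- every `single n (eT n h)` is in `D`
  have h1 : ∀ n (h : HT), (lp.single 2 n (eT n h) : ES) ∈ D := by
    intro n h
    have hs := lp.hasSum_single (p := 2) (by simp) h
    let L : HT →L[ℝ] ES := (lp.singleContinuousLinearMap ℝ (fun n => TS n) 2 n).comp
      (eT n : HT →L[ℝ] TS n)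
    have hs' := hs.mapL L
    refine hclosed.mem_of_tendsto hs' (Eventually.of_forall fun t => ?_)
    refine D.sum_mem fun s _ => ?_
    have e : L (lp.single 2 s (h s)) = h s • bES n s := by
      have : (lp.single 2 s (h s) : HT) = h s • lp.single 2 s (1 : ℝ) := by
        rw [← lp.single_smul]; simp
      rw [this, map_smul]; rfl
    rw [e]
    exact D.smul_mem _ (hb n s)
  rw [eq_top_iff]
  intro x _
  have hs := lp.hasSum_single (p := 2) (by simp) x
  refine hclosed.mem_of_tendsto hs (Eventually.of_forall fun t => ?_)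
  refine D.sum_mem fun n _ => ?_
  have := h1 n ((eT n).symm (x n))
  rwa [ContinuousLinearEquiv.apply_symm_apply] at this

theorem exists_finSupp_near (x : ES) {ε : ℝ} (hε : 0 < ε) : ∃ x' : ES, FinSupp x' ∧ ‖x - x'‖ < ε := by
  have hx : x ∈ (Submodule.span ℝ (Set.range fun p : ℕ × List ℕ => bES p.1 p.2)).topologicalClosure := by
    rw [dense_span_bES]; trivial
  rw [← SetLike.mem_coe, Submodule.topologicalClosure_coe, Metric.mem_closure_iff] at hx
  obtain ⟨x', hx', hd⟩ := hx ε hε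
  exact ⟨x', finSupp_span x' hx', by rwa [dist_eq_norm] at hd⟩

/-- coordinate functional `(n, s)` on `ES`. -/
noncomputable def coordES (n : ℕ) (s : List ℕ) : ES →L[ℝ] ℝ :=
  (lp.evalCLM ℝ (fun _ : List ℕ => ℝ) 2 s).comp
    (((eT n).symm : TS n →L[ℝ] HT).comp (lp.evalCLM ℝ (fun n => TS n) 2 n))

theorem coordES_apply (n : ℕ) (s : List ℕ) (y : ES) :
    coordES n s y = ((eT n).symm (y n) : HT) s := rfl

/-- exact midpoint inequality in `ES` for a finitely supported centre. -/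
theorem ES_mid_exact (x y : ES) (A : Set (List ℕ)) (N : ℕ) (hA : IsDownSet A)
    (hx1 : ∀ n, N ≤ n → x n = 0) (hx2 : ∀ n s, s ∉ A → ((eT n).symm (x n) : HT) s = 0)
    (hy : ∀ n, n < N → ∀ s ∈ A, ((eT n).symm (y n) : HT) s = 0) :
    Real.sqrt (‖x‖ ^ 2 + ‖y‖ ^ 2 / 4) ≤ (‖x + y‖ + ‖x - y‖) / 2 := by
  apply lp2_mid
  intro n
  rcases lt_or_ge n N with hn | hn
  · have h := TS_mid n A hA ((eT n).symm (x n)) ((eT n).symm (y n)) (hx2 n) (hy n hn)
    simpa only [map_add, map_sub, ContinuousLinearEquiv.apply_symm_apply] using h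
  · rw [hx1 n hn]
    simp only [norm_zero, zero_add, zero_sub, norm_neg]
    have h0 : (0 : ℝ) ≤ ‖y n‖ := norm_nonneg _
    rw [Real.sqrt_le_left (by positivity)]
    nlinarith

theorem ES_midGE (t : ℝ) (ht : 0 < t) : MidGE ES t (Real.sqrt (1 + t ^ 2 / 4) - 1) := by
  intro x hx η hη
  obtain ⟨x', ⟨A, N, hAf, hAd, h1, h2⟩, hnear⟩ := exists_finSupp_near x (half_pos hη)
  have : Finite A := hAf
  refine ⟨{y | ∀ i : Fin N × A, coordES i.1 i.2 y = 0},
    isCofSet_forall_eq_zero (fun i : Fin N × A => coordES i.1 i.2), fun y hy hy1 => ?_⟩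
  have hy' : ∀ n, n < N → ∀ s ∈ A, ((eT n).symm ((t • y) n) : HT) s = 0 := by
    intro n hn s hs
    have h3 := hy (⟨n, hn⟩, ⟨s, hs⟩)
    rw [coordES_apply] at h3
    have e : (t • y) n = t • y n := rfl
    rw [e, map_smul]
    have e2 : (t • (eT n).symm (y n) : HT) s = t • ((eT n).symm (y n) : HT) s := rfl
    rw [e2]
    simp only at h3
    rw [h3, smul_zero]
  have hmid := ES_mid_exact x' (t • y) A N hAd h1 h2 hy'
  have hnty : ‖t • y‖ = t := by rw [norm_smul, hy1, mul_one, Real.norm_of_nonneg ht.le]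
  rw [hnty] at hmid
  have h4 : ‖x' + t • y‖ ≤ ‖x + t • y‖ + ‖x - x'‖ := by
    have e : x' + t • y = (x + t • y) - (x - x') := by abel
    rw [e]; exact norm_sub_le _ _
  have h5 : ‖x' - t • y‖ ≤ ‖x - t • y‖ + ‖x - x'‖ := by
    have e : x' - t • y = (x - t • y) - (x - x') := by abel
    rw [e]; exact norm_sub_le _ _
  have h6 := sqrt_sq_add_le ‖x‖ ‖x'‖ (t ^ 2 / 4) (by positivity)
  have h7 : |‖x‖ - ‖x'‖| ≤ ‖x - x'‖ := abs_norm_sub_norm_le _ _
  rw [hx] at h7
  rw [hx, one_pow] at h6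
  linarith

/-- tree vectors of `ES`. -/
noncomputable def xES (n : ℕ) (s : List ℕ) : ES := lp.single 2 n (eT n (chi s))

theorem norm_xES (n : ℕ) (s : List ℕ) : ‖xES n s‖ = ‖PhiT n (chi s)‖ := by
  rw [xES, lp.norm_single (by norm_num), norm_eT]

theorem norm_xES_le {n : ℕ} {s : List ℕ} (hs : s.length ≤ n) : ‖xES n s‖ ≤ 1 := by
  rw [norm_xES]
  refine norm_PhiT_le_of fun f hf => ?_
  rw [real_inner_comm, inner_chi]
  exact (le_abs_self _).trans (hf.2 s hs)

theorem one_le_norm_bES (n : ℕ) (u : List ℕ) : 1 ≤ ‖bES n u‖ := by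
  rw [bES, lp.norm_single (by norm_num), norm_eT]
  have h := inner_le_norm_PhiT (single_mem_KT n u) (lp.single 2 u (1 : ℝ))
  rw [inner_single_HT] at h
  simpa using h

theorem one_le_norm_xES_nil (n : ℕ) : 1 ≤ ‖xES n []‖ := one_le_norm_bES n []

theorem xES_cons_sub (n : ℕ) (i : ℕ) (s : List ℕ) : xES n (i :: s) - xES n s = bES n (i :: s) := by
  simp only [xES, bES, chi, map_add, lp.single_add, add_sub_cancel_left]

/-- continuous functionals on `ℓ²` vanish along injective sequences of basis vectors. -/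
theorem tendsto_single_HT (ψ : HT →L[ℝ] ℝ) (s : List ℕ) :
    Tendsto (fun i : ℕ => ψ (lp.single 2 (i :: s) (1 : ℝ))) atTop (𝓝 0) := by
  set w : HT := (InnerProductSpace.toDual ℝ HT).symm ψ with hw
  have h1 : ∀ x, ψ x = ⟪w, x⟫ := fun x => by
    rw [hw, InnerProductSpace.toDual_symm_apply]
  have h2 : ∀ u, ψ (lp.single 2 u (1 : ℝ)) = w u := fun u => by
    rw [h1, real_inner_comm, inner_single_HT]
  simp only [h2]
  have h3 : Tendsto (fun u => w u ^ 2) cofinite (𝓝 0) := (hasSum_sq_HT w).summable.tendsto_cofinite_zero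
  have hinj : Function.Injective (fun i : ℕ => i :: s) := fun a b h => by simpa using h
  have h4 : Tendsto (fun i : ℕ => w (i :: s) ^ 2) atTop (𝓝 0) := by
    rw [← Nat.cofinite_eq_atTop]
    exact h3.comp hinj.tendsto_cofinite
  have h5 : Tendsto (fun i : ℕ => Real.sqrt (w (i :: s) ^ 2)) atTop (𝓝 (Real.sqrt 0)) :=
    (Real.continuous_sqrt.tendsto 0).comp h4
  simp only [Real.sqrt_sq_eq_abs, Real.sqrt_zero] at h5
  exact (tendsto_zero_iff_abs_tendsto_zero _).mpr h5

theorem tendsto_bES (φ : ES →L[ℝ] ℝ) (n : ℕ) (s : List ℕ) :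
    Tendsto (fun i : ℕ => φ (bES n (i :: s))) atTop (𝓝 0) :=
  tendsto_single_HT (φ.comp ((lp.singleContinuousLinearMap ℝ (fun n => TS n) 2 n).comp
      (eT n : HT →L[ℝ] TS n))) s

theorem good_xES (n : ℕ) : ∀ (k : ℕ) (s : List ℕ), s.length + k ≤ n → Good 1 k (xES n s) := by
  intro k
  induction k with
  | zero => intro s hs; exact norm_xES_le (by omega)
  | succ k ih =>
    intro s hs
    refine good_succ_of_weaklyNull (norm_xES_le (by omega)) (fun i => xES n (i :: s))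
      (fun i => ih (i :: s) (by simp only [List.length_cons]; omega)) (fun i => ?_) (fun φ => ?_)
    · rw [xES_cons_sub]; exact one_le_norm_bES n _
    · simp only [xES_cons_sub]; exact tendsto_bES φ n s

theorem ES_not_isAUCOn (N : ES → ℝ) (hN : IsEquivNormOn N) : ¬ IsAUCOn N :=
  not_isAUCOn_of_good one_pos
    (fun k => ⟨xES k [], one_le_norm_xES_nil k, good_xES k k [] (by simp)⟩) N hN

theorem ES_not_finiteDimensional : ¬ FiniteDimensional ℝ ES :=
  not_finiteDimensional_of_weaklyNull one_pos (y := fun i => bES 0 (i :: []))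
    (fun φ => tendsto_bES φ 0 []) (fun _ => one_le_norm_bES 0 _)

end Crest.Agent.AUC
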