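import Crest.Agent.AUC.Basic
import Crest.Prelude.Def_DaugavetL1

/-! Task T2b (owner: helper8).  Lower bound for the averaged midpoint modulus of a subspace of `L¹`
whose unit ball is totally bounded in measure. -/

set_option autoImplicit false

namespace Crest.Agent.AUC

open Crest.AnalysisR.L1Subspace MeasureTheory

section l1m

variable {Ω : Type} [MeasurableSpace Ω]

/-- the truncated sign weight attached to `G` and the level `K`. -/
noncomputable def l1mW (G : Ω → ℝ) (K : ℝ) (z : Ω) : ℝ :=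
  if |G z| ≤ K then (if 0 ≤ G z then 1 else -1) else 0

theorem l1mW_measurable {G : Ω → ℝ} (hG : Measurable G) (K : ℝ) : Measurable (l1mW G K) := by
  unfold l1mW
  refine Measurable.ite (measurableSet_le hG.abs measurable_const) ?_ measurable_const
  exact Measurable.ite (measurableSet_le measurable_const hG) measurable_const measurable_const

theorem l1mW_abs_le (G : Ω → ℝ) (K : ℝ) (z : Ω) : |l1mW G K z| ≤ 1 := by
  unfold l1mW
  split_ifs <;> simp

theorem l1mW_integrable (P : Measure Ω) {G : Ω → ℝ} (hG : Measurable G) (K : ℝ) {U : Ω → ℝ}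
    (hU : Integrable U P) : Integrable (fun z => l1mW G K z * U z) P :=
  hU.bdd_mul (c := 1) (l1mW_measurable hG K).aestronglyMeasurable
    (Filter.Eventually.of_forall fun z => by simpa using l1mW_abs_le G K z)

/-- the functional `y ↦ ∫ w y` on `L¹`. -/
noncomputable def l1mCLM (P : Measure Ω) (G : Ω → ℝ) (hG : Measurable G) (K : ℝ) :
    Lp ℝ 1 P →L[ℝ] ℝ :=
  LinearMap.mkContinuous
    { toFun := fun y => ∫ z, l1mW G K z * (y : Ω → ℝ) z ∂P
      map_add' := by
        intro y y'
        rw [← integral_add (l1mW_integrable P hG K (L1.integrable_coeFn y))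
          (l1mW_integrable P hG K (L1.integrable_coeFn y'))]
        refine integral_congr_ae ?_
        filter_upwards [Lp.coeFn_add y y'] with z hz
        rw [hz]; simp [mul_add]
      map_smul' := by
        intro c y
        simp only [RingHom.id_apply, smul_eq_mul]
        rw [← integral_const_mul]
        refine integral_congr_ae ?_
        filter_upwards [Lp.coeFn_smul c y] with z hz
        rw [hz]; simp; ring }
    1 (by
      intro y
      simp only [LinearMap.coe_mk, AddHom.coe_mk, one_mul]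
      rw [L1.norm_eq_integral_norm]
      refine (norm_integral_le_integral_norm _).trans ?_
      refine integral_mono (l1mW_integrable P hG K (L1.integrable_coeFn y)).norm
        (L1.integrable_coeFn y).norm fun z => ?_
      simp only [norm_mul, Real.norm_eq_abs]
      calc |l1mW G K z| * |(y : Ω → ℝ) z| ≤ 1 * |(y : Ω → ℝ) z| :=
            mul_le_mul_of_nonneg_right (l1mW_abs_le G K z) (abs_nonneg _)
        _ = _ := one_mul _)

theorem l1mCLM_apply (P : Measure Ω) (G : Ω → ℝ) (hG : Measurable G) (K : ℝ) (y : Lp ℝ 1 P) :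
    l1mCLM P G hG K y = ∫ z, l1mW G K z * (y : Ω → ℝ) z ∂P := rfl

/-- the good set. -/
def l1mD (G U : Ω → ℝ) (K a : ℝ) : Set Ω := {z | |G z| ≤ K ∧ |U z - G z| ≤ a}

theorem l1mD_measurable {G U : Ω → ℝ} (hG : Measurable G) (hU : Measurable U) (K a : ℝ) :
    MeasurableSet (l1mD G U K a) :=
  (measurableSet_le hG.abs measurable_const).inter
    (measurableSet_le (hU.sub hG).abs measurable_const)

theorem l1mW_mul_ge {G U : Ω → ℝ} {K a : ℝ} {z : Ω} (hz : z ∈ l1mD G U K a) :
    |U z| - 2 * a ≤ l1mW G K z * U z := by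
  obtain ⟨h1, h2⟩ := hz
  unfold l1mW
  rw [if_pos h1]
  have h3 := abs_le.mp h2
  split_ifs with h
  · rcases abs_cases (U z) with ⟨h4, _⟩ | ⟨h4, _⟩ <;> rw [h4] <;> linarith [h3.1, h3.2]
  · push Not at h
    rcases abs_cases (U z) with ⟨h4, _⟩ | ⟨h4, _⟩ <;> rw [h4] <;> linarith [h3.1, h3.2]

/-- Core estimate: if `U` is killed by the truncated sign weight of `G`, then `U` has at most
half of its mass (up to `a`) on the good set. -/
theorem l1m_core (P : Measure Ω) [IsProbabilityMeasure P] {G U : Ω → ℝ} (hG : Measurable G)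
    (hU : Measurable U) (hUi : Integrable U P) (hU1 : ∫ z, |U z| ∂P = 1) (K a : ℝ) (ha : 0 ≤ a)
    (h0 : ∫ z, l1mW G K z * U z ∂P = 0) :
    ∫ z in l1mD G U K a, |U z| ∂P ≤ 1 / 2 + a := by
  set D := l1mD G U K a with hD
  have hDm : MeasurableSet D := l1mD_measurable hG hU K a
  have hWi := l1mW_integrable P hG K hUi
  have e1 := integral_add_compl hDm hWi
  have e2 := integral_add_compl hDm hUi.abs
  have i1 : ∫ z in D, (|U z| - 2 * a) ∂P ≤ ∫ z in D, l1mW G K z * U z ∂P := by
    refine setIntegral_mono_on ?_ hWi.integrableOn hDm fun z hz => l1mW_mul_ge hz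
    exact (hUi.abs.sub (integrable_const _)).integrableOn
  have i2 : ∫ z in D, (|U z| - 2 * a) ∂P = ∫ z in D, |U z| ∂P - P.real D * (2 * a) := by
    rw [integral_sub hUi.abs.integrableOn (integrable_const _).integrableOn, setIntegral_const,
      smul_eq_mul]
  have i3 : P.real D ≤ 1 := measureReal_le_one
  have i4 : -∫ z in Dᶜ, |U z| ∂P ≤ ∫ z in Dᶜ, l1mW G K z * U z ∂P := by
    rw [← integral_neg]
    refine setIntegral_mono_on hUi.abs.neg.integrableOn hWi.integrableOn hDm.compl fun z _ => ?_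
    have := l1mW_abs_le G K z
    have h5 : |l1mW G K z * U z| ≤ |U z| := by
      rw [abs_mul]
      calc |l1mW G K z| * |U z| ≤ 1 * |U z| := mul_le_mul_of_nonneg_right this (abs_nonneg _)
        _ = _ := one_mul _
    exact (abs_le.mp h5).1
  have i5 : P.real D * (2 * a) ≤ 2 * a := by
    calc P.real D * (2 * a) ≤ 1 * (2 * a) := mul_le_mul_of_nonneg_right i3 (by linarith)
      _ = _ := one_mul _
  linarith

end l1m

theorem l1m_norm_eq {Ω : Type} [MeasurableSpace Ω] (P : Measure Ω) (u v : Lp ℝ 1 P) (c : ℝ) :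
    ‖u + c • v‖ = ∫ z, |(u : Ω → ℝ) z + c * (v : Ω → ℝ) z| ∂P := by
  rw [L1.norm_eq_integral_norm]
  refine integral_congr_ae ?_
  filter_upwards [Lp.coeFn_add u (c • v), Lp.coeFn_smul c v] with z h1 h2
  rw [h1, Pi.add_apply, h2, Pi.smul_apply, smul_eq_mul, Real.norm_eq_abs]

theorem l1_midGE (Ω : Type) [MeasurableSpace Ω] (P : Measure Ω) [IsProbabilityMeasure P]
    (E : Submodule ℝ (Lp ℝ 1 P)) (htb : UnitBallTotallyBoundedInMeasure P E)
    (t : ℝ) (ht : 0 < t) : MidGE E t (max (t / 2) (t - 1)) := by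
  intro x hx η hη
  set X : Ω → ℝ := ((x : Lp ℝ 1 P) : Ω → ℝ) with hX
  have hXm : Measurable X := (Lp.stronglyMeasurable _).measurable
  have hXi : Integrable X P := L1.integrable_coeFn _
  have hX1 : ∫ z, |X z| ∂P = 1 := by
    have h := L1.norm_eq_integral_norm (x : Lp ℝ 1 P)
    have h' : ‖(x : Lp ℝ 1 P)‖ = 1 := hx
    rw [h'] at h
    simpa [Real.norm_eq_abs] using h.symm
  -- absolute continuity of the integral of `|X|`
  obtain ⟨δ, hδ, hδP⟩ := exists_pos_setLIntegral_lt_of_measure_lt (μ := P)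
    (f := fun z => ‖X z‖ₑ) hXi.2.ne (ε := ENNReal.ofReal (η / 2))
    (by simpa using half_pos hη)
  obtain ⟨r, hr0, hrδ⟩ := ENNReal.lt_iff_exists_nnreal_btwn.mp hδ
  have hr0' : (0 : ℝ) < r := by exact_mod_cast hr0
  set δ₀ : ℝ := (r : ℝ) with hδ₀
  set ε₀ : ℝ := min (δ₀ / 2) (η / (2 * t)) with hε₀
  have hε₀pos : 0 < ε₀ := lt_min (by positivity) (by positivity)
  set K : ℝ := 2 / δ₀ with hK
  have hKpos : 0 < K := by positivity
  obtain ⟨s, hs1, hs2⟩ := htb ε₀ hε₀pos
  let φ : s → (E →L[ℝ] ℝ) := fun g =>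
    (l1mCLM P ((g : Lp ℝ 1 P) : Ω → ℝ) (Lp.stronglyMeasurable _).measurable K).comp E.subtypeL
  refine ⟨{y : E | ∀ g, φ g y = 0}, isCofSet_forall_eq_zero φ, fun y hy hy1 => ?_⟩
  -- the easy bound
  have easy : t - 1 ≤ (‖x + t • y‖ + ‖x - t • y‖) / 2 - 1 := by
    have h1 : ‖(x + t • y) - (x - t • y)‖ ≤ ‖x + t • y‖ + ‖x - t • y‖ := norm_sub_le _ _
    have h2 : (x + t • y) - (x - t • y) = (2 * t) • y := by
      rw [two_mul, add_smul]; abel
    rw [h2, norm_smul, hy1, Real.norm_eq_abs, abs_of_pos (by positivity)] at h1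
    linarith
  -- the main bound
  have main : t / 2 - η ≤ (‖x + t • y‖ + ‖x - t • y‖) / 2 - 1 := by
    set U : Ω → ℝ := ((y : Lp ℝ 1 P) : Ω → ℝ) with hU
    have hUm : Measurable U := (Lp.stronglyMeasurable _).measurable
    have hUi : Integrable U P := L1.integrable_coeFn _
    have hU1 : ∫ z, |U z| ∂P = 1 := by
      have h := L1.norm_eq_integral_norm (y : Lp ℝ 1 P)
      have h' : ‖(y : Lp ℝ 1 P)‖ = 1 := hy1
      rw [h'] at h
      simpa [Real.norm_eq_abs] using h.symm
    obtain ⟨g, hgs, hgd⟩ := hs2 y y.2 (le_of_eq hy1)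
    set G : Ω → ℝ := (g : Ω → ℝ) with hG
    have hGm : Measurable G := (Lp.stronglyMeasurable _).measurable
    have hGi : Integrable G P := L1.integrable_coeFn _
    have hG1 : ∫ z, |G z| ∂P ≤ 1 := by
      have h := L1.norm_eq_integral_norm g
      have h' := (hs1 g hgs).2
      rw [h] at h'
      simpa [Real.norm_eq_abs] using h'
    -- extract the level `a`
    obtain ⟨a, ⟨ha0, haP⟩, haε⟩ : ∃ a ∈ {a : ℝ | 0 < a ∧
        P {z | a < abs (U z - G z)} < ENNReal.ofReal a}, a < ε₀ := by
      refine exists_lt_of_csInf_lt ⟨2, by norm_num, ?_⟩ hgd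
      refine lt_of_le_of_lt prob_le_one ?_
      rw [show (1 : ENNReal) = ENNReal.ofReal 1 by simp]
      exact (ENNReal.ofReal_lt_ofReal_iff (by norm_num)).mpr (by norm_num)
    set D := l1mD G U K a with hD
    have hDm : MeasurableSet D := l1mD_measurable hGm hUm K a
    have h0 : ∫ z, l1mW G K z * U z ∂P = 0 := hy ⟨g, hgs⟩
    have core := l1m_core P hGm hUm hUi hU1 K a ha0.le h0
    -- measure of the complement
    have hDc : Dᶜ ⊆ {z | K ≤ |G z|} ∪ {z | a < |U z - G z|} := by
      intro z hz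
      by_contra hcon
      simp only [Set.mem_union, Set.mem_setOf_eq, not_or, not_le, not_lt] at hcon
      exact hz ⟨hcon.1.le, hcon.2⟩
    have m1 : P.real {z | K ≤ |G z|} ≤ δ₀ / 2 := by
      have h := mul_meas_ge_le_integral_of_nonneg (μ := P) (f := fun z => |G z|)
        (Filter.Eventually.of_forall fun z => abs_nonneg _) hGi.abs K
      have h2 : K * P.real {z | K ≤ |G z|} ≤ 1 := h.trans hG1
      have h3 : P.real {z | K ≤ |G z|} ≤ 1 / K := by
        rw [le_div_iff₀ hKpos]; linarith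
      have h4 : 1 / K = δ₀ / 2 := by rw [hK]; field_simp
      linarith
    have m2 : P.real {z | a < |U z - G z|} < a :=
      ENNReal.toReal_lt_of_lt_ofReal haP
    have m3 : P.real Dᶜ < δ₀ := by
      have h1 : P.real Dᶜ ≤ P.real ({z | K ≤ |G z|} ∪ {z | a < |U z - G z|}) :=
        measureReal_mono hDc
      have h2 := measureReal_union_le (μ := P) {z | K ≤ |G z|} {z | a < |U z - G z|}
      have h3 : a < δ₀ / 2 := lt_of_lt_of_le haε (min_le_left _ _)
      linarith
    have m4 : P Dᶜ < δ := by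
      refine lt_trans ?_ hrδ
      rw [← ofReal_measureReal (μ := P) (s := Dᶜ), ← ENNReal.ofReal_coe_nnreal]
      exact (ENNReal.ofReal_lt_ofReal_iff hr0').mpr m3
    have m5 : ∫ z in Dᶜ, |X z| ∂P < η / 2 := by
      have h1 := hδP Dᶜ m4
      have h2 : ∫ z in Dᶜ, |X z| ∂P = (∫⁻ z in Dᶜ, ‖X z‖ₑ ∂P).toReal := by
        have := integral_norm_eq_lintegral_enorm (μ := P.restrict Dᶜ) (f := X)
          hXi.aestronglyMeasurable.restrict
        simpa [Real.norm_eq_abs] using this
      rw [h2]
      exact ENNReal.toReal_lt_of_lt_ofReal h1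
    -- norms as integrals
    have n1 : ‖x + t • y‖ = ∫ z, |X z + t * U z| ∂P := l1m_norm_eq P (x : Lp ℝ 1 P) y t
    have n2 : ‖x - t • y‖ = ∫ z, |X z + (-t) * U z| ∂P := by
      have := l1m_norm_eq P (x : Lp ℝ 1 P) y (-t)
      rw [← this]
      show ‖((x - t • y : E) : Lp ℝ 1 P)‖ = _
      congr 1
      simp [sub_eq_add_neg]
    have j1 : Integrable (fun z => |X z + t * U z|) P := (hXi.add (hUi.const_mul t)).abs
    have j2 : Integrable (fun z => |X z + (-t) * U z|) P := (hXi.add (hUi.const_mul (-t))).abs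
    have e0 : ‖x + t • y‖ + ‖x - t • y‖
        = ∫ z, (|X z + t * U z| + |X z + (-t) * U z|) ∂P := by
      rw [n1, n2, integral_add j1 j2]
    have e1 := integral_add_compl hDm (j1.add j2)
    have e2 := integral_add_compl hDm hXi.abs
    have e3 := integral_add_compl hDm hUi.abs
    have b1 : ∫ z in D, 2 * |X z| ∂P ≤ ∫ z in D, (|X z + t * U z| + |X z + (-t) * U z|) ∂P := by
      refine setIntegral_mono_on (hXi.abs.const_mul 2).integrableOn (j1.add j2).integrableOn hDm
        fun z _ => ?_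
      have h := abs_add_le (X z + t * U z) (X z + (-t) * U z)
      have h2 : X z + t * U z + (X z + (-t) * U z) = 2 * X z := by ring
      rw [h2, abs_mul, abs_two] at h
      exact h
    have b2 : ∫ z in Dᶜ, 2 * t * |U z| ∂P
        ≤ ∫ z in Dᶜ, (|X z + t * U z| + |X z + (-t) * U z|) ∂P := by
      refine setIntegral_mono_on (hUi.abs.const_mul (2 * t)).integrableOn (j1.add j2).integrableOn
        hDm.compl fun z _ => ?_
      have h := abs_sub (X z + t * U z) (X z + (-t) * U z)
      have h2 : X z + t * U z - (X z + (-t) * U z) = (2 * t) * U z := by ring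
      rw [h2, abs_mul, abs_of_pos (by positivity : (0 : ℝ) < 2 * t)] at h
      exact h
    rw [integral_const_mul] at b1 b2
    have hta : t * a ≤ η / 2 := by
      have h1 : a ≤ η / (2 * t) := (haε.le).trans (min_le_right _ _)
      calc t * a ≤ t * (η / (2 * t)) := mul_le_mul_of_nonneg_left h1 ht.le
        _ = η / 2 := by field_simp
    simp only [Pi.add_apply] at e1
    have c1 : t * ∫ z in D, |U z| ∂P ≤ t * (1 / 2 + a) := mul_le_mul_of_nonneg_left core ht.le
    nlinarith
  rcases max_cases (t / 2) (t - 1) with ⟨h, _⟩ | ⟨h, _⟩ <;> rw [h] <;> linarith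

end Crest.Agent.AUC
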