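import Crest.Agent.AUC.Basic

/-! Task T4b (owner: helper12).  Reflexivity and separability of `ℓ²`-sums. -/

set_option autoImplicit false

namespace Crest.Agent.AUC

open scoped ENNReal

/-- reflexivity, as in `RealBanach.IsReflexive`. -/
def IsReflexiveSpace (X : Type*) [NormedAddCommGroup X] [NormedSpace ℝ X] : Prop :=
  Function.Surjective (NormedSpace.inclusionInDoubleDual ℝ X)

theorem isReflexive_iff (E : Crest.AnalysisR.RealBanach) :
    E.IsReflexive ↔ @IsReflexiveSpace E.X E.normed E.space := Iff.rfl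

theorem IsReflexiveSpace.of_equiv {X Y : Type*} [NormedAddCommGroup X] [NormedSpace ℝ X]
    [NormedAddCommGroup Y] [NormedSpace ℝ Y] (e : X ≃L[ℝ] Y) (hX : IsReflexiveSpace X) :
    IsReflexiveSpace Y := by
  intro Φ
  -- precomposition with `e.symm` : X* → Y*
  let P : (X →L[ℝ] ℝ) →L[ℝ] (Y →L[ℝ] ℝ) :=
    (ContinuousLinearMap.compL ℝ Y X ℝ).flip (e.symm : Y →L[ℝ] X)
  obtain ⟨x, hx⟩ := hX (Φ.comp P)
  refine ⟨e x, ?_⟩
  ext φ
  have h1 := congrArg (fun Ψ => Ψ (φ.comp (e : X →L[ℝ] Y))) hx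
  simp only [NormedSpace.dual_def, ContinuousLinearMap.comp_apply] at h1
  rw [NormedSpace.dual_def]
  have h2 : P (φ.comp (e : X →L[ℝ] Y)) = φ := by
    ext y
    simp [P]
  rw [h2] at h1
  exact h1

theorem isReflexiveSpace_hilbert (H : Type*) [NormedAddCommGroup H] [InnerProductSpace ℝ H]
    [CompleteSpace H] : IsReflexiveSpace H := by
  intro Φ
  -- `y ↦ Φ (toDual y)` is a continuous linear functional on `H`
  let L : H →L[ℝ] ℝ :=
    { toFun := fun y => Φ (InnerProductSpace.toDual ℝ H y)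
      map_add' := fun a b => by rw [map_add, map_add]
      map_smul' := fun c a => by
        rw [LinearIsometryEquiv.map_smulₛₗ, map_smul]
        simp
      cont := Φ.continuous.comp (InnerProductSpace.toDual ℝ H).continuous }
  refine ⟨(InnerProductSpace.toDual ℝ H).symm L, ?_⟩
  ext φ
  rw [NormedSpace.dual_def]
  obtain ⟨y, rfl⟩ := (InnerProductSpace.toDual ℝ H).surjective φ
  rw [InnerProductSpace.toDual_apply_apply, real_inner_comm,
    InnerProductSpace.toDual_symm_apply]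
  rfl

section lpTwo

variable {F : ℕ → Type*} [∀ n, NormedAddCommGroup (F n)] [∀ n, NormedSpace ℝ (F n)]

private theorem l2sum_toReal : (2 : ℝ≥0∞).toReal = 2 := by simp

/-- Bessel-type bound for a functional on an `ℓ²`-sum tested on unit-ball vectors of the
summands. -/
theorem l2sum_sum_sq_le (Λ : lp F 2 →L[ℝ] ℝ) (u : ∀ n, F n) (hu : ∀ n, ‖u n‖ ≤ 1)
    (s : Finset ℕ) : ∑ n ∈ s, (Λ (lp.single 2 n (u n))) ^ 2 ≤ ‖Λ‖ ^ 2 := by
  set r : ℕ → ℝ := fun n => Λ (lp.single 2 n (u n)) with hr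
  set A : ℝ := ∑ n ∈ s, r n ^ 2 with hA
  have hA0 : 0 ≤ A := Finset.sum_nonneg fun n _ => sq_nonneg _
  set w : lp F 2 := ∑ n ∈ s, lp.single 2 n (r n • u n) with hw
  have hΛw : Λ w = A := by
    rw [hw, map_sum, hA]
    refine Finset.sum_congr rfl fun n _ => ?_
    rw [lp.single_smul, map_smul, smul_eq_mul, sq]
  have hwn : ‖w‖ ^ 2 ≤ A := by
    have h := lp.norm_sum_single (p := 2) (E := F) (by simp) (fun n => r n • u n) s
    rw [l2sum_toReal] at h
    simp only [Real.rpow_two] at h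
    rw [hw, h, hA]
    refine Finset.sum_le_sum fun n _ => ?_
    rw [norm_smul, mul_pow, Real.norm_eq_abs, sq_abs]
    have : ‖u n‖ ^ 2 ≤ 1 := by
      have := hu n
      have h0 := norm_nonneg (u n)
      nlinarith
    nlinarith [sq_nonneg (r n)]
  have h1 : A ≤ ‖Λ‖ * ‖w‖ := by
    rw [← hΛw]
    exact (le_abs_self _).trans (Λ.le_opNorm w)
  have h2 : A ^ 2 ≤ ‖Λ‖ ^ 2 * A := by
    calc A ^ 2 ≤ (‖Λ‖ * ‖w‖) ^ 2 := by gcongr
      _ = ‖Λ‖ ^ 2 * ‖w‖ ^ 2 := by ring
      _ ≤ ‖Λ‖ ^ 2 * A := by gcongr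
  rcases eq_or_lt_of_le hA0 with h0 | h0
  · rw [← h0]; positivity
  · have : A * A ≤ ‖Λ‖ ^ 2 * A := by rw [← sq]; exact h2
    exact le_of_mul_le_mul_right this h0

theorem l2sum_memℓp (Λ : lp F 2 →L[ℝ] ℝ) {F' : ℕ → Type*} [∀ n, NormedAddCommGroup (F' n)]
    (x : ∀ n, F' n) (u : ∀ n, F n) (hu : ∀ n, ‖u n‖ ≤ 1)
    (hx : ∀ n, Λ (lp.single 2 n (u n)) = ‖x n‖) : Memℓp x 2 := by
  refine memℓp_gen' (C := ‖Λ‖ ^ 2) fun s => ?_
  rw [l2sum_toReal]
  simp only [Real.rpow_two]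
  have := l2sum_sum_sq_le Λ u hu s
  simpa [hx] using this

end lpTwo

section pairing

variable {G : ℕ → Type*} [∀ n, NormedAddCommGroup (G n)] [∀ n, NormedSpace ℝ (G n)]

/-- the natural pairing `ℓ²(G*) → (ℓ²(G))*`. -/
noncomputable def l2sumPair : lp (fun n => G n →L[ℝ] ℝ) 2 →L[ℝ] lp G 2 →L[ℝ] ℝ :=
  lp.dualPairing 2 2 (fun n => ContinuousLinearMap.id ℝ (G n →L[ℝ] ℝ)) (K := 1)
    (fun _ => by simpa using ContinuousLinearMap.norm_id_le)

theorem l2sumPair_apply (c : lp (fun n => G n →L[ℝ] ℝ) 2) (z : lp G 2) :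
    l2sumPair c z = ∑' n, c n (z n) := rfl

theorem l2sumPair_single_left (n : ℕ) (ψ : G n →L[ℝ] ℝ) (z : lp G 2) :
    l2sumPair (lp.single 2 n ψ) z = ψ (z n) := by
  rw [l2sumPair_apply, tsum_eq_single n]
  · rw [lp.single_apply_self]
  · intro m hm
    rw [lp.single_apply_ne _ _ _ hm]
    simp

theorem l2sumPair_single_right (c : lp (fun n => G n →L[ℝ] ℝ) 2) (n : ℕ) (a : G n) :
    l2sumPair c (lp.single 2 n a) = c n a := by
  rw [l2sumPair_apply, tsum_eq_single n]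
  · rw [lp.single_apply_self]
  · intro m hm
    rw [lp.single_apply_ne _ _ _ hm]
    simp

end pairing

theorem isReflexiveSpace_lp_two {G : ℕ → Type*} [∀ n, NormedAddCommGroup (G n)]
    [∀ n, NormedSpace ℝ (G n)] (h : ∀ n, IsReflexiveSpace (G n)) :
    IsReflexiveSpace (lp G 2) := by
  intro Φ
  set T := l2sumPair (G := G) with hT
  -- surjectivity of `T`
  have hsurj : ∀ φ : lp G 2 →L[ℝ] ℝ, ∃ c, T c = φ := by
    intro φ
    let c : ∀ n, G n →L[ℝ] ℝ := fun n => φ.comp (lp.singleContinuousLinearMap ℝ G 2 n)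
    -- norm attaining vectors, by reflexivity
    have hatt : ∀ n, ∃ a : G n, ‖a‖ ≤ 1 ∧ c n a = ‖c n‖ := by
      intro n
      obtain ⟨Ξ, hΞ1, hΞ2⟩ := exists_dual_vector'' ℝ (c n)
      obtain ⟨a, ha⟩ := h n Ξ
      refine ⟨a, ?_, ?_⟩
      · have : ‖NormedSpace.inclusionInDoubleDualLi ℝ a‖ = ‖a‖ :=
          (NormedSpace.inclusionInDoubleDualLi ℝ).norm_map a
        rw [← this]
        have h3 : NormedSpace.inclusionInDoubleDualLi ℝ a = Ξ := ha
        rw [h3]; exact hΞ1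
      · have := congrArg (fun Ψ => Ψ (c n)) ha
        simp only [NormedSpace.dual_def] at this
        rw [this, hΞ2]; rfl
    choose a ha1 ha2 using hatt
    have hc : Memℓp c 2 := l2sum_memℓp φ c a ha1 (fun n => ha2 n)
    refine ⟨⟨c, hc⟩, ?_⟩
    refine lp.ext_continuousLinearMap (by simp) fun n => ?_
    ext b
    simp only [ContinuousLinearMap.comp_apply, lp.singleContinuousLinearMap_apply]
    rw [hT, l2sumPair_single_right]
    rfl
  set Ψ : lp (fun n => G n →L[ℝ] ℝ) 2 →L[ℝ] ℝ := Φ.comp T with hΨ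
  have hx : ∀ n, ∃ x : G n, ∀ ψ : G n →L[ℝ] ℝ, ψ x = Ψ (lp.single 2 n ψ) := by
    intro n
    obtain ⟨x, hx⟩ := h n (Ψ.comp (lp.singleContinuousLinearMap ℝ (fun n => G n →L[ℝ] ℝ) 2 n))
    refine ⟨x, fun ψ => ?_⟩
    have := congrArg (fun Θ => Θ ψ) hx
    simpa [NormedSpace.dual_def] using this
  choose x hx using hx
  have hnorming : ∀ n, ∃ ψ : G n →L[ℝ] ℝ, ‖ψ‖ ≤ 1 ∧ ψ (x n) = ‖x n‖ := fun n => by
    obtain ⟨g, hg1, hg2⟩ := exists_dual_vector'' ℝ (x n)
    exact ⟨g, hg1, by rw [hg2]; rfl⟩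
  choose ψ hψ1 hψ2 using hnorming
  have hxmem : Memℓp x 2 := l2sum_memℓp Ψ x ψ hψ1 (fun n => by rw [← hx, hψ2])
  let X : lp G 2 := ⟨x, hxmem⟩
  have hΨX : Ψ = T.flip X := by
    refine lp.ext_continuousLinearMap (by simp) fun n => ?_
    ext ψ'
    simp only [ContinuousLinearMap.comp_apply, lp.singleContinuousLinearMap_apply,
      ContinuousLinearMap.flip_apply]
    rw [← hx, hT, l2sumPair_single_left]
  refine ⟨X, ?_⟩
  ext φ
  obtain ⟨c, rfl⟩ := hsurj φ
  rw [NormedSpace.dual_def]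
  have := congrArg (fun Θ => Θ c) hΨX
  simp only [ContinuousLinearMap.flip_apply] at this
  rw [← this]
  rfl

theorem separableSpace_lp_two_countable {I : Type*} [Countable I] {G : I → Type*}
    [∀ i, NormedAddCommGroup (G i)] [∀ i, NormedSpace ℝ (G i)]
    (h : ∀ i, TopologicalSpace.SeparableSpace (G i)) :
    TopologicalSpace.SeparableSpace (lp G 2) := by
  classical
  rw [← TopologicalSpace.isSeparable_univ_iff]
  set S : Set (lp G 2) := ⋃ n, Set.range (lp.singleContinuousLinearMap ℝ G 2 n) with hS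
  have hSsep : TopologicalSpace.IsSeparable S :=
    TopologicalSpace.IsSeparable.iUnion fun n =>
      TopologicalSpace.isSeparable_range (lp.singleContinuousLinearMap ℝ G 2 n).continuous
  have hcl : TopologicalSpace.IsSeparable (closure (Submodule.span ℝ S : Set (lp G 2))) :=
    hSsep.span.closure
  refine hcl.mono fun f _ => ?_
  have hsum := lp.hasSum_single (p := 2) (E := G) (by simp) f
  refine mem_closure_of_tendsto hsum (Filter.Eventually.of_forall fun s => ?_)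
  refine Submodule.sum_mem _ fun n _ => Submodule.subset_span ?_
  exact Set.mem_iUnion.2 ⟨n, ⟨f n, rfl⟩⟩

theorem separableSpace_lp_two {G : ℕ → Type*} [∀ n, NormedAddCommGroup (G n)]
    [∀ n, NormedSpace ℝ (G n)] (h : ∀ n, TopologicalSpace.SeparableSpace (G n)) :
    TopologicalSpace.SeparableSpace (lp G 2) :=
  separableSpace_lp_two_countable h

end Crest.Agent.AUC
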