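import Crest.Agent.AUC.Basic
import Crest.Prelude.Def_TreePotentials

/-! Task T3c (owner: helper17).  Separability, infinite dimension and non-AUC-renormability of the
four tree-potential models. -/

set_option autoImplicit false

namespace Crest.Agent.AUC

open Crest.AnalysisR.TreePotential Filter Topology

/-! ### Tests -/

/-- potential of a point mass. -/
theorem mt_pathPotential_single (u s : List ℕ) :
    pathPotential (Pi.single u (1 : ℝ)) s = if u <:+ s then 1 else 0 := by
  induction s with
  | nil =>
    simp only [pathPotential, List.suffix_nil]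
    by_cases h : u = []
    · subst h; simp
    · rw [if_neg h, Pi.single_eq_of_ne (Ne.symm h)]
  | cons b w ih =>
    simp only [pathPotential, ih, List.suffix_cons_iff]
    by_cases h : u = b :: w
    · subst h
      have : ¬ (b :: w <:+ w) := by
        intro h
        have := h.length_le
        simp at this
      simp [this]
    · rw [Pi.single_eq_of_ne (Ne.symm h)]
      simp [h]

/-- A finitely supported family vanishing at the root with global square sum at most one satisfies
the extra condition of every model. -/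
theorem mt_extra_of_global (m : PotentialModel) (f : List ℕ → ℝ) (h0 : f [] = 0)
    (hfin : (Function.support f).Finite)
    (hg : ∀ A : Finset (List ℕ), ∑ u ∈ A, f u ^ 2 ≤ 1) : ExtraCondition m f := by
  have hsib : ∀ (r : List ℕ) (A : Finset ℕ), ∑ n ∈ A, f (n :: r) ^ 2 ≤ 1 := by
    intro r A
    have := hg (A.image (fun n => n :: r))
    rwa [Finset.sum_image (by intro a _ b _ h; simpa using h)] at this
  cases m with
  | rootlessSibling => exact ⟨h0, hsib⟩
  | rootedSibling => exact hsib
  | antichain => exact ⟨hfin, fun A _ => hg A⟩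
  | global => exact hg

/-- In every model the children square sums of a test are at most one. -/
theorem mt_sibling_le (m : PotentialModel) (f : List ℕ → ℝ) (hf : ExtraCondition m f)
    (r : List ℕ) (A : Finset ℕ) : ∑ n ∈ A, f (n :: r) ^ 2 ≤ 1 := by
  have himg : ∑ u ∈ A.image (fun n => n :: r), f u ^ 2 = ∑ n ∈ A, f (n :: r) ^ 2 :=
    Finset.sum_image (by intro a _ b _ h; simpa using h)
  cases m with
  | rootlessSibling => exact hf.2 r A
  | rootedSibling => exact hf r A
  | antichain =>
    rw [← himg]
    refine hf.2 _ ?_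
    intro u hu v hv huv hsuf
    simp only [Finset.mem_image] at hu hv
    obtain ⟨a, -, rfl⟩ := hu
    obtain ⟨b, -, rfl⟩ := hv
    exact huv (hsuf.eq_of_length (by simp))
  | global =>
    rw [← himg]
    exact hf _

theorem mt_isTest_single (m : PotentialModel) (a : ℕ) (v : List ℕ) :
    IsTest m (Pi.single (a :: v) (1 : ℝ)) := by
  refine ⟨fun s => ?_, mt_extra_of_global m _ ?_ ?_ ?_⟩
  · rw [mt_pathPotential_single]
    split_ifs <;> simp
  · exact Pi.single_eq_of_ne (List.cons_ne_nil a v).symm _
  · refine (Set.finite_singleton (a :: v)).subset ?_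
    intro u hu
    by_contra h
    exact hu (Pi.single_eq_of_ne h _)
  · intro A
    have h1 : ∀ u ∈ A, (Pi.single (a :: v) (1 : ℝ) : List ℕ → ℝ) u ^ 2
        = if u = a :: v then 1 else 0 := by
      intro u _
      by_cases h : u = a :: v
      · subst h; simp
      · rw [Pi.single_eq_of_ne h]; simp [h]
    rw [Finset.sum_congr rfl h1, Finset.sum_ite_eq']
    split_ifs <;> simp

/-- the point mass at a non-root vertex, as a test. -/
noncomputable def mtSingle (m : PotentialModel) (a : ℕ) (v : List ℕ) : PotentialTest m :=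
  ⟨Pi.single (a :: v) 1, mt_isTest_single m a v⟩

/-! ### Vectors -/

/-- coordinate vector as an element of the model space. -/
noncomputable def mtE (m : PotentialModel) (s : List ℕ) : modelSpace m :=
  ⟨coordVector m s, Submodule.le_topologicalClosure _ (Submodule.subset_span ⟨s, rfl⟩)⟩

theorem mtE_apply (m : PotentialModel) (s : List ℕ) (f : PotentialTest m) :
    ((mtE m s : modelSpace m) : lp (fun _ : PotentialTest m => ℝ) ⊤) f = f.1 s := rfl

/-- sum of the coordinate vectors along the root path. -/
noncomputable def mtChi (m : PotentialModel) : List ℕ → modelSpace m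
  | [] => mtE m []
  | a :: v => mtChi m v + mtE m (a :: v)

theorem mtChi_apply (m : PotentialModel) (s : List ℕ) (f : PotentialTest m) :
    ((mtChi m s : modelSpace m) : lp (fun _ : PotentialTest m => ℝ) ⊤) f
      = pathPotential f.1 s := by
  induction s with
  | nil => rfl
  | cons a v ih =>
    simp only [mtChi, pathPotential, Submodule.coe_add, lp.coeFn_add, Pi.add_apply, ih, mtE_apply]

theorem mtChi_norm_le (m : PotentialModel) (s : List ℕ) : ‖mtChi m s‖ ≤ 1 := by
  rw [Submodule.coe_norm]
  refine lp.norm_le_of_forall_le zero_le_one fun f => ?_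
  rw [mtChi_apply, Real.norm_eq_abs]
  exact f.2.1 s

theorem mt_le_norm (m : PotentialModel) (x : modelSpace m) (f : PotentialTest m) :
    |(x : lp (fun _ : PotentialTest m => ℝ) ⊤) f| ≤ ‖x‖ := by
  rw [Submodule.coe_norm, ← Real.norm_eq_abs]
  exact lp.norm_apply_le_norm (by simp) _ f

theorem mtE_norm_ge (m : PotentialModel) (a : ℕ) (v : List ℕ) : 1 ≤ ‖mtE m (a :: v)‖ := by
  have := mt_le_norm m (mtE m (a :: v)) (mtSingle m a v)
  rw [mtE_apply] at this
  simpa [mtSingle] using this

theorem mtChi_norm_ge (m : PotentialModel) : 1 ≤ ‖mtChi m [0]‖ := by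
  have := mt_le_norm m (mtChi m [0]) (mtSingle m 0 [])
  rw [mtChi_apply] at this
  simpa [mtSingle, mt_pathPotential_single] using this

/-- `ℓ²` upper estimate on siblings. -/
theorem mt_sibling_norm_le (m : PotentialModel) (r : List ℕ) (A : Finset ℕ) (c : ℕ → ℝ) :
    ‖∑ n ∈ A, c n • mtE m (n :: r)‖ ≤ Real.sqrt (∑ n ∈ A, c n ^ 2) := by
  rw [Submodule.coe_norm]
  refine lp.norm_le_of_forall_le (Real.sqrt_nonneg _) fun f => ?_
  have h1 : ((∑ n ∈ A, c n • mtE m (n :: r) : modelSpace m) :
      lp (fun _ : PotentialTest m => ℝ) ⊤) f = ∑ n ∈ A, c n * f.1 (n :: r) := by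
    rw [Submodule.coe_sum, lp.coeFn_sum, Finset.sum_apply]
    rfl
  rw [h1, Real.norm_eq_abs]
  refine Real.abs_le_sqrt ?_
  refine (Finset.sum_mul_sq_le_sq_mul_sq A c (fun n => f.1 (n :: r))).trans ?_
  have h2 := mt_sibling_le m f.1 f.2.2 r A
  have h3 : 0 ≤ ∑ n ∈ A, c n ^ 2 := Finset.sum_nonneg fun _ _ => sq_nonneg _
  nlinarith

theorem mt_weaklyNull (m : PotentialModel) (r : List ℕ) (φ : modelSpace m →L[ℝ] ℝ) :
    Tendsto (fun n => φ (mtE m (n :: r))) atTop (𝓝 0) := by
  set c : ℕ → ℝ := fun n => φ (mtE m (n :: r)) with hc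
  have hbound : ∀ A : Finset ℕ, ∑ n ∈ A, c n ^ 2 ≤ ‖φ‖ ^ 2 := by
    intro A
    set S := ∑ n ∈ A, c n ^ 2 with hS
    have hS0 : 0 ≤ S := Finset.sum_nonneg fun _ _ => sq_nonneg _
    have h1 : S = φ (∑ n ∈ A, c n • mtE m (n :: r)) := by
      rw [map_sum]
      refine Finset.sum_congr rfl fun n _ => ?_
      rw [map_smul, smul_eq_mul, sq]
    have h2 : S ≤ ‖φ‖ * Real.sqrt S := by
      calc S ≤ |S| := le_abs_self _
        _ = ‖φ (∑ n ∈ A, c n • mtE m (n :: r))‖ := by rw [← h1, Real.norm_eq_abs]
        _ ≤ ‖φ‖ * ‖∑ n ∈ A, c n • mtE m (n :: r)‖ := φ.le_opNorm _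
        _ ≤ ‖φ‖ * Real.sqrt S := by
          gcongr
          exact mt_sibling_norm_le m r A c
    have h3 : Real.sqrt S * Real.sqrt S = S := Real.mul_self_sqrt hS0
    have h4 : 0 ≤ Real.sqrt S := Real.sqrt_nonneg _
    have h5 : Real.sqrt S ≤ ‖φ‖ := by
      rcases h4.eq_or_lt with h | h
      · rw [← h]; exact norm_nonneg φ
      · nlinarith
    nlinarith [norm_nonneg φ]
  have hsum : Summable fun n => c n ^ 2 :=
    summable_of_sum_le (fun n => sq_nonneg _) hbound
  have h0 := hsum.tendsto_atTop_zero
  have h1 : Tendsto (fun n => Real.sqrt (c n ^ 2)) atTop (𝓝 0) := by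
    have := (Real.continuous_sqrt.tendsto 0).comp h0
    rw [Real.sqrt_zero] at this
    exact this
  simp only [Real.sqrt_sq_eq_abs] at h1
  exact (tendsto_zero_iff_abs_tendsto_zero _).mpr h1

theorem mt_good (m : PotentialModel) (k : ℕ) : ∀ s : List ℕ, Good 1 k (mtChi m s) := by
  induction k with
  | zero => exact fun s => mtChi_norm_le m s
  | succ k ih =>
    intro s
    have hsub : ∀ i, mtChi m (i :: s) - mtChi m s = mtE m (i :: s) := by
      intro i
      simp [mtChi]
    refine good_succ_of_weaklyNull (mtChi_norm_le m s) (fun i => mtChi m (i :: s))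
      (fun i => ih _) (fun i => ?_) (fun φ => ?_)
    · rw [hsub]; exact mtE_norm_ge m i s
    · simp only [hsub]; exact mt_weaklyNull m s φ

/-! ### Main statements -/

theorem model_separable (m : PotentialModel) :
    TopologicalSpace.SeparableSpace (modelSpace m) := by
  have h1 : TopologicalSpace.IsSeparable (Set.range (coordVector m)) :=
    (Set.countable_range _).isSeparable
  have h2 := (h1.span (R := ℝ)).closure
  exact h2.separableSpace

theorem model_not_finiteDimensional (m : PotentialModel) :
    ¬ FiniteDimensional ℝ (modelSpace m) :=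
  not_finiteDimensional_of_weaklyNull one_pos (mt_weaklyNull m []) (fun i => mtE_norm_ge m i [])

theorem model_not_isAUCOn (m : PotentialModel) (N : modelSpace m → ℝ) (hN : IsEquivNormOn N) :
    ¬ IsAUCOn N :=
  not_isAUCOn_of_good one_pos (fun k => ⟨mtChi m [0], mtChi_norm_ge m, mt_good m k [0]⟩) N hN

end Crest.Agent.AUC
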