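import Crest.Agent.AUC.Potential
import Crest.Agent.AUC.ModelTree

/-! Core of task T3b (helper17): tests of the four tree-potential models are stable under negation
and under the truncated-potential splitting; the resulting two-sided norm inequality. -/

set_option autoImplicit false

namespace Crest.Agent.AUC

open Crest.AnalysisR.TreePotential

/-! ### Stability of the extra condition -/

theorem mmc_sum_le {ι : Type*} (S : Finset ι) (F G H : ι → ℝ) (a b : ℝ) (hab : a ^ 2 + b ^ 2 ≤ 1)
    (hF : ∑ i ∈ S, F i ^ 2 ≤ 1) (hG : ∑ i ∈ S, G i ^ 2 ≤ 1)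
    (hH : ∀ i, H i ^ 2 ≤ a ^ 2 * F i ^ 2 + b ^ 2 * G i ^ 2) : ∑ i ∈ S, H i ^ 2 ≤ 1 := by
  calc ∑ i ∈ S, H i ^ 2 ≤ ∑ i ∈ S, (a ^ 2 * F i ^ 2 + b ^ 2 * G i ^ 2) :=
        Finset.sum_le_sum fun i _ => hH i
    _ = a ^ 2 * ∑ i ∈ S, F i ^ 2 + b ^ 2 * ∑ i ∈ S, G i ^ 2 := by
        rw [Finset.sum_add_distrib, Finset.mul_sum, Finset.mul_sum]
    _ ≤ a ^ 2 * 1 + b ^ 2 * 1 := by gcongr
    _ ≤ 1 := by linarith

theorem mmc_extra_of_sq_le (m : PotentialModel) (f g h : List ℕ → ℝ) (a b : ℝ)
    (hab : a ^ 2 + b ^ 2 ≤ 1) (hf : ExtraCondition m f) (hg : ExtraCondition m g)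
    (hh : ∀ s, h s ^ 2 ≤ a ^ 2 * f s ^ 2 + b ^ 2 * g s ^ 2) : ExtraCondition m h := by
  cases m with
  | rootlessSibling =>
    refine ⟨?_, fun r A => ?_⟩
    · have := hh []
      rw [hf.1, hg.1] at this
      have h0 : h [] ^ 2 ≤ 0 := by simpa using this
      exact pow_eq_zero_iff (two_ne_zero) |>.mp (le_antisymm h0 (sq_nonneg _))
    · exact mmc_sum_le A _ _ _ a b hab (hf.2 r A) (hg.2 r A) fun n => hh (n :: r)
  | rootedSibling =>
    exact fun r A => mmc_sum_le A _ _ _ a b hab (hf r A) (hg r A) fun n => hh (n :: r)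
  | antichain =>
    refine ⟨(hf.1.union hg.1).subset ?_, fun A hA => ?_⟩
    · intro s hs
      by_contra hcon
      simp only [Set.mem_union, Function.mem_support, not_or, not_not] at hcon
      have := hh s
      rw [hcon.1, hcon.2] at this
      have h0 : h s ^ 2 ≤ 0 := by simpa using this
      exact hs (pow_eq_zero_iff (two_ne_zero) |>.mp (le_antisymm h0 (sq_nonneg _)))
    · exact mmc_sum_le A _ _ _ a b hab (hf.2 A hA) (hg.2 A hA) hh
  | global =>
    exact fun A => mmc_sum_le A _ _ _ a b hab (hf A) (hg A) hh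

theorem mmc_pathPotential_neg (f : List ℕ → ℝ) (s : List ℕ) :
    pathPotential (fun u => - f u) s = - pathPotential f s := by
  induction s with
  | nil => rfl
  | cons a v ih => simp only [pathPotential, ih]; ring

theorem mmc_pathPotential_zero (s : List ℕ) : pathPotential (fun _ => (0 : ℝ)) s = 0 := by
  induction s with
  | nil => rfl
  | cons a v ih => simp only [pathPotential, ih]; ring

theorem mmc_isTest_zero (m : PotentialModel) : IsTest m (fun _ => (0 : ℝ)) := by
  refine ⟨fun s => ?_, mt_extra_of_global m _ rfl ?_ ?_⟩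
  · rw [mmc_pathPotential_zero]; simp
  · simp [Function.support]
  · intro A; simp

theorem mmc_isTest_neg (m : PotentialModel) (f : List ℕ → ℝ) (hf : IsTest m f) :
    IsTest m (fun u => - f u) := by
  refine ⟨fun s => ?_, mmc_extra_of_sq_le m f f _ 1 0 (by norm_num) hf.2 hf.2 fun s => ?_⟩
  · rw [mmc_pathPotential_neg, abs_neg]; exact hf.1 s
  · simp

/-- the opposite test. -/
noncomputable def mmcNeg (m : PotentialModel) (f : PotentialTest m) : PotentialTest m :=
  ⟨fun u => - f.1 u, mmc_isTest_neg m f.1 f.2⟩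

open Classical in
/-- point mass at `s` if that is a test, the zero test otherwise. -/
noncomputable def mmcDelta (m : PotentialModel) (s : List ℕ) : PotentialTest m :=
  if h : IsTest m (Pi.single s (1 : ℝ)) then ⟨Pi.single s 1, h⟩ else ⟨fun _ => 0, mmc_isTest_zero m⟩

theorem mmc_isTest_single_nil (m : PotentialModel) (hm : m ≠ .rootlessSibling) :
    IsTest m (Pi.single [] (1 : ℝ)) := by
  have hsq : ∀ A : Finset (List ℕ), ∑ u ∈ A, (Pi.single [] (1 : ℝ) : List ℕ → ℝ) u ^ 2 ≤ 1 := by
    intro A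
    have h1 : ∀ u ∈ A, (Pi.single [] (1 : ℝ) : List ℕ → ℝ) u ^ 2
        = if u = [] then 1 else 0 := by
      intro u _
      by_cases h : u = []
      · subst h; simp
      · rw [Pi.single_eq_of_ne h]; simp [h]
    rw [Finset.sum_congr rfl h1, Finset.sum_ite_eq']
    split_ifs <;> simp
  refine ⟨fun s => ?_, ?_⟩
  · rw [mt_pathPotential_single]
    split_ifs <;> simp
  · cases m with
    | rootlessSibling => exact absurd rfl hm
    | rootedSibling =>
      intro r A
      have := hsq (A.image (fun n => n :: r))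
      rwa [Finset.sum_image (by intro a _ b _ h; simpa using h)] at this
    | antichain =>
      refine ⟨(Set.finite_singleton []).subset ?_, fun A _ => hsq A⟩
      intro u hu
      by_contra h
      exact hu (Pi.single_eq_of_ne h _)
    | global => exact hsq

/-- either the point mass at `s` is a test, or all tests vanish at `s`. -/
theorem mmc_single_or (m : PotentialModel) (s : List ℕ) :
    IsTest m (Pi.single s (1 : ℝ)) ∨ ∀ f : PotentialTest m, f.1 s = 0 := by
  cases s with
  | cons a v => exact Or.inl (mt_isTest_single m a v)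
  | nil =>
    by_cases hm : m = .rootlessSibling
    · subst hm
      exact Or.inr fun f => f.2.2.1
    · exact Or.inl (mmc_isTest_single_nil m hm)

theorem mmcDelta_apply_ne (m : PotentialModel) {s u : List ℕ} (h : u ≠ s) :
    (mmcDelta m s).1 u = 0 := by
  unfold mmcDelta
  split_ifs
  · exact Pi.single_eq_of_ne h _
  · rfl

theorem mmcDelta_mul_self (m : PotentialModel) (g : PotentialTest m) (s : List ℕ) :
    g.1 s * (mmcDelta m s).1 s = g.1 s := by
  rcases mmc_single_or m s with h | h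
  · unfold mmcDelta
    rw [dif_pos h]
    simp
  · rw [h g, zero_mul]

/-! ### Evaluation functionals -/

/-- evaluation at a test on the ambient space. -/
noncomputable def mmcEvA (m : PotentialModel) (f : PotentialTest m) :
    lp (fun _ : PotentialTest m => ℝ) ⊤ →L[ℝ] ℝ :=
  lp.evalCLM ℝ (fun _ : PotentialTest m => ℝ) ⊤ f

theorem mmcEvA_apply (m : PotentialModel) (f : PotentialTest m)
    (y : lp (fun _ : PotentialTest m => ℝ) ⊤) : mmcEvA m f y = y f := rfl

/-- evaluation at a test on the model space. -/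
noncomputable def mmcEv (m : PotentialModel) (f : PotentialTest m) : modelSpace m →L[ℝ] ℝ :=
  (mmcEvA m f).comp (modelSpace m).subtypeL

theorem mmcEv_apply (m : PotentialModel) (f : PotentialTest m) (y : modelSpace m) :
    mmcEv m f y = (y : lp (fun _ : PotentialTest m => ℝ) ⊤) f := rfl

/-- a continuous functional vanishing on all coordinate vectors vanishes on the model space. -/
theorem mmc_ext (m : PotentialModel) (Λ : lp (fun _ : PotentialTest m => ℝ) ⊤ →L[ℝ] ℝ)
    (h : ∀ s, Λ (coordVector m s) = 0) (y : modelSpace m) :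
    Λ (y : lp (fun _ : PotentialTest m => ℝ) ⊤) = 0 := by
  have hle : modelSpace m ≤ LinearMap.ker (Λ : lp (fun _ : PotentialTest m => ℝ) ⊤ →ₗ[ℝ] ℝ) := by
    refine Submodule.topologicalClosure_minimal _ ?_ Λ.isClosed_ker
    rw [Submodule.span_le]
    rintro _ ⟨s, rfl⟩
    exact h s
  exact hle y.2

theorem mmcNeg_apply (m : PotentialModel) (y : modelSpace m) (f : PotentialTest m) :
    (y : lp (fun _ : PotentialTest m => ℝ) ⊤) (mmcNeg m f)
      = - (y : lp (fun _ : PotentialTest m => ℝ) ⊤) f := by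
  have := mmc_ext m (mmcEvA m (mmcNeg m f) + mmcEvA m f) (fun s => by
    simp only [add_apply, mmcEvA_apply]
    show - f.1 s + f.1 s = 0
    ring) y
  simp only [add_apply, mmcEvA_apply] at this
  linarith

/-! ### The splitting produces tests -/

theorem mmc_split (m : PotentialModel) (A : Set (List ℕ)) (hA : IsDownSet A)
    (f g : PotentialTest m) (α β : ℝ) (hα0 : 0 ≤ α) (hβ0 : 0 ≤ β) (hβ1 : β ≤ 1 / 2)
    (hαβ : α ^ 2 + β ^ 2 ≤ 1) :
    ∃ hp hm : PotentialTest m,
      (∀ s ∈ A, hp.1 s = α * f.1 s ∧ hm.1 s = α * f.1 s) ∧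
      (∀ s ∉ A, hp.1 s - hm.1 s = β * g.1 s) := by
  have hα1 : α ≤ 1 := by nlinarith [sq_nonneg β]
  obtain ⟨hp, hm, h1, h2, h3⟩ := exists_split A hA f.1 g.1 α β hα0 hα1 hβ0 hβ1
  have key : ∀ h : List ℕ → ℝ, (∀ s ∈ A, h s = α * f.1 s) → (∀ s ∉ A, |h s| ≤ β * |g.1 s|) →
      ExtraCondition m h := by
    intro h hin hout
    refine mmc_extra_of_sq_le m f.1 g.1 h α β hαβ f.2.2 g.2.2 fun s => ?_
    by_cases hs : s ∈ A
    · rw [hin s hs, mul_pow]
      have : 0 ≤ β ^ 2 * g.1 s ^ 2 := by positivity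
      linarith
    · have h4 := hout s hs
      have h5 : h s ^ 2 ≤ (β * |g.1 s|) ^ 2 := by
        rw [← sq_abs (h s)]
        exact pow_le_pow_left₀ (abs_nonneg _) h4 2
      rw [mul_pow, sq_abs] at h5
      have : 0 ≤ α ^ 2 * f.1 s ^ 2 := by positivity
      linarith
  have hpot := fun s => h3 s (fun u _ => f.2.1 u) (fun u _ => g.2.1 u)
  refine ⟨⟨hp, fun s => (hpot s).1, key hp (fun s hs => (h1 s hs).1) (fun s hs => (h2 s hs).1)⟩,
    ⟨hm, fun s => (hpot s).2, key hm (fun s hs => (h1 s hs).2) (fun s hs => (h2 s hs).2.1)⟩,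
    h1, fun s hs => (h2 s hs).2.2⟩

/-! ### The core inequality -/

theorem mmc_core (m : PotentialModel) (A : Finset (List ℕ))
    (hA : IsDownSet (↑A : Set (List ℕ))) (x₀ y : modelSpace m)
    (hx₀ : (x₀ : lp (fun _ : PotentialTest m => ℝ) ⊤) ∈
      Submodule.span ℝ (coordVector m '' (↑A : Set (List ℕ))))
    (hy : ∀ s ∈ A, (y : lp (fun _ : PotentialTest m => ℝ) ⊤) (mmcDelta m s) = 0)
    (f g : PotentialTest m) (α β : ℝ) (hα0 : 0 ≤ α) (hβ0 : 0 ≤ β) (hβ1 : β ≤ 1 / 2)
    (hαβ : α ^ 2 + β ^ 2 ≤ 1) :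
    2 * α * (x₀ : lp (fun _ : PotentialTest m => ℝ) ⊤) f
      + β * (y : lp (fun _ : PotentialTest m => ℝ) ⊤) g ≤ ‖x₀ + y‖ + ‖x₀ - y‖ := by
  classical
  obtain ⟨hp, hm, hin, hout⟩ := mmc_split m (↑A) hA f g α β hα0 hβ0 hβ1 hαβ
  -- values of `x₀`
  have hx : ∀ h : PotentialTest m, (∀ s ∈ (↑A : Set (List ℕ)), h.1 s = α * f.1 s) →
      (x₀ : lp (fun _ : PotentialTest m => ℝ) ⊤) h
        = α * (x₀ : lp (fun _ : PotentialTest m => ℝ) ⊤) f := by
    intro h hh
    have hle : Submodule.span ℝ (coordVector m '' (↑A : Set (List ℕ))) ≤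
        LinearMap.ker ((mmcEvA m h - α • mmcEvA m f :
          lp (fun _ : PotentialTest m => ℝ) ⊤ →L[ℝ] ℝ) :
          lp (fun _ : PotentialTest m => ℝ) ⊤ →ₗ[ℝ] ℝ) := by
      rw [Submodule.span_le]
      rintro _ ⟨s, hs, rfl⟩
      show (mmcEvA m h - α • mmcEvA m f) (coordVector m s) = 0
      simp only [sub_apply, smul_apply, mmcEvA_apply,
        smul_eq_mul]
      show h.1 s - α * f.1 s = 0
      rw [hh s hs]; ring
    have := hle hx₀
    have h2 : (mmcEvA m h - α • mmcEvA m f) (x₀ : lp (fun _ : PotentialTest m => ℝ) ⊤) = 0 := this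
    simp only [sub_apply, smul_apply, mmcEvA_apply,
      smul_eq_mul] at h2
    linarith
  have hxp := hx hp fun s hs => (hin s hs).1
  have hxm := hx hm fun s hs => (hin s hs).2
  -- values of `y`
  have hyv : (y : lp (fun _ : PotentialTest m => ℝ) ⊤) hp
      - (y : lp (fun _ : PotentialTest m => ℝ) ⊤) hm
      = β * (y : lp (fun _ : PotentialTest m => ℝ) ⊤) g := by
    have := mmc_ext m (mmcEvA m hp - mmcEvA m hm - β • mmcEvA m g
      + β • ∑ s ∈ A, g.1 s • mmcEvA m (mmcDelta m s)) (fun u => by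
        simp only [add_apply, sub_apply,
          smul_apply, sum_apply, mmcEvA_apply, smul_eq_mul]
        show hp.1 u - hm.1 u - β * g.1 u + β * ∑ s ∈ A, g.1 s * (mmcDelta m s).1 u = 0
        by_cases hu : u ∈ A
        · have hsum : ∑ s ∈ A, g.1 s * (mmcDelta m s).1 u = g.1 u := by
            rw [Finset.sum_eq_single u]
            · exact mmcDelta_mul_self m g u
            · intro s _ hsu
              rw [mmcDelta_apply_ne m (Ne.symm hsu), mul_zero]
            · intro h; exact absurd hu h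
          rw [hsum, (hin u (by exact_mod_cast hu)).1, (hin u (by exact_mod_cast hu)).2]
          ring
        · have hsum : ∑ s ∈ A, g.1 s * (mmcDelta m s).1 u = 0 := by
            refine Finset.sum_eq_zero fun s hs => ?_
            have : u ≠ s := fun h => hu (h ▸ hs)
            rw [mmcDelta_apply_ne m this, mul_zero]
          rw [hsum, hout u (by exact_mod_cast hu)]
          ring) y
    simp only [add_apply, sub_apply,
      smul_apply, sum_apply, mmcEvA_apply,
      smul_eq_mul] at this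
    have hz : ∑ s ∈ A, g.1 s * (y : lp (fun _ : PotentialTest m => ℝ) ⊤) (mmcDelta m s) = 0 :=
      Finset.sum_eq_zero fun s hs => by rw [hy s hs, mul_zero]
    rw [hz] at this
    linarith
  have h1 := (le_abs_self _).trans (mt_le_norm m (x₀ + y) hp)
  have h2 := (le_abs_self _).trans (mt_le_norm m (x₀ - y) hm)
  simp only [Submodule.coe_add, Submodule.coe_sub, lp.coeFn_add, lp.coeFn_sub, Pi.add_apply,
    Pi.sub_apply] at h1 h2
  rw [hxp] at h1
  rw [hxm] at h2
  linarith

end Crest.Agent.AUC
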