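import Crest.Agent.AUC.Potential
import Crest.Agent.AUC.ModelTree
import Crest.Agent.AUC.ModelMidCore

/-! Task T3b (owner: helper3).  Averaged midpoint modulus of the four tree-potential models. -/

set_option autoImplicit false

namespace Crest.Agent.AUC

open Crest.AnalysisR.TreePotential

/-! ### Tests -/

theorem mm_pathPotential_neg (f : List ℕ → ℝ) (s : List ℕ) :
    pathPotential (fun u => - f u) s = - pathPotential f s := by
  induction s with
  | nil => rfl
  | cons a v ih => simp only [pathPotential, ih]; ring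

theorem mm_neg (m : PotentialModel) (f : PotentialTest m) : IsTest m (fun s => - f.1 s) := by
  refine ⟨fun s => ?_, ?_⟩
  · rw [mm_pathPotential_neg, abs_neg]; exact f.2.1 s
  · have hf := f.2.2
    cases m with
    | rootlessSibling =>
      exact ⟨by simpa using hf.1, fun r A => by simpa using hf.2 r A⟩
    | rootedSibling => exact fun r A => by simpa using hf r A
    | antichain =>
      refine ⟨?_, fun A hA => by simpa using hf.2 A hA⟩
      refine hf.1.subset ?_
      intro u hu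
      simpa using hu
    | global => exact fun A => by simpa using hf A

theorem mm_root (m : PotentialModel) : ∃ e0 : PotentialTest m, (∀ a v, e0.1 (a :: v) = 0) ∧
    (∀ g : PotentialTest m, g.1 [] * e0.1 [] = g.1 []) :=
  ⟨mmcDelta m [], fun a v => mmcDelta_apply_ne m (List.cons_ne_nil a v),
    fun g => mmcDelta_mul_self m g []⟩

theorem mm_split (m : PotentialModel) (A : Set (List ℕ)) (hA : IsDownSet A) (f g : PotentialTest m)
    (α β : ℝ) (hα0 : 0 ≤ α) (hβ0 : 0 ≤ β) (hβ1 : β ≤ 1 / 2) (hαβ : α ^ 2 + β ^ 2 ≤ 1) :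
    ∃ hp hm : PotentialTest m, (∀ s ∈ A, hp.1 s = α * f.1 s ∧ hm.1 s = α * f.1 s) ∧
      (∀ s ∉ A, hp.1 s - hm.1 s = β * g.1 s) :=
  mmc_split m A hA f g α β hα0 hβ0 hβ1 hαβ

/-! ### Evaluation functionals -/

/-- evaluation at a test, as a continuous linear functional on the model space. -/
noncomputable def mmEv (m : PotentialModel) (h : PotentialTest m) : modelSpace m →L[ℝ] ℝ :=
  LinearMap.mkContinuous
    { toFun := fun x => (x : lp (fun _ : PotentialTest m => ℝ) ⊤) h
      map_add' := by intro x y; simp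
      map_smul' := by intro c x; simp } 1
    (by intro x; simpa using mt_le_norm m x h)

theorem mmEv_apply (m : PotentialModel) (h : PotentialTest m) (x : modelSpace m) :
    mmEv m h x = (x : lp (fun _ : PotentialTest m => ℝ) ⊤) h := rfl

theorem mmEv_mtE (m : PotentialModel) (h : PotentialTest m) (s : List ℕ) :
    mmEv m h (mtE m s) = h.1 s := rfl

theorem mmEv_le_norm (m : PotentialModel) (h : PotentialTest m) (x : modelSpace m) :
    mmEv m h x ≤ ‖x‖ := (le_abs_self _).trans (mt_le_norm m x h)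

theorem mmEv_abs_le_norm (m : PotentialModel) (h : PotentialTest m) (x : modelSpace m) :
    |mmEv m h x| ≤ ‖x‖ := mt_le_norm m x h

/-- finitely supported vectors -/
noncomputable def mmVec (m : PotentialModel) (a : List ℕ →₀ ℝ) : modelSpace m :=
  a.sum fun s c => c • mtE m s

theorem mmEv_mmVec (m : PotentialModel) (h : PotentialTest m) (a : List ℕ →₀ ℝ) :
    mmEv m h (mmVec m a) = a.sum fun s c => c * h.1 s := by
  simp only [mmVec, Finsupp.sum, map_sum, map_smul, mmEv_mtE, smul_eq_mul]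

theorem mm_approx (m : PotentialModel) (x : modelSpace m) {ε : ℝ} (hε : 0 < ε) :
    ∃ a : List ℕ →₀ ℝ, ‖x - mmVec m a‖ < ε := by
  have hx : (x : lp (fun _ : PotentialTest m => ℝ) ⊤) ∈
      closure ((Submodule.span ℝ (Set.range (coordVector m)) : Submodule ℝ _) : Set _) := by
    have : (x : lp (fun _ : PotentialTest m => ℝ) ⊤) ∈
        (Submodule.span ℝ (Set.range (coordVector m))).topologicalClosure := x.2
    rwa [← SetLike.mem_coe, Submodule.topologicalClosure_coe] at this
  obtain ⟨b, hb, hd⟩ := Metric.mem_closure_iff.mp hx ε hε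
  obtain ⟨a, ha⟩ := (Finsupp.mem_span_range_iff_exists_finsupp).mp hb
  refine ⟨a, ?_⟩
  have hcoe : ((mmVec m a : modelSpace m) : lp (fun _ : PotentialTest m => ℝ) ⊤) = b := by
    rw [← ha]
    simp only [mmVec, Finsupp.sum, Submodule.coe_sum, Submodule.coe_smul]
    rfl
  rw [Submodule.coe_norm, Submodule.coe_sub, hcoe, ← dist_eq_norm]
  exact hd

theorem mm_ext (m : PotentialModel) (φ ψ : modelSpace m →L[ℝ] ℝ)
    (h : ∀ s, φ (mtE m s) = ψ (mtE m s)) : φ = ψ := by
  have hvec : ∀ a : List ℕ →₀ ℝ, φ (mmVec m a) = ψ (mmVec m a) := by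
    intro a
    simp only [mmVec, Finsupp.sum, map_sum, map_smul, h]
  ext x
  by_contra hne
  have hpos : 0 < |φ x - ψ x| := abs_pos.mpr (sub_ne_zero.mpr hne)
  obtain ⟨a, ha⟩ := mm_approx m x (ε := |φ x - ψ x| / (‖φ - ψ‖ + 1)) (by positivity)
  have h1 : φ x - ψ x = (φ - ψ) (x - mmVec m a) := by
    simp [hvec a]
  have h2 : |φ x - ψ x| ≤ ‖φ - ψ‖ * ‖x - mmVec m a‖ := by
    rw [h1, ← Real.norm_eq_abs]; exact (φ - ψ).le_opNorm _
  have h3 : ‖φ - ψ‖ * ‖x - mmVec m a‖ ≤ ‖φ - ψ‖ * (|φ x - ψ x| / (‖φ - ψ‖ + 1)) :=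
    mul_le_mul_of_nonneg_left ha.le (ContinuousLinearMap.opNorm_nonneg _)
  have h4 : ‖φ - ψ‖ * (|φ x - ψ x| / (‖φ - ψ‖ + 1)) < |φ x - ψ x| := by
    have hn : 0 ≤ ‖φ - ψ‖ := ContinuousLinearMap.opNorm_nonneg _
    rw [mul_div_assoc', div_lt_iff₀ (by positivity)]
    nlinarith
  linarith

theorem mmEv_neg (m : PotentialModel) (f : PotentialTest m) :
    mmEv m ⟨fun s => - f.1 s, mm_neg m f⟩ = - mmEv m f := by
  apply mm_ext
  intro s
  simp [mmEv_mtE]

/-- norming tests -/
theorem mm_exists_norming (m : PotentialModel) (x : modelSpace m) {ε : ℝ} (hε : 0 < ε) :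
    ∃ f : PotentialTest m, ‖x‖ - ε < mmEv m f x := by
  by_contra hcon
  push Not at hcon
  have habs : ∀ f : PotentialTest m, |mmEv m f x| ≤ ‖x‖ - ε := by
    intro f
    rw [abs_le]
    refine ⟨?_, hcon f⟩
    have := hcon ⟨fun s => - f.1 s, mm_neg m f⟩
    rw [mmEv_neg] at this
    simp only [neg_apply] at this
    linarith
  obtain ⟨e0, -, -⟩ := mm_root m
  have h0 : 0 ≤ ‖x‖ - ε := (abs_nonneg _).trans (habs e0)
  have : ‖x‖ ≤ ‖x‖ - ε := by
    conv_lhs => rw [Submodule.coe_norm]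
    refine lp.norm_le_of_forall_le h0 fun f => ?_
    rw [Real.norm_eq_abs]
    exact habs f
  linarith

/-- coordinate tests -/
noncomputable def mmCoord (m : PotentialModel) : List ℕ → PotentialTest m
  | [] => (mm_root m).choose
  | a :: v => mtSingle m a v

theorem mmCoord_spec (m : PotentialModel) (g : PotentialTest m) (s u : List ℕ) :
    g.1 s * (mmCoord m s).1 u = if u = s then g.1 s else 0 := by
  cases s with
  | nil =>
    obtain ⟨h1, h2⟩ := (mm_root m).choose_spec
    cases u with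
    | nil => simpa [mmCoord] using h2 g
    | cons b w => simp [mmCoord, h1 b w]
  | cons a v =>
    by_cases h : u = a :: v
    · subst h; simp [mmCoord, mtSingle]
    · simp only [mmCoord, mtSingle, if_neg h]
      rw [Pi.single_eq_of_ne h]; simp

theorem mm_identity (m : PotentialModel) (A : Finset (List ℕ)) (hp hm g : PotentialTest m) (β : ℝ)
    (h1 : ∀ s ∈ A, hp.1 s = hm.1 s) (h2 : ∀ s ∉ A, hp.1 s - hm.1 s = β * g.1 s) :
    mmEv m hp - mmEv m hm = β • mmEv m g - β • ∑ s ∈ A, g.1 s • mmEv m (mmCoord m s) := by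
  apply mm_ext
  intro u
  simp only [sub_apply, smul_apply,
    sum_apply, mmEv_mtE, smul_eq_mul, mmCoord_spec]
  rw [Finset.sum_ite_eq]
  by_cases hu : u ∈ A
  · rw [if_pos hu, h1 u hu]; ring
  · rw [if_neg hu, h2 u hu]; ring

/-- down closure of a finite set of vertices -/
noncomputable def mmDown (B : Finset (List ℕ)) : Finset (List ℕ) :=
  insert [] (B.biUnion fun s => s.tails.toFinset)

theorem mmDown_isDownSet (B : Finset (List ℕ)) : IsDownSet (mmDown B : Set (List ℕ)) := by
  refine ⟨by simp [mmDown], ?_⟩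
  intro a v h
  simp only [mmDown, Finset.coe_insert, Finset.coe_biUnion, Set.mem_insert_iff, Set.mem_iUnion,
    Finset.mem_coe, List.mem_toFinset, List.mem_tails, reduceCtorEq, false_or] at h ⊢
  obtain ⟨s, hs, hsuf⟩ := h
  right
  exact ⟨s, hs, (List.suffix_cons a v).trans hsuf⟩

theorem subset_mmDown (B : Finset (List ℕ)) : B ⊆ mmDown B := by
  intro s hs
  simp only [mmDown, Finset.mem_insert, Finset.mem_biUnion, List.mem_toFinset, List.mem_tails]
  right
  exact ⟨s, hs, List.suffix_refl s⟩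

theorem model_midGE (m : PotentialModel) (t : ℝ) (ht0 : 0 < t) (ht1 : t < 1) :
    MidGE (modelSpace m) t (Real.sqrt (1 + t ^ 2 / 4) - 1) := by
  intro x hx η hη
  set R := Real.sqrt (1 + t ^ 2 / 4) with hR
  have hRsq : R ^ 2 = 1 + t ^ 2 / 4 := Real.sq_sqrt (by positivity)
  have hR1 : 1 ≤ R := by
    rw [hR]; apply Real.one_le_sqrt.mpr; nlinarith [sq_nonneg t]
  have hR2 : R ≤ 2 := by
    rw [hR]; apply Real.sqrt_le_iff.mpr; constructor <;> nlinarith
  have hRpos : 0 < R := by linarith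
  set ε := η / 4 with hεdef
  have hε : 0 < ε := by positivity
  obtain ⟨a, ha⟩ := mm_approx m x hε
  set A := mmDown a.support with hAdef
  have hA : IsDownSet (A : Set (List ℕ)) := mmDown_isDownSet _
  refine ⟨{y | ∀ s : A, mmEv m (mmCoord m s) y = 0},
    isCofSet_forall_eq_zero (fun s : A => mmEv m (mmCoord m s)), ?_⟩
  intro y hy hy1
  obtain ⟨f, hf⟩ := mm_exists_norming m x hε
  obtain ⟨g, hg⟩ := mm_exists_norming m y hε
  rw [hx] at hf
  rw [hy1] at hg
  set α := 1 / R with hα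
  set β := (t / 2) / R with hβ
  have hα0 : 0 ≤ α := by positivity
  have hα1 : α ≤ 1 := by rw [hα, div_le_one hRpos]; exact hR1
  have hβ0 : 0 ≤ β := by positivity
  have hβ1 : β ≤ 1 / 2 := by
    rw [hβ, div_le_iff₀ hRpos]; nlinarith
  have hαβ : α ^ 2 + β ^ 2 ≤ 1 := by
    have : α ^ 2 + β ^ 2 = (1 + t ^ 2 / 4) / R ^ 2 := by
      rw [hα, hβ]; field_simp; ring
    rw [this, hRsq, div_self (by positivity)]
  obtain ⟨hp, hm, hA1, hA2⟩ := mm_split m A hA f g α β hα0 hβ0 hβ1 hαβ
  -- identity for y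
  have hyid : mmEv m hp y - mmEv m hm y = β * mmEv m g y := by
    have := congrArg (fun φ => φ y) (mm_identity m A hp hm g β
      (fun s hs => by rw [(hA1 s hs).1, (hA1 s hs).2]) (fun s hs => hA2 s hs))
    simp only [sub_apply, smul_apply,
      sum_apply, smul_eq_mul] at this
    rw [this]
    have hz : ∑ s ∈ A, g.1 s * mmEv m (mmCoord m s) y = 0 := by
      apply Finset.sum_eq_zero
      intro s hs
      rw [hy ⟨s, hs⟩, mul_zero]
    rw [hz]; ring
  -- x' evaluation
  have hx' : ∀ h : PotentialTest m, (∀ s ∈ A, h.1 s = α * f.1 s) →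
      mmEv m h (mmVec m a) = α * mmEv m f (mmVec m a) := by
    intro h hh
    rw [mmEv_mmVec, mmEv_mmVec, Finsupp.sum, Finsupp.sum, Finset.mul_sum]
    apply Finset.sum_congr rfl
    intro s hs
    rw [hh s (subset_mmDown _ hs)]; ring
  have hxlow : ∀ h : PotentialTest m, (∀ s ∈ A, h.1 s = α * f.1 s) →
      α * mmEv m f x - 2 * ε ≤ mmEv m h x := by
    intro h hh
    have e1 : |mmEv m h (x - mmVec m a)| ≤ ε := (mmEv_abs_le_norm m h _).trans ha.le
    have e2 : |mmEv m f (x - mmVec m a)| ≤ ε := (mmEv_abs_le_norm m f _).trans ha.le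
    rw [map_sub] at e1 e2
    rw [hx' h hh] at e1
    rw [abs_le] at e1 e2
    nlinarith [e1.1, e1.2, e2.1, e2.2]
  have hp1 := hxlow hp (fun s hs => (hA1 s hs).1)
  have hm1 := hxlow hm (fun s hs => (hA1 s hs).2)
  have n1 : mmEv m hp (x + t • y) ≤ ‖x + t • y‖ := mmEv_le_norm m hp _
  have n2 : mmEv m hm (x - t • y) ≤ ‖x - t • y‖ := mmEv_le_norm m hm _
  rw [map_add, map_smul, smul_eq_mul] at n1
  rw [map_sub, map_smul, smul_eq_mul] at n2
  have key : 2 * α + t * β = 2 * R := by
    rw [hα, hβ]; field_simp; nlinarith [hRsq]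
  have hsum : 2 * α * (1 - ε) - 4 * ε + t * β * (1 - ε) ≤ ‖x + t • y‖ + ‖x - t • y‖ := by
    have h1 : t * (mmEv m hp y - mmEv m hm y) = t * β * mmEv m g y := by rw [hyid]; ring
    have h2 : t * β * (1 - ε) ≤ t * β * mmEv m g y :=
      mul_le_mul_of_nonneg_left hg.le (by positivity)
    have h3 : α * (1 - ε) ≤ α * mmEv m f x := mul_le_mul_of_nonneg_left hf.le hα0
    nlinarith
  have : 2 * α * (1 - ε) - 4 * ε + t * β * (1 - ε) = 2 * R * (1 - ε) - 4 * ε := by
    rw [← key]; ring
  rw [this] at hsum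
  nlinarith

end Crest.Agent.AUC
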