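import Crest.Agent.AUC.Basic
import Crest.Prelude.Def_TreePotentials

/-! Task T3a (owner: helper11).  Combinatorial core shared by S0166 and S0168:
the truncated-potential splitting. -/

set_option autoImplicit false

namespace Crest.Agent.AUC

open Crest.AnalysisR.TreePotential

/-- `A` contains the root and is closed under passing to the parent. -/
structure IsDownSet (A : Set (List ℕ)) : Prop where
  nil_mem : [] ∈ A
  tail_mem : ∀ (a : ℕ) (v : List ℕ), a :: v ∈ A → v ∈ A

/-- the coefficient family with prescribed potentials `T`. -/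
def potDiff (T : List ℕ → ℝ) : List ℕ → ℝ
  | [] => T []
  | a :: v => T (a :: v) - T v

theorem pathPotential_potDiff (T : List ℕ → ℝ) (s : List ℕ) :
    pathPotential (potDiff T) s = T s := by
  induction s with
  | nil => rfl
  | cons a v ih => simp [pathPotential, potDiff, ih]

open Classical in
/-- restriction of a coefficient family to `A`. -/
noncomputable def restr (A : Set (List ℕ)) (φ : List ℕ → ℝ) : List ℕ → ℝ :=
  fun s => if s ∈ A then φ s else 0

open Classical in
/-- restriction of a coefficient family to the complement of `A`. -/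
noncomputable def corestr (A : Set (List ℕ)) (φ : List ℕ → ℝ) : List ℕ → ℝ :=
  fun s => if s ∈ A then 0 else φ s

theorem pathPotential_restr_of_mem {A : Set (List ℕ)} (hA : IsDownSet A) (φ : List ℕ → ℝ)
    {s : List ℕ} (hs : s ∈ A) : pathPotential (restr A φ) s = pathPotential φ s := by
  induction s with
  | nil => simp [pathPotential, restr, hs]
  | cons a v ih => simp [pathPotential, restr, hs, ih (hA.tail_mem a v hs)]

theorem pathPotential_restr_exists {A : Set (List ℕ)} (hA : IsDownSet A) (φ : List ℕ → ℝ)
    (s : List ℕ) : ∃ u, u <:+ s ∧ pathPotential (restr A φ) s = pathPotential φ u := by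
  induction s with
  | nil => exact ⟨[], List.suffix_refl _, pathPotential_restr_of_mem hA φ hA.nil_mem⟩
  | cons a v ih =>
    by_cases hs : a :: v ∈ A
    · exact ⟨a :: v, List.suffix_refl _, pathPotential_restr_of_mem hA φ hs⟩
    · obtain ⟨u, hu, hu'⟩ := ih
      refine ⟨u, hu.trans (List.suffix_cons a v), ?_⟩
      simp [pathPotential, restr, hs, hu']

theorem pathPotential_corestr (A : Set (List ℕ)) (φ : List ℕ → ℝ) (s : List ℕ) :
    pathPotential (corestr A φ) s = pathPotential φ s - pathPotential (restr A φ) s := by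
  induction s with
  | nil => by_cases h : ([] : List ℕ) ∈ A <;> simp [pathPotential, restr, corestr, h]
  | cons a v ih =>
    by_cases h : a :: v ∈ A <;> simp [pathPotential, restr, corestr, h, ih] <;> ring

theorem pathPotential_corestr_of_mem {A : Set (List ℕ)} (hA : IsDownSet A) (φ : List ℕ → ℝ)
    {s : List ℕ} (hs : s ∈ A) : pathPotential (corestr A φ) s = 0 := by
  rw [pathPotential_corestr, pathPotential_restr_of_mem hA φ hs, sub_self]

theorem abs_pathPotential_restr_le {A : Set (List ℕ)} (hA : IsDownSet A) (φ : List ℕ → ℝ)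
    (s : List ℕ) (h : ∀ u, u <:+ s → |pathPotential φ u| ≤ 1) :
    |pathPotential (restr A φ) s| ≤ 1 := by
  obtain ⟨u, hu, hu'⟩ := pathPotential_restr_exists hA φ s
  rw [hu']; exact h u hu

theorem abs_pathPotential_corestr_le {A : Set (List ℕ)} (hA : IsDownSet A) (φ : List ℕ → ℝ)
    (s : List ℕ) (h : ∀ u, u <:+ s → |pathPotential φ u| ≤ 1) :
    |pathPotential (corestr A φ) s| ≤ 2 := by
  rw [pathPotential_corestr]
  have h1 := h s (List.suffix_refl _)
  have h2 := abs_pathPotential_restr_le hA φ s h
  rw [abs_le] at h1 h2 ⊢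
  constructor <;> linarith [h1.1, h1.2, h2.1, h2.2]

/-- SPLITTING LEMMA.  Given coefficient families `f`, `g`, a down-set `A`, `0 ≤ α ≤ 1`,
`0 ≤ β ≤ 1/2`, there are families `hp`, `hm` which equal `α f` on `A`, are dominated by `β |g|`
off `A`, satisfy `hp - hm = β g` off `A`, and have potentials bounded by `1` at every vertex `s`
such that the potentials of `f` and `g` are bounded by `1` at all ancestors of `s`. -/
theorem exists_split (A : Set (List ℕ)) (hA : IsDownSet A) (f g : List ℕ → ℝ) (α β : ℝ)
    (hα0 : 0 ≤ α) (hα1 : α ≤ 1) (hβ0 : 0 ≤ β) (hβ1 : β ≤ 1 / 2) :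
    ∃ hp hm : List ℕ → ℝ,
      (∀ s ∈ A, hp s = α * f s ∧ hm s = α * f s) ∧
      (∀ s ∉ A, |hp s| ≤ β * |g s| ∧ |hm s| ≤ β * |g s| ∧ hp s - hm s = β * g s) ∧
      (∀ s, (∀ u, u <:+ s → |pathPotential f u| ≤ 1) → (∀ u, u <:+ s → |pathPotential g u| ≤ 1) →
        |pathPotential hp s| ≤ 1 ∧ |pathPotential hm s| ≤ 1) := by
  classical
  set p : List ℕ → ℝ := pathPotential (restr A f) with hp_def
  set Q : List ℕ → ℝ := pathPotential (corestr A g) with hQ_def
  set Rp : List ℕ → ℝ := fun s => if 0 ≤ p s then min (Q s) 0 else max (Q s) 0 with hRp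
  set Rm : List ℕ → ℝ := fun s => if 0 ≤ p s then - max (Q s) 0 else - min (Q s) 0 with hRm
  have hQA : ∀ s ∈ A, Q s = 0 := fun s hs => pathPotential_corestr_of_mem hA g hs
  have hRpA : ∀ s ∈ A, Rp s = 0 := by
    intro s hs; simp only [hRp, hQA s hs]; split_ifs <;> simp
  have hRmA : ∀ s ∈ A, Rm s = 0 := by
    intro s hs; simp only [hRm, hQA s hs]; split_ifs <;> simp
  refine ⟨potDiff (fun s => α * p s + β * Rp s), potDiff (fun s => α * p s + β * Rm s), ?_, ?_, ?_⟩
  · intro s hs
    cases s with
    | nil =>
      have hp0 : p [] = f [] := by simp [hp_def, pathPotential, restr, hs]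
      simp [potDiff, hRpA _ hs, hRmA _ hs, hp0]
    | cons a v =>
      have hv := hA.tail_mem a v hs
      have hpd : p (a :: v) = p v + f (a :: v) := by simp [hp_def, pathPotential, restr, hs]
      simp only [potDiff, hRpA _ hs, hRmA _ hs, hRpA _ hv, hRmA _ hv, hpd]
      constructor <;> ring
  · intro s hs
    cases s with
    | nil => exact absurd hA.nil_mem hs
    | cons a v =>
      have hpd : p (a :: v) = p v := by simp [hp_def, pathPotential, restr, hs]
      have hQd : Q (a :: v) = Q v + g (a :: v) := by simp [hQ_def, pathPotential, corestr, hs]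
      have hmin : |min (Q v + g (a :: v)) 0 - min (Q v) 0| ≤ |g (a :: v)| := by
        have := abs_min_sub_min_le_max (Q v + g (a :: v)) 0 (Q v) 0
        simpa using this
      have hmax : |max (Q v + g (a :: v)) 0 - max (Q v) 0| ≤ |g (a :: v)| := by
        have := abs_max_sub_max_le_max (Q v + g (a :: v)) 0 (Q v) 0
        simpa using this
      have hmm : ∀ q : ℝ, min q 0 + max q 0 = q := fun q => by
        rcases le_total q 0 with h | h <;> simp [h]
      simp only [potDiff, hRp, hRm, hpd, hQd]
      by_cases h0 : 0 ≤ p v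
      · simp only [h0, if_true]
        refine ⟨?_, ?_, ?_⟩
        · have e : α * p v + β * min (Q v + g (a :: v)) 0 - (α * p v + β * min (Q v) 0)
              = β * (min (Q v + g (a :: v)) 0 - min (Q v) 0) := by ring
          rw [e, abs_mul, abs_of_nonneg hβ0]
          gcongr
        · have e : α * p v + β * -max (Q v + g (a :: v)) 0 - (α * p v + β * -max (Q v) 0)
              = - (β * (max (Q v + g (a :: v)) 0 - max (Q v) 0)) := by ring
          rw [e, abs_neg, abs_mul, abs_of_nonneg hβ0]
          gcongr
        · have h1 := hmm (Q v + g (a :: v))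
          have h2 := hmm (Q v)
          have e : α * p v + β * min (Q v + g (a :: v)) 0 - (α * p v + β * min (Q v) 0) -
              (α * p v + β * -max (Q v + g (a :: v)) 0 - (α * p v + β * -max (Q v) 0))
              = β * ((min (Q v + g (a :: v)) 0 + max (Q v + g (a :: v)) 0)
                  - (min (Q v) 0 + max (Q v) 0)) := by ring
          rw [e, h1, h2]; ring
      · simp only [h0, if_false]
        refine ⟨?_, ?_, ?_⟩
        · have e : α * p v + β * max (Q v + g (a :: v)) 0 - (α * p v + β * max (Q v) 0)
              = β * (max (Q v + g (a :: v)) 0 - max (Q v) 0) := by ring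
          rw [e, abs_mul, abs_of_nonneg hβ0]
          gcongr
        · have e : α * p v + β * -min (Q v + g (a :: v)) 0 - (α * p v + β * -min (Q v) 0)
              = - (β * (min (Q v + g (a :: v)) 0 - min (Q v) 0)) := by ring
          rw [e, abs_neg, abs_mul, abs_of_nonneg hβ0]
          gcongr
        · have h1 := hmm (Q v + g (a :: v))
          have h2 := hmm (Q v)
          have e : α * p v + β * max (Q v + g (a :: v)) 0 - (α * p v + β * max (Q v) 0) -
              (α * p v + β * -min (Q v + g (a :: v)) 0 - (α * p v + β * -min (Q v) 0))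
              = β * ((min (Q v + g (a :: v)) 0 + max (Q v + g (a :: v)) 0)
                  - (min (Q v) 0 + max (Q v) 0)) := by ring
          rw [e, h1, h2]; ring
  · intro s hf hg
    have hp1 : |p s| ≤ 1 := abs_pathPotential_restr_le hA f s hf
    have hQ2 : |Q s| ≤ 2 := abs_pathPotential_corestr_le hA g s hg
    rw [pathPotential_potDiff, pathPotential_potDiff]
    rw [abs_le] at hp1 hQ2
    have hmin1 : -2 ≤ min (Q s) 0 := le_min hQ2.1 (by norm_num)
    have hmin2 : min (Q s) 0 ≤ 0 := min_le_right _ _
    have hmax1 : 0 ≤ max (Q s) 0 := le_max_right _ _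
    have hmax2 : max (Q s) 0 ≤ 2 := max_le hQ2.2 (by norm_num)
    simp only [hRp, hRm]
    by_cases h0 : 0 ≤ p s
    · simp only [h0, if_true]
      constructor <;> rw [abs_le] <;> constructor <;> nlinarith [hp1.1, hp1.2]
    · simp only [h0, if_false]
      push Not at h0
      constructor <;> rw [abs_le] <;> constructor <;> nlinarith [hp1.1, hp1.2]

end Crest.Agent.AUC
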