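import Crest.Agent.AUC.L2Sum
import Crest.Agent.AUC.Diamond

/-! Task T4d, abstract part (owner: helper12).  The `ℓ²`-sum of a family of spaces with the
"quadratic midpoint property" `QMid`, carrying asymptotic trees of every height, is a witness for
S0166. -/

set_option autoImplicit false

namespace Crest.Agent.AUC

open scoped ENNReal
open Filter Topology

section Cof

variable {X Y : Type*} [NormedAddCommGroup X] [NormedSpace ℝ X]
  [NormedAddCommGroup Y] [NormedSpace ℝ Y]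

theorem IsCofSet.preimage {F : Set Y} (hF : IsCofSet F) (L : X →L[ℝ] Y) :
    IsCofSet (L ⁻¹' F) := by
  obtain ⟨S, rfl, hSc, hSf⟩ := hF
  refine ⟨S.comap (L : X →ₗ[ℝ] Y), rfl, hSc.preimage L.continuous, ?_⟩
  have hker : LinearMap.ker (S.mkQ.comp (L : X →ₗ[ℝ] Y)) = S.comap (L : X →ₗ[ℝ] Y) := by
    rw [LinearMap.ker_comp, Submodule.ker_mkQ]
  have : FiniteDimensional ℝ (X ⧸ LinearMap.ker (S.mkQ.comp (L : X →ₗ[ℝ] Y))) :=
    (LinearMap.quotKerEquivRange _).symm.finiteDimensional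
  rw [hker] at this
  exact this

theorem isCofSet_biInter {ι : Type*} (s : Finset ι) (F : ι → Set X)
    (h : ∀ i ∈ s, IsCofSet (F i)) : IsCofSet {x : X | ∀ i ∈ s, x ∈ F i} := by
  classical
  induction s using Finset.induction_on with
  | empty => simpa using (isCofSet_univ : IsCofSet (Set.univ : Set X))
  | insert a s ha ih =>
    have := (h a (Finset.mem_insert_self a s)).inter
      (ih fun i hi => h i (Finset.mem_insert_of_mem hi))
    convert this using 1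
    ext x
    simp

theorem Good.map {δ : ℝ} (ι : X →L[ℝ] Y) (hι : ∀ x, ‖ι x‖ = ‖x‖) :
    ∀ (k : ℕ) (x : X), Good δ k x → Good δ k (ι x)
  | 0, x, h => by
      show ‖ι x‖ ≤ 1
      rw [hι]; exact h
  | k + 1, x, h => by
      refine ⟨by rw [hι]; exact h.1, fun F hF ε hε => ?_⟩
      obtain ⟨x', z, hg, hz, h1, h2⟩ := h.2 _ (hF.preimage ι) ε hε
      refine ⟨ι x', ι z, Good.map ι hι k x' hg, hz, ?_, ?_⟩
      · rw [← map_sub, ← map_sub, hι]; exact h1
      · rw [← map_sub, hι]; exact h2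

theorem not_finiteDimensional_of_good {δ : ℝ} (hδ : 0 < δ) {k : ℕ} {x : X}
    (h : Good δ (k + 1) x) : ¬ FiniteDimensional ℝ X := by
  intro hfd
  have hcof : IsCofSet ({0} : Set X) := by
    have h := isCofSet_ker (ContinuousLinearMap.id ℝ X)
    convert h using 1
    ext x; simp
  obtain ⟨x', z, -, hz, h1, h2⟩ := h.2 _ hcof δ hδ
  rw [Set.mem_singleton_iff] at hz
  rw [hz, sub_zero] at h1
  linarith

/-- the quadratic midpoint property. -/
def QMid (X : Type*) [NormedAddCommGroup X] [NormedSpace ℝ X] : Prop :=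
  ∀ x : X, ∀ η : ℝ, 0 < η → ∃ F : Set X, IsCofSet F ∧ ∀ y ∈ F,
    Real.sqrt (‖x‖ ^ 2 + ‖y‖ ^ 2 / 4) - η ≤ (‖x + y‖ + ‖x - y‖) / 2

theorem QMid.midGE (h : QMid X) (t : ℝ) (ht : 0 < t) :
    MidGE X t (Real.sqrt (1 + t ^ 2 / 4) - 1) := by
  intro x hx η hη
  obtain ⟨F, hF, hy⟩ := h x η hη
  refine ⟨F, hF, fun y hyF hy1 => ?_⟩
  obtain ⟨S, hS, -, -⟩ := hF
  have hty : t • y ∈ F := by rw [← hS] at hyF ⊢; exact S.smul_mem _ hyF
  have := hy _ hty
  rw [hx, norm_smul, hy1, Real.norm_of_nonneg ht.le] at this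
  simp only [one_pow, mul_one] at this
  linarith

end Cof

theorem l2asm_sqrt_le (a a' c : ℝ) (hc : 0 ≤ c) :
    Real.sqrt (a ^ 2 + c) ≤ Real.sqrt (a' ^ 2 + c) + |a - a'| := by
  set r := Real.sqrt (a' ^ 2 + c) with hr
  have hr0 : 0 ≤ r := Real.sqrt_nonneg _
  have hrsq : r ^ 2 = a' ^ 2 + c := Real.sq_sqrt (by positivity)
  have h2 : |a'| ≤ r := Real.abs_le_sqrt (by linarith)
  have h3 : 0 ≤ |a - a'| := abs_nonneg _
  have h4 : |a - a'| ^ 2 = (a - a') ^ 2 := sq_abs _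
  have h1 : a' * (a - a') ≤ |a'| * |a - a'| := by
    rw [← abs_mul]; exact le_abs_self _
  rw [Real.sqrt_le_iff]
  refine ⟨by positivity, ?_⟩
  nlinarith

theorem l2asm_sum_single_apply {G : ℕ → Type*} [∀ n, NormedAddCommGroup (G n)]
    (s : Finset ℕ) (a : ∀ n, G n) (m : ℕ) :
    (∑ n ∈ s, lp.single 2 n (a n) : lp G 2) m = if m ∈ s then a m else 0 := by
  rw [lp.coeFn_sum, Finset.sum_apply]
  split_ifs with hm
  · rw [Finset.sum_eq_single m]
    · exact lp.single_apply_self _ _ _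
    · intro b _ hb; exact lp.single_apply_ne _ _ _ hb.symm
    · intro h; exact absurd hm h
  · refine Finset.sum_eq_zero fun b hb => lp.single_apply_ne _ _ _ ?_
    rintro rfl; exact hm hb

theorem l2asm_hasSum_sq {G : ℕ → Type*} [∀ n, NormedAddCommGroup (G n)] (f : lp G 2) :
    HasSum (fun n => ‖f n‖ ^ 2) (‖f‖ ^ 2) := by
  have h := lp.hasSum_norm (p := 2) (by norm_num) f
  simpa using h

theorem l2asm_exists (a : ℕ → ℝ) (S : ℝ) (hS : 0 ≤ S) (h : HasSum (fun n => a n ^ 2) (S ^ 2)) :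
    ∃ A : lp (fun _ : ℕ => ℝ) 2, (∀ n, A n = a n) ∧ ‖A‖ = S := by
  have hmem : Memℓp a 2 := by
    apply memℓp_gen
    simpa using h.summable
  refine ⟨⟨a, hmem⟩, fun n => rfl, ?_⟩
  have h1 := l2asm_hasSum_sq (G := fun _ => ℝ) ⟨a, hmem⟩
  have h2 : HasSum (fun n => a n ^ 2) (‖(⟨a, hmem⟩ : lp (fun _ : ℕ => ℝ) 2)‖ ^ 2) := by
    simpa using h1
  have h3 := h2.unique h
  exact (pow_left_inj₀ (norm_nonneg _) hS (by norm_num)).mp h3

theorem qmid_lp_two {G : ℕ → Type*} [∀ n, NormedAddCommGroup (G n)] [∀ n, NormedSpace ℝ (G n)]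
    (h : ∀ n, QMid (G n)) : QMid (lp G 2) := by
  classical
  intro x η hη
  -- truncation
  have hsum := lp.hasSum_single (p := 2) (E := G) (by simp) x
  obtain ⟨s, hs⟩ : ∃ s : Finset ℕ, ‖x - ∑ n ∈ s, lp.single 2 n (x n)‖ < η / 4 := by
    have h1 : ∀ᶠ s : Finset ℕ in atTop, ∑ n ∈ s, lp.single 2 n (x n) ∈ Metric.ball x (η / 4) :=
      hsum.eventually (Metric.ball_mem_nhds x (by positivity))
    obtain ⟨s, hs⟩ := h1.exists
    refine ⟨s, ?_⟩
    rw [mem_ball_iff_norm, ← norm_neg, neg_sub] at hs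
    exact hs
  set x' : lp G 2 := ∑ n ∈ s, lp.single 2 n (x n) with hx'
  have hx'n : ∀ n, x' n = if n ∈ s then x n else 0 := fun n => l2asm_sum_single_apply s _ n
  set η' := η / (2 * (s.card + 1)) with hη'
  have hη'pos : 0 < η' := by positivity
  choose F hFcof hF using fun n => h n (x n) η' hη'pos
  refine ⟨{y | ∀ n ∈ s, y ∈ (lp.evalCLM ℝ G 2 n) ⁻¹' F n},
    isCofSet_biInter s _ (fun n _ => (hFcof n).preimage (lp.evalCLM ℝ G 2 n)), fun y hy => ?_⟩
  have hy' : ∀ n ∈ s, y n ∈ F n := hy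
  set u := lp.toNorm (x' + y) with hu
  set v := lp.toNorm (x' - y) with hv
  set e : lp (fun _ : ℕ => ℝ) 2 := ∑ n ∈ s, lp.single 2 n η' with he
  have hen : ∀ n, e n = if n ∈ s then η' else 0 :=
    fun n => l2asm_sum_single_apply (G := fun _ => ℝ) s (fun _ => η') n
  have henorm : ‖e‖ ≤ s.card * η' := by
    calc ‖e‖ ≤ ∑ n ∈ s, ‖(lp.single 2 n η' : lp (fun _ : ℕ => ℝ) 2)‖ := norm_sum_le _ _
      _ = ∑ n ∈ s, η' := by
        refine Finset.sum_congr rfl fun n _ => ?_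
        rw [lp.norm_single (by norm_num), Real.norm_of_nonneg hη'pos.le]
      _ = s.card * η' := by simp
  have hcard : s.card * η' ≤ η / 2 := by
    rw [hη']
    have hc : (0 : ℝ) ≤ s.card := Nat.cast_nonneg _
    rw [mul_div_assoc', div_le_div_iff₀ (by positivity) (by norm_num)]
    nlinarith
  obtain ⟨w, hwn, hwnorm⟩ := l2asm_exists (fun n => Real.sqrt (‖x' n‖ ^ 2 + ‖y n‖ ^ 2 / 4))
    (Real.sqrt (‖x'‖ ^ 2 + ‖y‖ ^ 2 / 4)) (Real.sqrt_nonneg _) (by
      rw [Real.sq_sqrt (by positivity)]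
      have h1 := (l2asm_hasSum_sq x').add ((l2asm_hasSum_sq y).div_const 4)
      refine h1.congr_fun ?_ |> fun h => h
      intro n
      rw [Real.sq_sqrt (by positivity)])
  have hmono : ‖w‖ ≤ ‖(1 / 2 : ℝ) • (u + v) + e‖ := by
    refine lp.norm_mono (by norm_num) fun n => ?_
    have e1 : ((1 / 2 : ℝ) • (u + v) + e) n
        = (‖x' n + y n‖ + ‖x' n - y n‖) / 2 + (if n ∈ s then η' else 0) := by
      have : ((1 / 2 : ℝ) • (u + v) + e) n = (1 / 2 : ℝ) * (u n + v n) + e n := rfl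
      rw [this, hen]
      have hun : u n = ‖x' n + y n‖ := rfl
      have hvn : v n = ‖x' n - y n‖ := rfl
      rw [hun, hvn]; ring
    rw [e1, hwn, Real.norm_of_nonneg (Real.sqrt_nonneg _)]
    refine le_trans ?_ (le_abs_self _)
    by_cases hn : n ∈ s
    · rw [hx'n, if_pos hn, if_pos hn]
      have := hF n (y n) (hy' n hn)
      linarith
    · rw [hx'n, if_neg hn, if_neg hn]
      simp only [norm_zero, zero_add, zero_sub, norm_neg, add_zero]
      have : Real.sqrt (0 ^ 2 + ‖y n‖ ^ 2 / 4) = ‖y n‖ / 2 := by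
        have : (0 : ℝ) ^ 2 + ‖y n‖ ^ 2 / 4 = (‖y n‖ / 2) ^ 2 := by ring
        rw [this, Real.sqrt_sq (by positivity)]
      rw [this]
      have := norm_nonneg (y n)
      linarith
  have htri : ‖(1 / 2 : ℝ) • (u + v) + e‖ ≤ (‖x' + y‖ + ‖x' - y‖) / 2 + η / 2 := by
    calc ‖(1 / 2 : ℝ) • (u + v) + e‖ ≤ ‖(1 / 2 : ℝ) • (u + v)‖ + ‖e‖ := norm_add_le _ _
      _ ≤ (1 / 2) * (‖u‖ + ‖v‖) + η / 2 := by
        rw [norm_smul, Real.norm_of_nonneg (by norm_num)]
        have := norm_add_le u v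
        gcongr
        exact henorm.trans hcard
      _ = (‖x' + y‖ + ‖x' - y‖) / 2 + η / 2 := by
        rw [hu, hv, lp.norm_toNorm, lp.norm_toNorm]; ring
  have h1 : ‖x' + y‖ ≤ ‖x + y‖ + ‖x - x'‖ := by
    have : x' + y = (x + y) - (x - x') := by abel
    rw [this]; exact norm_sub_le _ _
  have h2 : ‖x' - y‖ ≤ ‖x - y‖ + ‖x - x'‖ := by
    have : x' - y = (x - y) - (x - x') := by abel
    rw [this]; exact norm_sub_le _ _
  have h3 := l2asm_sqrt_le ‖x‖ ‖x'‖ (‖y‖ ^ 2 / 4) (by positivity)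
  have h4 : |‖x‖ - ‖x'‖| ≤ ‖x - x'‖ := abs_norm_sub_norm_le _ _
  rw [hwnorm] at hmono
  linarith

open Crest.AnalysisR in
/-- Abstract assembly of S0166. -/
theorem s0166_of_family (G : ℕ → Type) [∀ n, NormedAddCommGroup (G n)]
    [∀ n, NormedSpace ℝ (G n)] [∀ n, CompleteSpace (G n)]
    (hsep : ∀ n, TopologicalSpace.SeparableSpace (G n)) (hrefl : ∀ n, IsReflexiveSpace (G n))
    (hq : ∀ n, QMid (G n)) (hgood : ∀ n, ∃ x : G n, 1 ≤ ‖x‖ ∧ Good 1 n x) :
    ∃ E : Crest.AnalysisR.RealBanach, E.IsSeparableInfiniteDim ∧ E.IsReflexive ∧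
      (∀ t : ℝ, 0 < t → E.MidpointModulusGE E.norm t (Real.sqrt (1 + t ^ 2 / 12) - 1) ∧
        E.MidpointModulusGE E.norm t ((Real.sqrt (1 + t ^ 2 / 4) - 1) / 2) ∧
        E.MaxMidpointModulusGE E.norm t (Real.sqrt (1 + t ^ 2 / 4) - 1)) ∧
      (∀ N : E.X → ℝ, E.IsEquivNorm N → ¬ E.IsAUC N) ∧
      ∀ (k : ℕ) (f : Crest.AnalysisR.DiamondVertex k → E.X) (D : ℝ),
        E.HasDistortionLE k f D → 1 + (k : ℝ) / 4 ≤ D ^ 2 := by
  have hQ : QMid (lp G 2) := qmid_lp_two hq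
  have hG : ∀ k : ℕ, ∃ x : lp G 2, 1 ≤ ‖x‖ ∧ Good 1 k x := by
    intro k
    obtain ⟨x, hx, hg⟩ := hgood k
    have hι : ∀ z : G k, ‖lp.singleContinuousLinearMap ℝ G 2 k z‖ = ‖z‖ := fun z => by
      rw [lp.singleContinuousLinearMap_apply, lp.norm_single (by norm_num)]
    exact ⟨lp.singleContinuousLinearMap ℝ G 2 k x, by rw [hι]; exact hx, Good.map _ hι k x hg⟩
  have hmid : ∀ t : ℝ, 0 < t → MidGE (lp G 2) t (Real.sqrt (1 + t ^ 2 / 4) - 1) :=
    fun t ht => hQ.midGE t ht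
  refine ⟨⟨lp G 2, inferInstance, inferInstance, inferInstance⟩, ⟨separableSpace_lp_two hsep, ?_⟩,
    isReflexiveSpace_lp_two hrefl, ?_, ?_, ?_⟩
  · obtain ⟨x, -, hg⟩ := hG 1
    exact not_finiteDimensional_of_good one_pos hg
  · intro t ht
    have h1 : (1 : ℝ) ≤ Real.sqrt (1 + t ^ 2 / 4) := by
      rw [Real.one_le_sqrt]; have := sq_nonneg t; linarith
    refine ⟨(hmid t ht).mono ?_, (hmid t ht).mono ?_, (hmid t ht).maxGE⟩
    · have : Real.sqrt (1 + t ^ 2 / 12) ≤ Real.sqrt (1 + t ^ 2 / 4) := by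
        apply Real.sqrt_le_sqrt
        have := sq_nonneg t
        linarith
      linarith
    · linarith
  · intro N hN
    exact not_isAUCOn_of_good one_pos hG N hN
  · intro k f D hD
    exact diamond_distortion (fun t ht => (hmid t ht).maxGE) k f D hD

end Crest.Agent.AUC
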