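import Crest.Agent.AUC.Basic
import Crest.Prelude.Def_TreeProducts

/-! Task T1 (helper13): lemmas for S0169 (path products of independent multipliers in `L¹`). -/

set_option autoImplicit false
set_option linter.unusedSectionVars false

namespace Crest.Agent.AUC.TP

open Crest.AnalysisR Crest.AnalysisR.TreeProduct Filter Topology MeasureTheory ProbabilityTheory

section General

variable {X : Type*} [NormedAddCommGroup X] [NormedSpace ℝ X]

/-- An `ℓ²`-dominated sequence is weakly null. -/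
theorem weaklyNull_of_l2 (y : ℕ → X) (C : ℝ)
    (h : ∀ (I : Finset ℕ) (c : ℕ → ℝ), ‖∑ i ∈ I, c i • y i‖ ^ 2 ≤ C * ∑ i ∈ I, c i ^ 2)
    (φ : X →L[ℝ] ℝ) : Tendsto (fun i => φ (y i)) atTop (𝓝 0) := by
  have hC : 0 ≤ C := by
    have := h {0} (fun _ => 1)
    simp only [Finset.sum_singleton, one_smul, one_pow, mul_one] at this
    exact le_trans (sq_nonneg _) this
  have hbound : ∀ I : Finset ℕ, ∑ i ∈ I, (φ (y i)) ^ 2 ≤ ‖φ‖ ^ 2 * C := by
    intro I
    set S := ∑ i ∈ I, (φ (y i)) ^ 2 with hS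
    have hS0 : 0 ≤ S := Finset.sum_nonneg fun i _ => sq_nonneg _
    have h1 : S = φ (∑ i ∈ I, φ (y i) • y i) := by
      rw [map_sum, hS]
      refine Finset.sum_congr rfl fun i _ => ?_
      rw [map_smul, smul_eq_mul, sq]
    have h2 : S ≤ ‖φ‖ * ‖∑ i ∈ I, φ (y i) • y i‖ := by
      rw [h1]
      exact (le_abs_self _).trans (φ.le_opNorm _)
    have h3 := h I (fun i => φ (y i))
    rw [← hS] at h3
    have h4 : S ^ 2 ≤ ‖φ‖ ^ 2 * (C * S) := by
      calc S ^ 2 ≤ (‖φ‖ * ‖∑ i ∈ I, φ (y i) • y i‖) ^ 2 := by gcongr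
        _ = ‖φ‖ ^ 2 * ‖∑ i ∈ I, φ (y i) • y i‖ ^ 2 := by ring
        _ ≤ ‖φ‖ ^ 2 * (C * S) := by gcongr
    rcases hS0.eq_or_lt with h0 | hpos
    · rw [← h0]; positivity
    · have : S * S ≤ (‖φ‖ ^ 2 * C) * S := by nlinarith
      exact le_of_mul_le_mul_right this hpos
  have hsum : Summable fun i => (φ (y i)) ^ 2 :=
    summable_of_sum_le (fun i => sq_nonneg _) hbound
  have ht := hsum.tendsto_atTop_zero
  have ht2 : Tendsto (fun i => Real.sqrt ((φ (y i)) ^ 2)) atTop (𝓝 (Real.sqrt 0)) :=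
    (Real.continuous_sqrt.tendsto 0).comp ht
  simp only [Real.sqrt_sq_eq_abs, Real.sqrt_zero] at ht2
  exact (tendsto_zero_iff_abs_tendsto_zero _).2 ht2

end General

section Indep

variable {Ω : Type} [mΩ : MeasurableSpace Ω] {μ : Measure Ω} {W : List ℕ → Ω → ℝ}

set_option warn.classDefReducibility false in
/-- The σ-algebra generated by the `W u`, `u` on the root path of `v`. -/
def sig (W : List ℕ → Ω → ℝ) (v : List ℕ) : MeasurableSpace Ω :=
  ⨆ u ∈ {u : List ℕ | u <:+ v}, MeasurableSpace.comap (W u) inferInstance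

omit mΩ in
theorem sig_mono (W : List ℕ → Ω → ℝ) (a : ℕ) (v : List ℕ) : sig W v ≤ sig W (a :: v) := by
  apply biSup_mono
  intro u hu
  exact List.IsSuffix.trans hu (List.suffix_cons a v)

omit mΩ in
theorem comap_le_sig (W : List ℕ → Ω → ℝ) (v : List ℕ) :
    MeasurableSpace.comap (W v) inferInstance ≤ sig W v :=
  le_iSup₂ (f := fun u (_ : u ∈ {u : List ℕ | u <:+ v}) =>
    MeasurableSpace.comap (W u) inferInstance) v (List.suffix_refl v)

omit mΩ in
theorem measurable_W_sig (W : List ℕ → Ω → ℝ) (v : List ℕ) : Measurable[sig W v] (W v) :=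
  (comap_measurable (W v)).mono (comap_le_sig W v) le_rfl

omit mΩ in
theorem measurable_pathProduct_sig (W : List ℕ → Ω → ℝ) :
    ∀ v : List ℕ, Measurable[sig W v] (pathProduct W v)
  | [] => measurable_const
  | a :: v => by
      have h1 : Measurable[sig W (a :: v)] (pathProduct W v) :=
        (measurable_pathProduct_sig W v).mono (sig_mono W a v) le_rfl
      exact h1.mul (measurable_W_sig W (a :: v))

theorem sig_le (hm : ∀ v, Measurable (W v)) (v : List ℕ) : sig W v ≤ mΩ :=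
  iSup₂_le fun u _ => (hm u).comap_le

theorem indepFun_of_sig (hm : ∀ v, Measurable (W v)) (hind : iIndepFun W μ) {u v : List ℕ}
    (huv : ¬ u <:+ v) {Y : Ω → ℝ} (hY : Measurable[sig W v] Y) : IndepFun Y (W u) μ := by
  rw [IndepFun_iff_Indep]
  have h1 : Indep (⨆ i ∈ {w : List ℕ | w <:+ v}, MeasurableSpace.comap (W i) inferInstance)
      (⨆ i ∈ ({u} : Set (List ℕ)), MeasurableSpace.comap (W i) inferInstance) μ := by
    apply indep_iSup_of_disjoint (fun i => (hm i).comap_le) hind.iIndep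
    rw [Set.disjoint_singleton_right]
    exact huv
  rw [iSup_singleton] at h1
  exact indep_of_indep_of_le_left h1 hY.comap_le

end Indep

section Law

variable {ν : Measure ℝ} [IsProbabilityMeasure ν]

theorem integrable_id_of_sq (hm2 : Integrable (fun x : ℝ => x ^ 2) ν) :
    Integrable (fun x : ℝ => x) ν := by
  refine Integrable.mono' ((integrable_const (1 : ℝ)).add hm2)
    measurable_id.aestronglyMeasurable (Eventually.of_forall fun x => ?_)
  simp only [Real.norm_eq_abs, Pi.add_apply]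
  rcases abs_cases x with ⟨h, _⟩ | ⟨h, _⟩ <;> rw [h] <;> nlinarith [sq_nonneg (x - 1), sq_nonneg (x + 1)]

theorem integral_abs_law (hpos : ν (Set.Ioi 0) = 1) (hmean : ∫ x, x ∂ν = 1) :
    ∫ x, |x| ∂ν = 1 := by
  rw [← hmean]
  apply integral_congr_ae
  have h : Set.Ioi (0 : ℝ) ∈ ae ν := (mem_ae_iff_prob_eq_one measurableSet_Ioi).2 hpos
  filter_upwards [h] with x hx
  exact abs_of_pos hx

theorem integral_sub_one_law (hm2 : Integrable (fun x : ℝ => x ^ 2) ν) (hmean : ∫ x, x ∂ν = 1) :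
    ∫ x, (x - 1) ∂ν = 0 := by
  rw [integral_sub (integrable_id_of_sq hm2) (integrable_const _), hmean]
  simp

theorem integrable_abs_sub_one (hm2 : Integrable (fun x : ℝ => x ^ 2) ν) :
    Integrable (fun x : ℝ => |x - 1|) ν :=
  ((integrable_id_of_sq hm2).sub (integrable_const (1 : ℝ))).abs

theorem integrable_sub_one_sq (hm2 : Integrable (fun x : ℝ => x ^ 2) ν) :
    Integrable (fun x : ℝ => (x - 1) ^ 2) ν := by
  have h : (fun x : ℝ => (x - 1) ^ 2) = fun x : ℝ => x ^ 2 - 2 * x + 1 := by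
    funext x; ring
  rw [h]
  exact (hm2.sub ((integrable_id_of_sq hm2).const_mul 2)).add (integrable_const _)

theorem delta_pos (hnc : ∀ c : ℝ, ν ≠ Measure.dirac c)
    (hm2 : Integrable (fun x : ℝ => x ^ 2) ν) : 0 < ∫ x, |x - 1| ∂ν := by
  have h0 : 0 ≤ ∫ x, |x - 1| ∂ν := integral_nonneg fun x => abs_nonneg _
  rcases h0.eq_or_lt with h | h
  · exfalso
    have h1 := (integral_eq_zero_iff_of_nonneg (fun x => abs_nonneg (x - 1))
      (integrable_abs_sub_one hm2)).1 h.symm
    have h2 : (fun x : ℝ => x) =ᵐ[ν] fun _ => (1 : ℝ) := by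
      filter_upwards [h1] with x hx
      have : |x - 1| = 0 := hx
      linarith [abs_eq_zero.1 this]
    apply hnc 1
    have h3 : Measure.map (fun x : ℝ => x) ν = Measure.map (fun _ : ℝ => (1 : ℝ)) ν :=
      Measure.map_congr h2
    rw [Measure.map_const, measure_univ, one_smul] at h3
    rw [← h3]
    exact Measure.map_id.symm
  · exact h

end Law

section Main

variable {Ω : Type} [MeasurableSpace Ω] {μ : Measure Ω} [IsProbabilityMeasure μ]
  {ν : Measure ℝ} [IsProbabilityMeasure ν] {W : List ℕ → Ω → ℝ}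

theorem integral_comp_W (hW : IsRealization ν μ W) {u : List ℕ} (hu : u ≠ []) {g : ℝ → ℝ}
    (hg : Measurable g) : ∫ ω, g (W u ω) ∂μ = ∫ x, g x ∂ν := by
  rw [← hW.2.2 u hu, integral_map (hW.1 u).aemeasurable hg.aestronglyMeasurable]

theorem integrable_comp_W (hW : IsRealization ν μ W) {u : List ℕ} (hu : u ≠ []) {g : ℝ → ℝ}
    (hg : Measurable g) (hgi : Integrable g ν) : Integrable (fun ω => g (W u ω)) μ := by
  rw [← hW.2.2 u hu] at hgi
  exact (integrable_map_measure hg.aestronglyMeasurable (hW.1 u).aemeasurable).1 hgi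

theorem not_cons_suffix (a : ℕ) (v : List ℕ) : ¬ (a :: v) <:+ v := by
  intro h
  have := h.length_le
  simp at this

theorem not_cons_suffix_cons {a b : ℕ} (hab : a ≠ b) (v : List ℕ) : ¬ (b :: v) <:+ (a :: v) := by
  intro h
  have := h.eq_of_length (by simp)
  simp only [List.cons.injEq, and_true] at this
  exact hab this.symm

theorem measurable_pathProduct (hW : IsRealization ν μ W) (v : List ℕ) :
    Measurable (pathProduct W v) :=
  (measurable_pathProduct_sig W v).mono (sig_le hW.1 v) le_rfl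

theorem indep_pathProduct (hW : IsRealization ν μ W) (a : ℕ) (v : List ℕ) :
    IndepFun (pathProduct W v) (W (a :: v)) μ :=
  indepFun_of_sig hW.1 hW.2.1 (not_cons_suffix a v) (measurable_pathProduct_sig W v)

theorem integrable_pathProduct (hW : IsRealization ν μ W)
    (hm2 : Integrable (fun x : ℝ => x ^ 2) ν) : ∀ v : List ℕ, Integrable (pathProduct W v) μ
  | [] => integrable_const _
  | a :: v =>
      (indep_pathProduct hW a v).integrable_mul (integrable_pathProduct hW hm2 v)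
        (integrable_comp_W hW (List.cons_ne_nil a v) measurable_id (integrable_id_of_sq hm2))

theorem integrable_pathProduct_sq (hW : IsRealization ν μ W)
    (hm2 : Integrable (fun x : ℝ => x ^ 2) ν) :
    ∀ v : List ℕ, Integrable (fun ω => pathProduct W v ω ^ 2) μ
  | [] => integrable_const ((1 : ℝ) ^ 2)
  | a :: v => by
      have h1 : IndepFun ((fun x : ℝ => x ^ 2) ∘ pathProduct W v)
          ((fun x : ℝ => x ^ 2) ∘ W (a :: v)) μ :=
        (indep_pathProduct hW a v).comp (measurable_id.pow_const 2) (measurable_id.pow_const 2)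
      have h2 := h1.integrable_mul (integrable_pathProduct_sq hW hm2 v)
        (integrable_comp_W hW (List.cons_ne_nil a v) (measurable_id.pow_const 2) hm2)
      refine h2.congr (Eventually.of_forall fun ω => ?_)
      simp only [Pi.mul_apply, Function.comp, pathProduct]
      ring

theorem integral_abs_pathProduct (hW : IsRealization ν μ W) (hpos : ν (Set.Ioi 0) = 1)
    (hmean : ∫ x, x ∂ν = 1) : ∀ v : List ℕ, ∫ ω, |pathProduct W v ω| ∂μ = 1
  | [] => by simp [pathProduct]
  | a :: v => by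
      have h1 := (indep_pathProduct hW a v).integral_fun_comp_mul_comp
        (f := fun x : ℝ => |x|) (g := fun x : ℝ => |x|)
        (measurable_pathProduct hW v).aemeasurable (hW.1 (a :: v)).aemeasurable
        measurable_abs.aestronglyMeasurable measurable_abs.aestronglyMeasurable
      rw [integral_abs_pathProduct hW hpos hmean v,
        integral_comp_W hW (List.cons_ne_nil a v) measurable_abs, integral_abs_law hpos hmean] at h1
      simp only [pathProduct, abs_mul]
      rw [h1]; norm_num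

/-- the increment `M_{i::v} - M_v = M_v (W_{i::v} - 1)`. -/
def incr (W : List ℕ → Ω → ℝ) (v : List ℕ) (i : ℕ) : Ω → ℝ :=
  fun ω => pathProduct W v ω * (W (i :: v) ω - 1)

theorem incr_eq (W : List ℕ → Ω → ℝ) (v : List ℕ) (i : ℕ) :
    incr W v i = pathProduct W (i :: v) - pathProduct W v := by
  funext ω
  simp only [incr, pathProduct, Pi.sub_apply]
  ring

theorem measurable_incr (hW : IsRealization ν μ W) (v : List ℕ) (i : ℕ) :
    Measurable (incr W v i) :=
  (measurable_pathProduct hW v).mul ((hW.1 (i :: v)).sub_const 1)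

theorem integrable_incr (hW : IsRealization ν μ W) (hm2 : Integrable (fun x : ℝ => x ^ 2) ν)
    (v : List ℕ) (i : ℕ) : Integrable (incr W v i) μ := by
  rw [incr_eq]
  exact (integrable_pathProduct hW hm2 _).sub (integrable_pathProduct hW hm2 _)

theorem integral_abs_incr (hW : IsRealization ν μ W) (hpos : ν (Set.Ioi 0) = 1)
    (hmean : ∫ x, x ∂ν = 1) (v : List ℕ) (i : ℕ) :
    ∫ ω, |incr W v i ω| ∂μ = ∫ x, |x - 1| ∂ν := by
  have hg : Measurable fun x : ℝ => |x - 1| := (measurable_id.sub_const 1).abs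
  have h1 := (indep_pathProduct hW i v).integral_fun_comp_mul_comp
    (f := fun x : ℝ => |x|) (g := fun x : ℝ => |x - 1|)
    (measurable_pathProduct hW v).aemeasurable (hW.1 (i :: v)).aemeasurable
    measurable_abs.aestronglyMeasurable hg.aestronglyMeasurable
  rw [integral_abs_pathProduct hW hpos hmean v,
    integral_comp_W hW (List.cons_ne_nil i v) hg, one_mul] at h1
  simp only [incr, abs_mul]
  exact h1

theorem integrable_incr_sq (hW : IsRealization ν μ W) (hm2 : Integrable (fun x : ℝ => x ^ 2) ν)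
    (v : List ℕ) (i : ℕ) : Integrable (fun ω => incr W v i ω ^ 2) μ := by
  have hg : Measurable fun x : ℝ => (x - 1) ^ 2 := (measurable_id.sub_const 1).pow_const 2
  have h1 : IndepFun ((fun x : ℝ => x ^ 2) ∘ pathProduct W v)
      ((fun x : ℝ => (x - 1) ^ 2) ∘ W (i :: v)) μ :=
    (indep_pathProduct hW i v).comp (measurable_id.pow_const 2) hg
  have h2 := h1.integrable_mul (integrable_pathProduct_sq hW hm2 v)
    (integrable_comp_W hW (List.cons_ne_nil i v) hg (integrable_sub_one_sq hm2))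
  refine h2.congr (Eventually.of_forall fun ω => ?_)
  simp only [Pi.mul_apply, Function.comp, incr]
  ring

theorem integral_incr_sq (hW : IsRealization ν μ W) (v : List ℕ) (i : ℕ) :
    ∫ ω, incr W v i ω ^ 2 ∂μ = (∫ ω, pathProduct W v ω ^ 2 ∂μ) * ∫ x, (x - 1) ^ 2 ∂ν := by
  have hg : Measurable fun x : ℝ => (x - 1) ^ 2 := (measurable_id.sub_const 1).pow_const 2
  have h1 := (indep_pathProduct hW i v).integral_fun_comp_mul_comp
    (f := fun x : ℝ => x ^ 2) (g := fun x : ℝ => (x - 1) ^ 2)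
    (measurable_pathProduct hW v).aemeasurable (hW.1 (i :: v)).aemeasurable
    (measurable_id.pow_const 2).aestronglyMeasurable hg.aestronglyMeasurable
  rw [integral_comp_W hW (List.cons_ne_nil i v) hg] at h1
  rw [← h1]
  simp only [incr, mul_pow]

theorem memLp_incr (hW : IsRealization ν μ W) (hm2 : Integrable (fun x : ℝ => x ^ 2) ν)
    (v : List ℕ) (i : ℕ) : MemLp (incr W v i) 2 μ :=
  (memLp_two_iff_integrable_sq (measurable_incr hW v i).aestronglyMeasurable).2
    (integrable_incr_sq hW hm2 v i)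

theorem integrable_incr_mul (hW : IsRealization ν μ W) (hm2 : Integrable (fun x : ℝ => x ^ 2) ν)
    (v : List ℕ) (i j : ℕ) : Integrable (fun ω => incr W v i ω * incr W v j ω) μ :=
  (memLp_incr hW hm2 v i).integrable_mul (memLp_incr hW hm2 v j)

theorem integral_incr_mul (hW : IsRealization ν μ W) (hm2 : Integrable (fun x : ℝ => x ^ 2) ν)
    (hmean : ∫ x, x ∂ν = 1) (v : List ℕ) {i j : ℕ} (hij : i ≠ j) :
    ∫ ω, incr W v i ω * incr W v j ω ∂μ = 0 := by
  have hY : Measurable[sig W (i :: v)] fun ω => incr W v i ω * pathProduct W v ω := by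
    have h1 : Measurable[sig W (i :: v)] (pathProduct W v) :=
      (measurable_pathProduct_sig W v).mono (sig_mono W i v) le_rfl
    exact (h1.mul ((measurable_W_sig W (i :: v)).sub_const 1)).mul h1
  have hind := indepFun_of_sig hW.1 hW.2.1 (not_cons_suffix_cons hij v) hY
  have hg : Measurable fun x : ℝ => x - 1 := measurable_id.sub_const 1
  have h1 := hind.integral_fun_comp_mul_comp
    (f := fun x : ℝ => x) (g := fun x : ℝ => x - 1)
    (hY.mono (sig_le hW.1 _) le_rfl).aemeasurable (hW.1 (j :: v)).aemeasurable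
    measurable_id.aestronglyMeasurable hg.aestronglyMeasurable
  rw [integral_comp_W hW (List.cons_ne_nil j v) hg, integral_sub_one_law hm2 hmean, mul_zero] at h1
  rw [← h1]
  refine integral_congr_ae (Eventually.of_forall fun ω => ?_)
  simp only [incr]
  ring

theorem sq_integral_abs_le {f : Ω → ℝ} (hf : Integrable f μ)
    (hf2 : Integrable (fun ω => f ω ^ 2) μ) :
    (∫ ω, |f ω| ∂μ) ^ 2 ≤ ∫ ω, f ω ^ 2 ∂μ := by
  set m := ∫ ω, |f ω| ∂μ with hm
  have h0 : 0 ≤ ∫ ω, (|f ω| - m) ^ 2 ∂μ := integral_nonneg fun ω => sq_nonneg _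
  have h1 : ∫ ω, (|f ω| - m) ^ 2 ∂μ = ∫ ω, f ω ^ 2 ∂μ - 2 * m * m + m ^ 2 := by
    have : (fun ω => (|f ω| - m) ^ 2) = fun ω => f ω ^ 2 - 2 * m * |f ω| + m ^ 2 := by
      funext ω; rw [sub_sq, sq_abs]; ring
    have e1 : ∫ ω, (f ω ^ 2 - 2 * m * |f ω| + m ^ 2) ∂μ =
        ∫ ω, (f ω ^ 2 - 2 * m * |f ω|) ∂μ + ∫ _, m ^ 2 ∂μ :=
      integral_add (hf2.sub (hf.abs.const_mul _)) (integrable_const _)
    have e2 : ∫ ω, (f ω ^ 2 - 2 * m * |f ω|) ∂μ =
        ∫ ω, f ω ^ 2 ∂μ - ∫ ω, 2 * m * |f ω| ∂μ :=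
      integral_sub hf2 (hf.abs.const_mul _)
    rw [this, e1, e2, integral_const_mul, integral_const, ← hm]
    simp
  nlinarith

theorem integrable_sum_incr (hW : IsRealization ν μ W) (hm2 : Integrable (fun x : ℝ => x ^ 2) ν)
    (v : List ℕ) (I : Finset ℕ) (c : ℕ → ℝ) :
    Integrable (fun ω => ∑ i ∈ I, c i * incr W v i ω) μ :=
  integrable_finsetSum I fun i _ => (integrable_incr hW hm2 v i).const_mul (c i)

theorem l2_bound (hW : IsRealization ν μ W) (hm2 : Integrable (fun x : ℝ => x ^ 2) ν)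
    (hmean : ∫ x, x ∂ν = 1) (v : List ℕ) (I : Finset ℕ) (c : ℕ → ℝ) :
    (∫ ω, |∑ i ∈ I, c i * incr W v i ω| ∂μ) ^ 2 ≤
      ((∫ ω, pathProduct W v ω ^ 2 ∂μ) * ∫ x, (x - 1) ^ 2 ∂ν) * ∑ i ∈ I, c i ^ 2 := by
  set K := (∫ ω, pathProduct W v ω ^ 2 ∂μ) * ∫ x, (x - 1) ^ 2 ∂ν with hK
  have hexp : (fun ω => (∑ i ∈ I, c i * incr W v i ω) ^ 2) =
      fun ω => ∑ i ∈ I, ∑ j ∈ I, (c i * c j) * (incr W v i ω * incr W v j ω) := by
    funext ω
    rw [sq, Finset.sum_mul_sum]
    refine Finset.sum_congr rfl fun i _ => Finset.sum_congr rfl fun j _ => ?_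
    ring
  have hint : ∀ i ∈ I, ∀ j ∈ I,
      Integrable (fun ω => (c i * c j) * (incr W v i ω * incr W v j ω)) μ :=
    fun i _ j _ => (integrable_incr_mul hW hm2 v i j).const_mul _
  have hint2 : ∀ i ∈ I,
      Integrable (fun ω => ∑ j ∈ I, (c i * c j) * (incr W v i ω * incr W v j ω)) μ :=
    fun i hi => integrable_finsetSum I (hint i hi)
  have hsq : Integrable (fun ω => (∑ i ∈ I, c i * incr W v i ω) ^ 2) μ := by
    rw [hexp]
    exact integrable_finsetSum I hint2
  refine (sq_integral_abs_le (integrable_sum_incr hW hm2 v I c) hsq).trans (le_of_eq ?_)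
  rw [hexp, integral_finsetSum I hint2, Finset.mul_sum]
  refine Finset.sum_congr rfl fun i hi => ?_
  rw [integral_finsetSum I (hint i hi), Finset.sum_eq_single i]
  · rw [integral_const_mul]
    have : ∫ ω, incr W v i ω * incr W v i ω ∂μ = K := by
      rw [hK, ← integral_incr_sq hW v i]
      simp only [sq]
    rw [this]; ring
  · intro j _ hji
    rw [integral_const_mul, integral_incr_mul hW hm2 hmean v (Ne.symm hji), mul_zero]
  · intro h; exact absurd hi h

/-- the class of `M_v` in `L¹`. -/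
noncomputable def cls (hW : IsRealization ν μ W) (hm2 : Integrable (fun x : ℝ => x ^ 2) ν)
    (v : List ℕ) : Lp ℝ 1 μ :=
  (integrable_pathProduct hW hm2 v).toL1 _

theorem cls_mem (hW : IsRealization ν μ W) (hm2 : Integrable (fun x : ℝ => x ^ 2) ν)
    (v : List ℕ) : cls hW hm2 v ∈ productSpan μ W :=
  Submodule.le_topologicalClosure _
    (Submodule.subset_span ⟨v, (integrable_pathProduct hW hm2 v).coeFn_toL1⟩)

/-- the class of `M_v` as an element of the product span. -/
noncomputable def vec (hW : IsRealization ν μ W) (hm2 : Integrable (fun x : ℝ => x ^ 2) ν)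
    (v : List ℕ) : productSpan μ W :=
  ⟨cls hW hm2 v, cls_mem hW hm2 v⟩

theorem norm_vec (hW : IsRealization ν μ W) (hm2 : Integrable (fun x : ℝ => x ^ 2) ν)
    (hpos : ν (Set.Ioi 0) = 1) (hmean : ∫ x, x ∂ν = 1) (v : List ℕ) : ‖vec hW hm2 v‖ = 1 := by
  change ‖cls hW hm2 v‖ = 1
  rw [cls, L1.norm_of_fun_eq_integral_norm]
  simpa only [Real.norm_eq_abs] using integral_abs_pathProduct hW hpos hmean v

theorem toL1_congr {f g : Ω → ℝ} (hf : Integrable f μ) (hg : Integrable g μ) (h : f = g) :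
    hf.toL1 f = hg.toL1 g := by
  subst h; rfl

theorem coe_vec_sub (hW : IsRealization ν μ W) (hm2 : Integrable (fun x : ℝ => x ^ 2) ν)
    (v : List ℕ) (i : ℕ) :
    ((vec hW hm2 (i :: v) - vec hW hm2 v : productSpan μ W) : Lp ℝ 1 μ) =
      (integrable_incr hW hm2 v i).toL1 _ := by
  rw [Submodule.coe_sub]
  change cls hW hm2 (i :: v) - cls hW hm2 v = _
  rw [cls, cls, ← Integrable.toL1_sub]
  exact toL1_congr _ _ (incr_eq W v i).symm

theorem sum_toL1 (hW : IsRealization ν μ W) (hm2 : Integrable (fun x : ℝ => x ^ 2) ν)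
    (v : List ℕ) (I : Finset ℕ) (c : ℕ → ℝ) :
    ∑ i ∈ I, c i • (integrable_incr hW hm2 v i).toL1 _ =
      (integrable_sum_incr hW hm2 v I c).toL1 _ := by
  classical
  induction I using Finset.induction_on with
  | empty =>
    have h0 : (fun ω => ∑ i ∈ (∅ : Finset ℕ), c i * incr W v i ω) = (0 : Ω → ℝ) := by
      funext ω; simp
    rw [Finset.sum_empty]
    exact ((toL1_congr _ (integrable_zero _ _ _) h0).trans (Integrable.toL1_zero _)).symm
  | insert a I ha ih =>
    rw [Finset.sum_insert ha, ih, ← Integrable.toL1_smul, ← Integrable.toL1_add]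
    refine toL1_congr _ _ ?_
    funext ω
    simp [Finset.sum_insert ha]

theorem norm_sum_vec (hW : IsRealization ν μ W) (hm2 : Integrable (fun x : ℝ => x ^ 2) ν)
    (v : List ℕ) (I : Finset ℕ) (c : ℕ → ℝ) :
    ‖∑ i ∈ I, c i • (vec hW hm2 (i :: v) - vec hW hm2 v)‖ =
      ∫ ω, |∑ i ∈ I, c i * incr W v i ω| ∂μ := by
  rw [Submodule.coe_norm, Submodule.coe_sum]
  simp only [Submodule.coe_smul, coe_vec_sub]
  rw [sum_toL1 hW hm2 v I c, L1.norm_of_fun_eq_integral_norm]
  simp only [Real.norm_eq_abs]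

theorem norm_vec_sub (hW : IsRealization ν μ W) (hm2 : Integrable (fun x : ℝ => x ^ 2) ν)
    (hpos : ν (Set.Ioi 0) = 1) (hmean : ∫ x, x ∂ν = 1) (v : List ℕ) (i : ℕ) :
    ‖vec hW hm2 (i :: v) - vec hW hm2 v‖ = ∫ x, |x - 1| ∂ν := by
  rw [Submodule.coe_norm, coe_vec_sub, L1.norm_of_fun_eq_integral_norm]
  simpa only [Real.norm_eq_abs] using integral_abs_incr hW hpos hmean v i

theorem weaklyNull_vec (hW : IsRealization ν μ W) (hm2 : Integrable (fun x : ℝ => x ^ 2) ν)
    (hmean : ∫ x, x ∂ν = 1) (v : List ℕ) (φ : productSpan μ W →L[ℝ] ℝ) :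
    Tendsto (fun i => φ (vec hW hm2 (i :: v) - vec hW hm2 v)) atTop (𝓝 0) :=
  weaklyNull_of_l2 _ _ (fun I c => by
    rw [norm_sum_vec]
    exact l2_bound hW hm2 hmean v I c) φ

theorem good_vec (hW : IsRealization ν μ W) (hm2 : Integrable (fun x : ℝ => x ^ 2) ν)
    (hpos : ν (Set.Ioi 0) = 1) (hmean : ∫ x, x ∂ν = 1) :
    ∀ (k : ℕ) (v : List ℕ), Good (min (∫ x, |x - 1| ∂ν) 1) k (vec hW hm2 v)
  | 0, v => (norm_vec hW hm2 hpos hmean v).le
  | k + 1, v =>
      good_succ_of_weaklyNull (norm_vec hW hm2 hpos hmean v).le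
        (fun i => vec hW hm2 (i :: v)) (fun i => good_vec hW hm2 hpos hmean k (i :: v))
        (fun i => by rw [norm_vec_sub hW hm2 hpos hmean]; exact min_le_left _ _)
        (weaklyNull_vec hW hm2 hmean v)

theorem not_finiteDimensional (hW : IsRealization ν μ W)
    (hm2 : Integrable (fun x : ℝ => x ^ 2) ν) (hpos : ν (Set.Ioi 0) = 1)
    (hnc : ∀ c : ℝ, ν ≠ Measure.dirac c) (hmean : ∫ x, x ∂ν = 1) :
    ¬ FiniteDimensional ℝ (productSpan μ W) :=
  not_finiteDimensional_of_weaklyNull (delta_pos hnc hm2) (weaklyNull_vec hW hm2 hmean [])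
    (fun i => (norm_vec_sub hW hm2 hpos hmean [] i).ge)

theorem not_isAUCOn (hW : IsRealization ν μ W)
    (hm2 : Integrable (fun x : ℝ => x ^ 2) ν) (hpos : ν (Set.Ioi 0) = 1)
    (hnc : ∀ c : ℝ, ν ≠ Measure.dirac c) (hmean : ∫ x, x ∂ν = 1)
    (N : productSpan μ W → ℝ) (hN : IsEquivNormOn N) : ¬ IsAUCOn N :=
  not_isAUCOn_of_good (lt_min (delta_pos hnc hm2) one_pos)
    (fun k => ⟨vec hW hm2 [], by rw [norm_vec hW hm2 hpos hmean]; exact min_le_right _ _,
      good_vec hW hm2 hpos hmean k []⟩) N hN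

end Main

end Crest.Agent.AUC.TP
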