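import Crest.Agent.AUC.Potential

/-! Task T4c (owner: helper11).  The summand spaces `TS n` of the example for S0166:
`ℓ²(List ℕ)` renormed by the dual ball `KT n`. -/

set_option autoImplicit false

namespace Crest.Agent.AUC

open Crest.AnalysisR.TreePotential
open scoped RealInnerProductSpace

/-- `ℓ²` over the countably branching tree. -/
abbrev HT : Type := lp (fun _ : List ℕ => ℝ) 2

/-- indicator of the root path of `s`. -/
noncomputable def chi : List ℕ → HT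
  | [] => lp.single 2 [] (1 : ℝ)
  | a :: v => chi v + lp.single 2 (a :: v) (1 : ℝ)

theorem inner_single_HT (u : List ℕ) (f : HT) : ⟪lp.single 2 u (1 : ℝ), f⟫ = f u := by
  rw [lp.inner_single_left]; simp

theorem inner_chi (s : List ℕ) (f : HT) : ⟪chi s, f⟫ = pathPotential (fun u => f u) s := by
  induction s with
  | nil => simp [chi, pathPotential, inner_single_HT]
  | cons a v ih => simp [chi, pathPotential, inner_add_left, inner_single_HT, ih]

theorem norm_single_HT (u : List ℕ) : ‖(lp.single 2 u (1 : ℝ) : HT)‖ = 1 := by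
  rw [lp.norm_single (by norm_num)]; simp

theorem norm_chi_le (s : List ℕ) : ‖chi s‖ ≤ s.length + 1 := by
  induction s with
  | nil => simp [chi]
  | cons a v ih =>
    calc ‖chi (a :: v)‖ ≤ ‖chi v‖ + ‖(lp.single 2 (a :: v) (1 : ℝ) : HT)‖ := norm_add_le _ _
      _ ≤ (v.length + 1) + 1 := by rw [norm_single_HT]; linarith
      _ = ((a :: v).length : ℝ) + 1 := by simp

theorem chi_apply (s u : List ℕ) : chi s u = if u <:+ s then 1 else 0 := by
  induction s with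
  | nil =>
    by_cases h : u = []
    · subst h; simp [chi]
    · simp [chi, h]
  | cons a v ih =>
    have e : chi (a :: v) u = chi v u + (lp.single 2 (a :: v) (1 : ℝ) : HT) u := rfl
    rw [e, ih]
    by_cases h : u = a :: v
    · subst h
      have : ¬ (a :: v <:+ v) := by
        intro hs
        have := hs.length_le
        simp at this
      simp [this]
    · simp [h, List.suffix_cons_iff]

theorem abs_pathPotential_le (f : HT) (s : List ℕ) :
    |pathPotential (fun u => f u) s| ≤ (s.length + 1) * ‖f‖ := by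
  rw [← inner_chi]
  calc |⟪chi s, f⟫| ≤ ‖chi s‖ * ‖f‖ := abs_real_inner_le_norm _ _
    _ ≤ (s.length + 1) * ‖f‖ := by gcongr; exact norm_chi_le s

/-- the dual ball defining the norm of `TS n`. -/
def KT (n : ℕ) : Set HT :=
  {f | ‖f‖ ≤ 1 ∧ ∀ s : List ℕ, s.length ≤ n → |pathPotential (fun u => f u) s| ≤ 1}

theorem zero_mem_KT (n : ℕ) : (0 : HT) ∈ KT n := by
  refine ⟨by simp, fun s _ => ?_⟩
  rw [← inner_chi]; simp

theorem neg_mem_KT {n : ℕ} {f : HT} (hf : f ∈ KT n) : -f ∈ KT n := by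
  refine ⟨by simpa using hf.1, fun s hs => ?_⟩
  rw [← inner_chi, inner_neg_right, abs_neg, inner_chi]
  exact hf.2 s hs

theorem single_mem_KT (n : ℕ) (u : List ℕ) : (lp.single 2 u (1 : ℝ) : HT) ∈ KT n := by
  refine ⟨(norm_single_HT u).le, fun s _ => ?_⟩
  rw [← inner_chi, real_inner_comm, inner_single_HT, chi_apply]
  split_ifs <;> simp

theorem smul_mem_KT (n : ℕ) (f : HT) (hf : ‖f‖ ≤ 1) : ((n + 1 : ℝ)⁻¹ • f) ∈ KT n := by
  have hn : (0 : ℝ) < n + 1 := by positivity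
  have hnorm : ‖((n + 1 : ℝ)⁻¹ • f)‖ ≤ (n + 1 : ℝ)⁻¹ := by
    rw [norm_smul, Real.norm_of_nonneg (inv_nonneg.mpr hn.le)]
    calc (n + 1 : ℝ)⁻¹ * ‖f‖ ≤ (n + 1 : ℝ)⁻¹ * 1 := by gcongr
      _ = _ := mul_one _
  refine ⟨hnorm.trans (inv_le_one_of_one_le₀ (by linarith [(Nat.cast_nonneg n : (0 : ℝ) ≤ n)])),
    fun s hs => ?_⟩
  refine (abs_pathPotential_le _ s).trans ?_
  have hs' : (s.length : ℝ) + 1 ≤ n + 1 := by exact_mod_cast Nat.succ_le_succ hs
  calc ((s.length : ℝ) + 1) * ‖((n + 1 : ℝ)⁻¹ • f)‖ ≤ (n + 1) * (n + 1 : ℝ)⁻¹ := by gcongr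
    _ = 1 := mul_inv_cancel₀ hn.ne'

/-- the evaluation embedding `x ↦ (f ↦ ⟪f, x⟫)` of `ℓ²` into bounded functions on `KT n`. -/
noncomputable def PhiT (n : ℕ) : HT →L[ℝ] lp (fun _ : KT n => ℝ) ⊤ :=
  LinearMap.mkContinuous
    { toFun := fun x => ⟨fun f => ⟪(f : HT), x⟫, memℓp_infty ⟨‖x‖, by
        rintro _ ⟨f, rfl⟩
        calc ‖⟪(f : HT), x⟫‖ ≤ ‖(f : HT)‖ * ‖x‖ := norm_inner_le_norm _ _
          _ ≤ 1 * ‖x‖ := by gcongr; exact f.2.1
          _ = ‖x‖ := one_mul _⟩⟩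
      map_add' := fun x y => by
        ext f; exact inner_add_right _ _ _
      map_smul' := fun c x => by
        ext f; exact inner_smul_right _ _ _ }
    1 (fun x => by
      refine lp.norm_le_of_forall_le (by positivity) fun f => ?_
      calc ‖⟪(f : HT), x⟫‖ ≤ ‖(f : HT)‖ * ‖x‖ := norm_inner_le_norm _ _
        _ ≤ 1 * ‖x‖ := by gcongr; exact f.2.1)

theorem PhiT_apply (n : ℕ) (x : HT) (f : KT n) : PhiT n x f = ⟪(f : HT), x⟫ := rfl

theorem norm_PhiT_le (n : ℕ) (x : HT) : ‖PhiT n x‖ ≤ ‖x‖ := by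
  refine lp.norm_le_of_forall_le (by positivity) fun f => ?_
  rw [PhiT_apply]
  calc ‖⟪(f : HT), x⟫‖ ≤ ‖(f : HT)‖ * ‖x‖ := norm_inner_le_norm _ _
    _ ≤ 1 * ‖x‖ := by gcongr; exact f.2.1
    _ = ‖x‖ := one_mul _

theorem inner_le_norm_PhiT {n : ℕ} {f : HT} (hf : f ∈ KT n) (x : HT) : ⟪f, x⟫ ≤ ‖PhiT n x‖ := by
  have h := lp.norm_apply_le_norm (by simp) (PhiT n x) ⟨f, hf⟩
  rw [PhiT_apply] at h
  exact (le_abs_self _).trans h

theorem norm_PhiT_le_of {n : ℕ} {x : HT} {M : ℝ} (h : ∀ f ∈ KT n, ⟪f, x⟫ ≤ M) :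
    ‖PhiT n x‖ ≤ M := by
  have hM : 0 ≤ M := by simpa using h 0 (zero_mem_KT n)
  refine lp.norm_le_of_forall_le hM fun f => ?_
  rw [PhiT_apply, Real.norm_eq_abs, abs_le]
  refine ⟨?_, h f f.2⟩
  have := h (-f) (neg_mem_KT f.2)
  rw [inner_neg_left] at this
  linarith

theorem exists_inner_gt {n : ℕ} (x : HT) {ε : ℝ} (hε : 0 < ε) :
    ∃ f ∈ KT n, ‖PhiT n x‖ - ε < ⟪f, x⟫ := by
  by_contra hcon
  push Not at hcon
  have := norm_PhiT_le_of hcon
  linarith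

theorem norm_le_mul_norm_PhiT (n : ℕ) (x : HT) : ‖x‖ ≤ (n + 1) * ‖PhiT n x‖ := by
  have hn : (0 : ℝ) < n + 1 := by positivity
  rcases eq_or_ne x 0 with rfl | hx
  · simp
  have hx0 : 0 < ‖x‖ := norm_pos_iff.mpr hx
  have hf : ‖(‖x‖⁻¹ • x)‖ ≤ 1 := by
    rw [norm_smul, norm_inv, norm_norm, inv_mul_cancel₀ hx0.ne']
  have h := inner_le_norm_PhiT (smul_mem_KT n _ hf) x
  rw [inner_smul_left, inner_smul_left, real_inner_self_eq_norm_sq] at h
  simp only [conj_trivial] at h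
  have e : (n + 1 : ℝ)⁻¹ * (‖x‖⁻¹ * ‖x‖ ^ 2) = (n + 1 : ℝ)⁻¹ * ‖x‖ := by
    field_simp
  rw [e] at h
  calc ‖x‖ = (n + 1) * ((n + 1 : ℝ)⁻¹ * ‖x‖) := by field_simp
    _ ≤ (n + 1) * ‖PhiT n x‖ := by gcongr

theorem PhiT_injective (n : ℕ) : Function.Injective (PhiT n) := by
  rw [injective_iff_map_eq_zero]
  intro x hx
  have := norm_le_mul_norm_PhiT n x
  rw [hx, norm_zero, mul_zero] at this
  exact norm_le_zero_iff.mp this

/-- the summand space: `ℓ²(List ℕ)` with the norm `sup_{f ∈ KT n} ⟪f, x⟫`, realised as the range of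
`PhiT n`. -/
abbrev TS (n : ℕ) : Type := LinearMap.range (PhiT n : HT →ₗ[ℝ] lp (fun _ : KT n => ℝ) ⊤)

/-- the identification of `ℓ²` with `TS n`. -/
noncomputable def eT (n : ℕ) : HT ≃L[ℝ] TS n :=
  (LinearEquiv.ofInjective (PhiT n : HT →ₗ[ℝ] lp (fun _ : KT n => ℝ) ⊤)
    (PhiT_injective n)).toContinuousLinearEquivOfBounds 1 (n + 1)
    (fun x => by rw [one_mul]; exact norm_PhiT_le n x)
    (fun y => by
      obtain ⟨x, rfl⟩ := (LinearEquiv.ofInjective (PhiT n : HT →ₗ[ℝ] lp (fun _ : KT n => ℝ) ⊤)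
        (PhiT_injective n)).surjective y
      rw [LinearEquiv.symm_apply_apply]
      exact norm_le_mul_norm_PhiT n x)

theorem norm_eT (n : ℕ) (x : HT) : ‖eT n x‖ = ‖PhiT n x‖ := rfl

theorem norm_eT_le (n : ℕ) (x : HT) : ‖eT n x‖ ≤ ‖x‖ := norm_PhiT_le n x

instance instCompleteSpaceTS (n : ℕ) : CompleteSpace (TS n) :=
  (completeSpace_congr (e := (eT n).toEquiv) (eT n).isUniformEmbedding).mp inferInstance

theorem hasSum_sq_HT (f : HT) : HasSum (fun s => f s ^ 2) (‖f‖ ^ 2) := by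
  have h := lp.hasSum_norm (p := 2) (by norm_num) f
  simpa using h

theorem exists_HT_of_sq_le (h : List ℕ → ℝ) (f g : HT) (α β : ℝ)
    (hle : ∀ s, h s ^ 2 ≤ α ^ 2 * f s ^ 2 + β ^ 2 * g s ^ 2) :
    ∃ h' : HT, (∀ s, h' s = h s) ∧ ‖h'‖ ^ 2 ≤ α ^ 2 * ‖f‖ ^ 2 + β ^ 2 * ‖g‖ ^ 2 := by
  have hsum : HasSum (fun s => α ^ 2 * f s ^ 2 + β ^ 2 * g s ^ 2)
      (α ^ 2 * ‖f‖ ^ 2 + β ^ 2 * ‖g‖ ^ 2) :=
    ((hasSum_sq_HT f).mul_left _).add ((hasSum_sq_HT g).mul_left _)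
  have hs : Summable (fun s => h s ^ 2) :=
    Summable.of_nonneg_of_le (fun s => sq_nonneg _) hle hsum.summable
  have hmem : Memℓp h 2 := by
    apply memℓp_gen
    simpa using hs
  refine ⟨⟨h, hmem⟩, fun s => rfl, ?_⟩
  have h1 := hasSum_sq_HT ⟨h, hmem⟩
  exact hasSum_le hle h1 hsum

theorem inner_eq_tsum_HT (f g : HT) : ⟪f, g⟫ = ∑' s, f s * g s := by
  rw [lp.inner_eq_tsum]
  congr 1
  ext s
  simp [mul_comm]

/-- The exact midpoint inequality in `TS n`. -/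
theorem TS_mid (n : ℕ) (A : Set (List ℕ)) (hA : IsDownSet A) (x y : HT)
    (hx : ∀ s ∉ A, x s = 0) (hy : ∀ s ∈ A, y s = 0) :
    Real.sqrt (‖eT n x‖ ^ 2 + ‖eT n y‖ ^ 2 / 4) ≤ (‖eT n (x + y)‖ + ‖eT n (x - y)‖) / 2 := by
  simp only [norm_eT]
  set a := ‖PhiT n x‖ with ha
  set b := ‖PhiT n y‖ with hb
  set R := Real.sqrt (a ^ 2 + b ^ 2 / 4) with hR
  have ha0 : 0 ≤ a := norm_nonneg _
  have hb0 : 0 ≤ b := norm_nonneg _
  have hR0 : 0 ≤ R := Real.sqrt_nonneg _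
  have hRsq : R ^ 2 = a ^ 2 + b ^ 2 / 4 := Real.sq_sqrt (by positivity)
  -- trivial bound
  have htriv : b ≤ (‖PhiT n (x + y)‖ + ‖PhiT n (x - y)‖) / 2 := by
    have e : (2 : ℝ) • PhiT n y = PhiT n (x + y) - PhiT n (x - y) := by
      rw [← map_sub, ← map_smul]; congr 1; rw [two_smul]; abel
    have h1 : ‖(2 : ℝ) • PhiT n y‖ ≤ ‖PhiT n (x + y)‖ + ‖PhiT n (x - y)‖ := by
      rw [e]; exact norm_sub_le _ _
    rw [norm_smul] at h1
    simp only [Real.norm_ofNat] at h1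
    linarith
  rcases lt_or_ge R b with hlt | hge
  · linarith
  rcases hR0.eq_or_lt with h0 | hRpos
  · rw [← h0]; positivity
  set α := a / R with hα
  set β := b / 2 / R with hβ
  have hα0 : 0 ≤ α := by positivity
  have hβ0 : 0 ≤ β := by positivity
  have hαβ : α ^ 2 + β ^ 2 = 1 := by
    have h1 : α ^ 2 + β ^ 2 = (a ^ 2 + b ^ 2 / 4) / R ^ 2 := by
      rw [hα, hβ]; field_simp; ring
    rw [h1, ← hRsq]; exact div_self (by positivity)
  have hα1 : α ≤ 1 := by nlinarith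
  have hβ1 : β ≤ 1 / 2 := by
    rw [hβ, div_le_iff₀ hRpos]; linarith
  have key : ∀ f ∈ KT n, ∀ g ∈ KT n,
      α * ⟪f, x⟫ + β / 2 * ⟪g, y⟫ ≤ (‖PhiT n (x + y)‖ + ‖PhiT n (x - y)‖) / 2 := by
    intro f hf g hg
    obtain ⟨hp, hm, hAeq, hAc, hpot⟩ := exists_split A hA (fun u => f u) (fun u => g u) α β
      hα0 hα1 hβ0 hβ1
    have hsq : ∀ (h : List ℕ → ℝ), (∀ s ∈ A, h s = α * f s) → (∀ s ∉ A, |h s| ≤ β * |g s|) →
        ∀ s, h s ^ 2 ≤ α ^ 2 * f s ^ 2 + β ^ 2 * g s ^ 2 := by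
      intro h h1 h2 s
      by_cases hs : s ∈ A
      · rw [h1 s hs, mul_pow]
        have : 0 ≤ β ^ 2 * g s ^ 2 := by positivity
        linarith
      · have h3 := h2 s hs
        have h4 : h s ^ 2 ≤ (β * |g s|) ^ 2 := by
          rw [← sq_abs (h s)]
          exact pow_le_pow_left₀ (abs_nonneg _) h3 2
        rw [mul_pow, sq_abs] at h4
        have : 0 ≤ α ^ 2 * f s ^ 2 := by positivity
        linarith
    obtain ⟨hp', hp'eq, hp'n⟩ := exists_HT_of_sq_le hp f g α β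
      (hsq hp (fun s hs => (hAeq s hs).1) (fun s hs => (hAc s hs).1))
    obtain ⟨hm', hm'eq, hm'n⟩ := exists_HT_of_sq_le hm f g α β
      (hsq hm (fun s hs => (hAeq s hs).2) (fun s hs => (hAc s hs).2.1))
    have hbound : α ^ 2 * ‖f‖ ^ 2 + β ^ 2 * ‖g‖ ^ 2 ≤ 1 := by
      have h1 : ‖f‖ ^ 2 ≤ 1 := pow_le_one₀ (norm_nonneg _) hf.1
      have h2 : ‖g‖ ^ 2 ≤ 1 := pow_le_one₀ (norm_nonneg _) hg.1
      nlinarith [sq_nonneg α, sq_nonneg β]
    have hfun_p : (fun u => hp' u) = hp := funext hp'eq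
    have hfun_m : (fun u => hm' u) = hm := funext hm'eq
    have hpK : hp' ∈ KT n := by
      refine ⟨?_, fun s hs => ?_⟩
      · have : ‖hp'‖ ^ 2 ≤ 1 := hp'n.trans hbound
        exact (sq_le_one_iff₀ (norm_nonneg _)).mp this
      · rw [hfun_p]
        exact (hpot s (fun u hu => hf.2 u (hu.length_le.trans hs))
          (fun u hu => hg.2 u (hu.length_le.trans hs))).1
    have hmK : hm' ∈ KT n := by
      refine ⟨?_, fun s hs => ?_⟩
      · have : ‖hm'‖ ^ 2 ≤ 1 := hm'n.trans hbound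
        exact (sq_le_one_iff₀ (norm_nonneg _)).mp this
      · rw [hfun_m]
        exact (hpot s (fun u hu => hf.2 u (hu.length_le.trans hs))
          (fun u hu => hg.2 u (hu.length_le.trans hs))).2
    have h1 := inner_le_norm_PhiT hpK (x + y)
    have h2 := inner_le_norm_PhiT hmK (x - y)
    have e1 : ⟪hp' + hm', x⟫ = 2 * α * ⟪f, x⟫ := by
      rw [inner_eq_tsum_HT, inner_eq_tsum_HT, ← tsum_mul_left]
      congr 1
      ext s
      by_cases hs : s ∈ A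
      · have : (hp' + hm') s = hp' s + hm' s := rfl
        rw [this, hp'eq, hm'eq, (hAeq s hs).1, (hAeq s hs).2]; ring
      · rw [hx s hs]; ring
    have e2 : ⟪hp' - hm', y⟫ = β * ⟪g, y⟫ := by
      rw [inner_eq_tsum_HT, inner_eq_tsum_HT, ← tsum_mul_left]
      congr 1
      ext s
      by_cases hs : s ∈ A
      · rw [hy s hs]; ring
      · have : (hp' - hm') s = hp' s - hm' s := rfl
        rw [this, hp'eq, hm'eq, (hAc s hs).2.2]; ring
    have e3 : ⟪hp', x + y⟫ + ⟪hm', x - y⟫ = ⟪hp' + hm', x⟫ + ⟪hp' - hm', y⟫ := by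
      simp only [inner_add_left, inner_add_right, inner_sub_left, inner_sub_right]; ring
    rw [e1, e2] at e3
    linarith
  -- pass to the supremum
  have hfin : ∀ ε : ℝ, 0 < ε → R - 2 * ε ≤ (‖PhiT n (x + y)‖ + ‖PhiT n (x - y)‖) / 2 := by
    intro ε hε
    obtain ⟨f, hf, hf'⟩ := exists_inner_gt (n := n) x hε
    obtain ⟨g, hg, hg'⟩ := exists_inner_gt (n := n) y hε
    have h := key f hf g hg
    have hRab : α * a + β / 2 * b = R := by
      rw [hα, hβ]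
      have : a / R * a + b / 2 / R / 2 * b = (a ^ 2 + b ^ 2 / 4) / R := by field_simp; ring
      rw [this, ← hRsq]; field_simp
    have h3 : α * (a - ε) ≤ α * ⟪f, x⟫ := by gcongr
    have h4 : β / 2 * (b - ε) ≤ β / 2 * ⟪g, y⟫ := by gcongr
    have h5 : α * ε + β / 2 * ε ≤ 2 * ε := by nlinarith
    nlinarith
  by_contra hcon
  push Not at hcon
  have := hfin ((R - (‖PhiT n (x + y)‖ + ‖PhiT n (x - y)‖) / 2) / 4) (by linarith)
  linarith

end Crest.Agent.AUC
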